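import Mathlib

/-!
The group ring acting on functions by translations, the dilation operators `P F r`,
and the Frobenius congruence `(P F r)^ℓ = P F (ℓ r)` modulo a prime `ℓ`.
-/

namespace Vale.Agent.Lib.P043

open AddMonoidAlgebra

variable {G : Type*} [AddCommGroup G]

/-- The dilation operator: `(P F r u) x = ∑ f ∈ F, u (x - r • f)`. -/
def P {k : Type*} [AddCommMonoid k] (F : Finset G) (r : ℕ) (u : G → k) (x : G) : k :=
  ∑ f ∈ F, u (x - r • f)

section act
variable {k : Type*} [CommRing k]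

/-- translation operators -/
def shiftHom (k : Type*) [CommRing k] : Multiplicative G →* Module.End k (G → k) where
  toFun h :=
    { toFun := fun u x => u (x - Multiplicative.toAdd h)
      map_add' := by intros; rfl
      map_smul' := by intros; rfl }
  map_one' := by
    apply LinearMap.ext
    intro u
    funext x
    simp
  map_mul' := by
    intro a b
    apply LinearMap.ext
    intro u
    funext x
    simp only [toAdd_mul, LinearMap.coe_mk, AddHom.coe_mk, Module.End.mul_apply]
    congr 1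
    abel

/-- the action of the group ring on functions -/
noncomputable def act : AddMonoidAlgebra k G →ₐ[k] Module.End k (G → k) :=
  AddMonoidAlgebra.lift k (Module.End k (G → k)) G (shiftHom k)

lemma act_single (h : G) (c : k) (u : G → k) (x : G) :
    act (single h c) u x = c * u (x - h) := by
  simp only [act, AddMonoidAlgebra.lift_single]
  simp [shiftHom]

/-- the weighted dilation element of the group ring -/
noncomputable def wt (F : Finset G) (r : ℕ) (c : G → k) : AddMonoidAlgebra k G :=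
  ∑ f ∈ F, single (r • f) (c f)

lemma act_sum_apply {ι : Type*} (s : Finset ι) (e : ι → AddMonoidAlgebra k G) (u : G → k) (x : G) :
    act (∑ i ∈ s, e i) u x = ∑ i ∈ s, act (e i) u x := by
  rw [map_sum, LinearMap.sum_apply, Finset.sum_apply]

lemma act_wt (F : Finset G) (r : ℕ) (c : G → k) (u : G → k) (x : G) :
    act (wt F r c) u x = ∑ f ∈ F, c f * u (x - r • f) := by
  simp only [wt, act_sum_apply, act_single]

lemma act_wt_one (F : Finset G) (r : ℕ) (u : G → k) :
    act (wt F r (fun _ => (1 : k))) u = P F r u := by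
  funext x
  simp [act_wt, P]

lemma act_mul (e e' : AddMonoidAlgebra k G) (u : G → k) :
    act (e * e') u = act e (act e' u) := by
  rw [map_mul]; rfl

end act

section frob

variable (ℓ : ℕ) [hℓ : Fact ℓ.Prime]

theorem pw_pow (F : Finset G) (r : ℕ) :
    (wt F r (fun _ => (1 : ZMod ℓ))) ^ ℓ = wt F (ℓ * r) (fun _ => (1 : ZMod ℓ)) := by
  classical
  have : CharP (AddMonoidAlgebra (ZMod ℓ) G) ℓ :=
    charP_of_injective_algebraMap (algebraMap (ZMod ℓ) (AddMonoidAlgebra (ZMod ℓ) G)).injective ℓ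
  have : ExpChar (AddMonoidAlgebra (ZMod ℓ) G) ℓ := ExpChar.prime hℓ.out
  simp only [wt]
  rw [sum_pow_char]
  apply Finset.sum_congr rfl
  intro f _
  rw [AddMonoidAlgebra.single_pow, one_pow, smul_smul]

theorem P_iterate (F : Finset G) (r : ℕ) (v : G → ZMod ℓ) :
    (P F r)^[ℓ] v = P F (ℓ * r) v := by
  have e : (⇑(act (wt F r (fun _ => (1 : ZMod ℓ))))) = P F r := funext fun u => act_wt_one F r u
  rw [← act_wt_one, ← pw_pow, map_pow, Module.End.pow_apply, e]

lemma P_const {k : Type*} [CommSemiring k] (F : Finset G) (r : ℕ) (c : k) :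
    P F r (fun _ => c) = fun _ => (F.card : k) * c := by
  funext x
  simp [P]

lemma P_iterate_const {k : Type*} [CommSemiring k] (F : Finset G) (r : ℕ) (c : k) (m : ℕ) :
    (P F r)^[m] (fun _ => c) = fun _ => (F.card : k) ^ m * c := by
  induction m generalizing c with
  | zero => simp
  | succ m ih =>
    rw [Function.iterate_succ_apply, P_const, ih, pow_succ]
    funext x
    ring

omit [AddCommGroup G] hℓ in
lemma iterate_pred {α : Type*} (f : α → α) (a : α) (n : ℕ) (hn : 0 < n) :
    f^[n] a = f^[n - 1] (f a) := by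
  cases n with
  | zero => omega
  | succ m => simp [Function.iterate_succ_apply]

/-- cast of `P` to `ZMod ℓ` -/
lemma cast_P (F : Finset G) (r : ℕ) (u : G → ℤ) (x : G) :
    ((P F r u x : ℤ) : ZMod ℓ) = P F r (fun y => ((u y : ℤ) : ZMod ℓ)) x := by
  simp [P]

/-- If `P F r u = 1` then modulo `ℓ`, `P F (ℓ r) u` is constant `|F|^(ℓ-1)`. -/
lemma cast_P_mul_of_const (F : Finset G) (r : ℕ) (u : G → ℤ) (hu : ∀ x, P F r u x = 1) (x : G) :
    ((P F (ℓ * r) u x : ℤ) : ZMod ℓ) = (F.card : ZMod ℓ) ^ (ℓ - 1) := by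
  rw [cast_P, ← P_iterate]
  have h1 : P F r (fun y => ((u y : ℤ) : ZMod ℓ)) = fun _ => (1 : ZMod ℓ) := by
    funext y
    rw [← cast_P, hu y]
    simp
  rw [iterate_pred _ _ _ hℓ.out.pos, h1, P_iterate_const, mul_one]

/-- If `ℓ ∣ P F r u` pointwise then `ℓ ∣ P F (ℓ r) u` pointwise. -/
lemma dvd_P_mul_of_dvd (F : Finset G) (r : ℕ) (u : G → ℤ)
    (hu : ∀ x, (ℓ : ℤ) ∣ P F r u x) (x : G) : (ℓ : ℤ) ∣ P F (ℓ * r) u x := by
  rw [← ZMod.intCast_zmod_eq_zero_iff_dvd, cast_P, ← P_iterate]
  have h1 : P F r (fun y => ((u y : ℤ) : ZMod ℓ)) = fun _ => (0 : ZMod ℓ) := by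
    funext y
    rw [← cast_P]
    exact (ZMod.intCast_zmod_eq_zero_iff_dvd _ _).mpr (hu y)
  rw [iterate_pred _ _ _ hℓ.out.pos, h1, P_iterate_const, mul_zero]

end frob

end Vale.Agent.Lib.P043
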