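import Mathlib

/-!
A finite sum of differences of bounded functions on an abelian group
cannot be uniformly positive (a Dixmier type criterion, proved by averaging).
-/

namespace Vale.Agent.Lib.P043

variable {G : Type*} [AddCommGroup G]

theorem no_pos_sum_diff {ι : Type*} (s : Finset ι) :
    ∀ (w : ι → G → ℝ) (h : ι → G) (B c : ℝ), (∀ i x, |w i x| ≤ B) → 0 < c →
      ¬ ∀ x, c ≤ ∑ i ∈ s, (w i (x + h i) - w i x) := by
  classical
  induction s using Finset.induction_on with
  | empty =>
    intro w h B c _ hc H
    have := H 0
    simp at this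
    linarith
  | insert a s ha ih =>
    intro w h B c hB hc H
    -- choose the averaging length
    obtain ⟨N, hN⟩ := exists_nat_gt (4 * |B| / c)
    have hNpos : (0 : ℝ) < (N : ℝ) + 1 := by positivity
    have hN' : 4 * |B| < c * ((N : ℝ) + 1) := by
      have h1 : 4 * |B| / c < (N : ℝ) + 1 := by linarith
      rw [div_lt_iff₀ hc] at h1
      linarith
    set L : ℕ := N + 1 with hL
    have hLr : (L : ℝ) = (N : ℝ) + 1 := by simp [hL]
    -- averaged functions
    let W : ι → G → ℝ := fun i x => (∑ j ∈ Finset.range L, w i (x + j • h a)) / (L : ℝ)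
    have hWb : ∀ i x, |W i x| ≤ |B| := by
      intro i x
      have : |∑ j ∈ Finset.range L, w i (x + j • h a)| ≤ L * |B| := by
        calc |∑ j ∈ Finset.range L, w i (x + j • h a)|
            ≤ ∑ j ∈ Finset.range L, |w i (x + j • h a)| := Finset.abs_sum_le_sum_abs _ _
          _ ≤ ∑ _j ∈ Finset.range L, |B| := by
              apply Finset.sum_le_sum
              intro j _
              exact (hB i _).trans (le_abs_self B)
          _ = L * |B| := by simp
      simp only [W]
      rw [abs_div, abs_of_pos (show (0 : ℝ) < (L : ℝ) by rw [hLr]; exact hNpos)]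
      rw [div_le_iff₀ (show (0 : ℝ) < (L : ℝ) by rw [hLr]; exact hNpos)]
      linarith
    refine ih W h |B| (c / 2) hWb (by positivity) ?_
    intro x
    -- sum H over the orbit
    have hsum : (L : ℝ) * c ≤ ∑ j ∈ Finset.range L,
        ((w a (x + j • h a + h a) - w a (x + j • h a)) +
          ∑ i ∈ s, (w i (x + j • h a + h i) - w i (x + j • h a))) := by
      calc (L : ℝ) * c = ∑ _j ∈ Finset.range L, c := by simp
        _ ≤ _ := by
          apply Finset.sum_le_sum
          intro j _
          have := H (x + j • h a)
          rwa [Finset.sum_insert ha] at this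
    rw [Finset.sum_add_distrib] at hsum
    have htele : ∑ j ∈ Finset.range L, (w a (x + j • h a + h a) - w a (x + j • h a))
        = w a (x + L • h a) - w a x := by
      have key := Finset.sum_range_sub (fun j : ℕ => w a (x + j • h a)) L
      simp only [zero_smul, add_zero] at key
      rw [← key]
      apply Finset.sum_congr rfl
      intro j _
      rw [succ_nsmul, add_assoc]
    have hbd : w a (x + L • h a) - w a x ≤ 2 * |B| := by
      have h1 := abs_le.mp ((hB a (x + L • h a)).trans (le_abs_self B))
      have h2 := abs_le.mp ((hB a x).trans (le_abs_self B))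
      linarith [h1.2, h2.1]
    have hswap : ∑ j ∈ Finset.range L, ∑ i ∈ s, (w i (x + j • h a + h i) - w i (x + j • h a))
        = (L : ℝ) * ∑ i ∈ s, (W i (x + h i) - W i x) := by
      rw [Finset.sum_comm, Finset.mul_sum]
      apply Finset.sum_congr rfl
      intro i _
      simp only [W]
      have hL0 : (L : ℝ) ≠ 0 := by rw [hLr]; exact hNpos.ne'
      rw [← sub_div, mul_div_cancel₀ _ hL0, ← Finset.sum_sub_distrib]
      apply Finset.sum_congr rfl
      intro j _
      rw [show x + j • h a + h i = x + h i + j • h a by abel]
    rw [htele, hswap] at hsum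
    have hLpos : (0 : ℝ) < L := by rw [hLr]; exact hNpos
    have h2 : 2 * |B| < c / 2 * L := by rw [hLr]; linarith
    by_contra hcon
    rw [not_le] at hcon
    have : (L : ℝ) * ∑ i ∈ s, (W i (x + h i) - W i x) < (L : ℝ) * (c / 2) :=
      mul_lt_mul_of_pos_left hcon hLpos
    nlinarith

end Vale.Agent.Lib.P043
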