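import Mathlib
import Vale.Agent.Lib.P043.Dixmier

/-!
Minimal subsystems of the translation action on `G → Bool`, and the vanishing
principle: a nonnegative local quantity of mean zero vanishes on a minimal system.
-/

namespace Vale.Agent.Lib.P043

variable {G : Type*} [AddCommGroup G]

/-- translate of a configuration -/
def tr (h : G) (B : G → Bool) : G → Bool := fun x => B (x + h)

/-- integer indicator of a configuration -/
def ind (B : G → Bool) (x : G) : ℤ := if B x then 1 else 0

omit [AddCommGroup G] in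
lemma ind_nonneg (B : G → Bool) (x : G) : 0 ≤ ind B x := by
  unfold ind; split_ifs <;> simp

omit [AddCommGroup G] in
lemma ind_le_one (B : G → Bool) (x : G) : ind B x ≤ 1 := by
  unfold ind; split_ifs <;> simp

omit [AddCommGroup G] in
lemma ind_zero_or_one (B : G → Bool) (x : G) : ind B x = 0 ∨ ind B x = 1 := by
  unfold ind; split_ifs <;> simp

lemma ind_tr (h : G) (B : G → Bool) (x : G) : ind (tr h B) x = ind B (x + h) := rfl

lemma tr_tr (h k : G) (B : G → Bool) : tr h (tr k B) = tr (k + h) B := by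
  funext x
  simp only [tr]
  congr 1
  abel

lemma tr_zero (B : G → Bool) : tr 0 B = B := by
  funext x; simp [tr]

lemma continuous_tr (h : G) : Continuous (tr h : (G → Bool) → (G → Bool)) := by
  apply continuous_pi
  intro x
  exact continuous_apply (x + h)

omit [AddCommGroup G] in
lemma continuous_ind (x : G) : Continuous (fun B : G → Bool => ind B x) := by
  have h1 : Continuous (fun B : G → Bool => B x) := continuous_apply x
  have h2 : Continuous (fun b : Bool => (if b then (1 : ℤ) else 0)) := continuous_of_discreteTopology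
  exact h2.comp h1

/-- minimal subsystem -/
structure MinSys (X : Set (G → Bool)) : Prop where
  nonempty : X.Nonempty
  closed : IsClosed X
  inv : ∀ h, ∀ B ∈ X, tr h B ∈ X
  min : ∀ Y ⊆ X, Y.Nonempty → IsClosed Y → (∀ h, ∀ B ∈ Y, tr h B ∈ Y) → Y = X

theorem exists_minSys (X0 : Set (G → Bool)) (h1 : X0.Nonempty) (h2 : IsClosed X0)
    (h3 : ∀ h, ∀ B ∈ X0, tr h B ∈ X0) : ∃ X ⊆ X0, MinSys X := by
  let S : Set (Set (G → Bool)) :=
    {Y | Y.Nonempty ∧ IsClosed Y ∧ ∀ h, ∀ B ∈ Y, tr h B ∈ Y}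
  have hS : X0 ∈ S := ⟨h1, h2, h3⟩
  obtain ⟨m, hm, hmin⟩ := zorn_superset_nonempty S (by
    intro c hc hchain hne
    refine ⟨⋂₀ c, ⟨?_, ?_, ?_⟩, fun s hs => Set.sInter_subset_of_mem hs⟩
    · have : Nonempty c := hne.to_subtype
      apply IsCompact.nonempty_sInter_of_directed_nonempty_isCompact_isClosed
      · intro a ha b hb
        rcases hchain.total ha hb with hab | hba
        · exact ⟨a, ha, le_refl a, hab⟩
        · exact ⟨b, hb, hba, le_refl b⟩
      · intro U hU; exact (hc hU).1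
      · intro U hU; exact (hc hU).2.1.isCompact
      · intro U hU; exact (hc hU).2.1
    · exact isClosed_sInter fun U hU => (hc hU).2.1
    · intro h B hB U hU
      exact (hc hU).2.2 h B (hB U hU)) X0 hS
  refine ⟨m, hm, hmin.prop.1, hmin.prop.2.1, hmin.prop.2.2, ?_⟩
  intro Y hY hne hcl hinv
  have hYS : Y ∈ S := ⟨hne, hcl, hinv⟩
  exact Set.Subset.antisymm hY (hmin.le_of_le hYS hY)

/-- The vanishing principle. -/
theorem MinSys.vanish {X : Set (G → Bool)} (hX : MinSys X) {ι : Type*} (s : Finset ι)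
    (z z' : ι → G) (c : ℤ)
    (hpos : ∀ B ∈ X, c ≤ ∑ i ∈ s, ind B (z i))
    (heq : ∀ B ∈ X, ∑ i ∈ s, ind B (z' i) = c) :
    ∀ B ∈ X, ∑ i ∈ s, ind B (z i) = c := by
  classical
  intro B0 hB0
  by_contra hne
  -- the local quantity
  let ϕ : (G → Bool) → ℤ := fun B => ∑ i ∈ s, ind B (z i) - c
  have hϕc : Continuous ϕ := by
    apply Continuous.sub
    · exact continuous_finsetSum _ fun i _ => continuous_ind (z i)
    · exact continuous_const
  have hϕ0 : ∀ B ∈ X, 0 ≤ ϕ B := fun B hB => by simp only [ϕ]; linarith [hpos B hB]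
  let U : Set (G → Bool) := ϕ ⁻¹' {0}ᶜ
  have hUo : IsOpen U := (isOpen_discrete _).preimage hϕc
  have hUc : IsClosed U := (isClosed_discrete _).preimage hϕc
  -- every point of X returns to U
  let Y : Set (G → Bool) := {B ∈ X | ∀ h, tr h B ∉ U}
  have hYcl : IsClosed Y := by
    have : Y = X ∩ ⋂ h, (tr h) ⁻¹' Uᶜ := by
      ext B; simp [Y, Set.mem_iInter]
    rw [this]
    exact hX.closed.inter (isClosed_iInter fun h => (hUo.isClosed_compl).preimage (continuous_tr h))
  have hYinv : ∀ h, ∀ B ∈ Y, tr h B ∈ Y := by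
    intro h B hB
    refine ⟨hX.inv h B hB.1, fun k => ?_⟩
    rw [tr_tr]
    exact hB.2 _
  have hY0 : B0 ∉ Y := by
    intro hmem
    apply hmem.2 0
    simp only [U, Set.mem_preimage, Set.mem_compl_iff, Set.mem_singleton_iff, tr_zero, ϕ]
    intro h0
    exact hne (by linarith)
  have hYempty : Y = ∅ := by
    by_contra hYne
    have hYn : Y.Nonempty := Set.nonempty_iff_ne_empty.mpr hYne
    have := hX.min Y (fun B hB => hB.1) hYn hYcl hYinv
    exact hY0 (this ▸ hB0)
  have hcover : ∀ B ∈ X, ∃ h, tr h B ∈ U := by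
    intro B hB
    by_contra hcon
    push Not at hcon
    have : B ∈ Y := ⟨hB, hcon⟩
    rw [hYempty] at this
    exact this
  -- finite subcover
  obtain ⟨K, hK⟩ := hX.closed.isCompact.elim_finite_subcover (fun h => (tr h) ⁻¹' U)
    (fun h => hUo.preimage (continuous_tr h)) (by
      intro B hB
      obtain ⟨h, hh⟩ := hcover B hB
      exact Set.mem_iUnion.mpr ⟨h, hh⟩)
  -- the sum along K is at least one everywhere
  have hge : ∀ x : G, (1 : ℤ) ≤ ∑ k ∈ K, ϕ (tr k (tr x B0)) := by
    intro x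
    have hBx : tr x B0 ∈ X := hX.inv x B0 hB0
    obtain ⟨k, hkK, hk⟩ := Set.mem_iUnion₂.mp (hK hBx)
    have h1 : ϕ (tr k (tr x B0)) ≠ 0 := hk
    have h2 : 0 ≤ ϕ (tr k (tr x B0)) := hϕ0 _ (hX.inv k _ hBx)
    have h3 : ϕ (tr k (tr x B0)) ≤ ∑ k ∈ K, ϕ (tr k (tr x B0)) :=
      Finset.single_le_sum (f := fun k => ϕ (tr k (tr x B0)))
        (fun j _ => hϕ0 _ (hX.inv j _ hBx)) hkK
    omega
  -- rewrite as a sum of differences
  let w : G × ι → G → ℝ := fun p x => ((ind B0 (x + p.1 + z' p.2) : ℤ) : ℝ)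
  let hh : G × ι → G := fun p => z p.2 - z' p.2
  have hbd : ∀ p x, |w p x| ≤ 1 := by
    intro p x
    simp only [w]
    rcases ind_zero_or_one B0 (x + p.1 + z' p.2) with h | h <;> simp [h]
  apply no_pos_sum_diff (K ×ˢ s) w hh 1 1 hbd one_pos
  intro x
  have hx := hge x
  have hrew : ∑ p ∈ K ×ˢ s, (w p (x + hh p) - w p x)
      = ((∑ k ∈ K, ϕ (tr k (tr x B0)) : ℤ) : ℝ) := by
    rw [Finset.sum_product]
    push_cast
    apply Finset.sum_congr rfl
    intro k _
    simp only [ϕ, w, hh]
    have hc := heq (tr k (tr x B0)) (hX.inv k _ (hX.inv x _ hB0))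
    have hcR : ((c : ℤ) : ℝ) = ∑ i ∈ s, ((ind (tr k (tr x B0)) (z' i) : ℤ) : ℝ) := by
      rw [← hc]; push_cast; rfl
    push_cast
    rw [hcR, ← Finset.sum_sub_distrib]
    apply Finset.sum_congr rfl
    intro i _
    simp only [ind_tr]
    have e1 : x + (z i - z' i) + k + z' i = z i + k + x := by abel
    have e2 : x + k + z' i = z' i + k + x := by abel
    rw [e1, e2]
  rw [hrew]
  exact_mod_cast hx

end Vale.Agent.Lib.P043
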