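import Mathlib
import Vale.Agent.Lib.P043.System
import Vale.Agent.Lib.P043.GroupRing

/-!
Existence of a tiling with exact dilation properties, for tiles of size `p * q`.
-/

namespace Vale.Agent.Lib.P043

variable {G : Type*} [AddCommGroup G]

lemma P_tr (F : Finset G) (r : ℕ) (h : G) (B : G → Bool) (x : G) :
    P F r (ind (tr h B)) x = P F r (ind B) (x + h) := by
  simp only [P, ind_tr]
  apply Finset.sum_congr rfl
  intro f _
  congr 1
  abel

lemma P_zero_eq (F : Finset G) (r : ℕ) (B : G → Bool) :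
    P F r (ind B) 0 = ∑ f ∈ F, ind B (-(r • f)) := by
  simp [P]

lemma P_nonneg (F : Finset G) (r : ℕ) (u : G → ℤ) (hu : ∀ x, 0 ≤ u x) (x : G) : 0 ≤ P F r u x :=
  Finset.sum_nonneg fun _ _ => hu _

lemma P_ind_nonneg (F : Finset G) (r : ℕ) (B : G → Bool) (x : G) : 0 ≤ P F r (ind B) x :=
  P_nonneg F r _ (ind_nonneg B) x

lemma P_comm {k : Type*} [AddCommMonoid k] (F : Finset G) (α β : ℕ) (u : G → k) (x : G) :
    P F α (P F β u) x = P F β (P F α u) x := by
  simp only [P]
  rw [Finset.sum_comm]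
  apply Finset.sum_congr rfl
  intro g _
  apply Finset.sum_congr rfl
  intro f _
  congr 1
  abel

section
variable (F : Finset G)

/-- the set of tilings -/
def tilings : Set (G → Bool) := {B | ∀ x, P F 1 (ind B) x = 1}

lemma tilings_closed : IsClosed (tilings F) := by
  have : tilings F = ⋂ x, {B : G → Bool | P F 1 (ind B) x = 1} := by
    ext B; simp [tilings]
  rw [this]
  apply isClosed_iInter
  intro x
  have hc : Continuous (fun B : G → Bool => P F 1 (ind B) x) := by
    simp only [P]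
    exact continuous_finsetSum _ fun f _ => continuous_ind _
  exact isClosed_eq hc continuous_const

lemma tilings_inv (h : G) (B : G → Bool) (hB : B ∈ tilings F) : tr h B ∈ tilings F := by
  intro x
  rw [P_tr]
  exact hB _

variable {F}

/-- vanishing for a minimal system of tilings: single dilation -/
lemma MinSys.eq_one_of_one_le {X : Set (G → Bool)} (hX : MinSys X) (hXF : X ⊆ tilings F) (r : ℕ)
    (hpos : ∀ B ∈ X, ∀ x, 1 ≤ P F r (ind B) x) : ∀ B ∈ X, ∀ x, P F r (ind B) x = 1 := by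
  have key := hX.vanish F (fun f => -(r • f)) (fun f => -(1 • f)) 1
    (fun B hB => by
      have := hpos B hB 0
      rwa [P_zero_eq] at this)
    (fun B hB => by
      have := hXF hB 0
      rwa [P_zero_eq] at this)
  intro B hB x
  have := key (tr x B) (hX.inv x B hB)
  rw [← P_zero_eq, P_tr, zero_add] at this
  exact this

/-- the dilation lemma on a minimal system -/
theorem MinSys.dilation {X : Set (G → Bool)} (hX : MinSys X) (hXF : X ⊆ tilings F)
    (hn : 2 ≤ F.card) (r : ℕ) (hr : Nat.Coprime r F.card) :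
    ∀ B ∈ X, ∀ x, P F r (ind B) x = 1 := by
  induction r using Nat.strong_induction_on with
  | _ r ih =>
    rcases Nat.lt_or_ge r 2 with h2 | h2
    · interval_cases r
      · exfalso
        simp only [Nat.coprime_zero_left] at hr
        omega
      · exact fun B hB x => hXF hB x
    · set ℓ := r.minFac with hℓdef
      have hℓ : ℓ.Prime := Nat.minFac_prime (by omega)
      obtain ⟨r₁, hr₁⟩ := Nat.minFac_dvd r
      have hr₁lt : r₁ < r := by
        have : 0 < r₁ := by
          rcases Nat.eq_zero_or_pos r₁ with h | h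
          · subst h; omega
          · exact h
        have := hℓ.two_le
        rw [← hℓdef] at hr₁
        nlinarith
      have hcop₁ : Nat.Coprime r₁ F.card :=
        Nat.Coprime.coprime_dvd_left ⟨r.minFac, by rw [mul_comm]; exact hr₁⟩ hr
      have hIH := ih r₁ hr₁lt hcop₁
      have : Fact ℓ.Prime := ⟨hℓ⟩
      have hℓn : ¬ ℓ ∣ F.card := fun hd =>
        hℓ.one_lt.ne' (Nat.eq_one_of_dvd_coprimes hr (Nat.minFac_dvd r) hd)
      have hone : ((F.card : ℕ) : ZMod ℓ) ≠ 0 := by
        rw [Ne, ZMod.natCast_eq_zero_iff]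
        exact hℓn
      apply MinSys.eq_one_of_one_le hX hXF r
      intro B hB x
      have hc := cast_P_mul_of_const ℓ F r₁ (ind B) (hIH B hB) x
      rw [ZMod.pow_card_sub_one_eq_one hone] at hc
      rw [← hr₁] at hc
      have hnn := P_ind_nonneg F r B x
      by_contra hlt
      have h0 : P F r (ind B) x = 0 := by omega
      rw [h0] at hc
      simp at hc

end

section
variable {F : Finset G}

/-- divisibility of `P F r (ind B)` for `ℓ ∣ r`, `ℓ' ∤ r`, `|F| = ℓ ℓ'` -/
theorem MinSys.dvd_P {X : Set (G → Bool)} (hX : MinSys X) (hXF : X ⊆ tilings F)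
    {ℓ ℓ' : ℕ} (hℓ : ℓ.Prime) (hℓ' : ℓ'.Prime) (hcard : F.card = ℓ * ℓ') (r : ℕ)
    (hr : ℓ ∣ r) (hr' : ¬ ℓ' ∣ r) : ∀ B ∈ X, ∀ x, (ℓ : ℤ) ∣ P F r (ind B) x := by
  have : Fact ℓ.Prime := ⟨hℓ⟩
  induction r using Nat.strong_induction_on with
  | _ r ih =>
    obtain ⟨r₁, rfl⟩ := hr
    have hr₁pos : 0 < r₁ := by
      rcases Nat.eq_zero_or_pos r₁ with h | h
      · subst h; simp at hr'
      · exact h
    have hr₁' : ¬ ℓ' ∣ r₁ := fun h => hr' (Dvd.dvd.mul_left h ℓ)
    by_cases hd : ℓ ∣ r₁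
    · have hlt : r₁ < ℓ * r₁ := by nlinarith [hℓ.two_le]
      have := ih r₁ hlt hd hr₁'
      intro B hB x
      exact dvd_P_mul_of_dvd ℓ F r₁ (ind B) (this B hB) x
    · have hcop : Nat.Coprime r₁ F.card := by
        rw [hcard]
        apply Nat.Coprime.mul_right
        · exact ((Nat.Prime.coprime_iff_not_dvd hℓ).mpr hd).symm
        · exact ((Nat.Prime.coprime_iff_not_dvd hℓ').mpr hr₁').symm
      have h2 : 2 ≤ F.card := by
        rw [hcard]; nlinarith [hℓ.two_le, hℓ'.two_le]
      intro B hB x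
      have hc := cast_P_mul_of_const ℓ F r₁ (ind B) (MinSys.dilation hX hXF h2 r₁ hcop B hB) x
      rw [← ZMod.intCast_zmod_eq_zero_iff_dvd, hc, hcard]
      have : ((ℓ * ℓ' : ℕ) : ZMod ℓ) = 0 := by simp
      rw [this, zero_pow]
      have := hℓ.two_le
      omega

lemma P_P_apply {k : Type*} [AddCommMonoid k] (F : Finset G) (α β : ℕ) (u : G → k) (x : G) :
    P F α (P F β u) x = ∑ f ∈ F, ∑ g ∈ F, u (x - α • f - β • g) := rfl

/-- the key exact identity -/
theorem MinSys.P_P_eq {X : Set (G → Bool)} (hX : MinSys X) (hXF : X ⊆ tilings F)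
    {p q : ℕ} (hp : p.Prime) (hq : q.Prime) (hpq : p ≠ q) (hcard : F.card = p * q) (α β : ℕ)
    (h1 : p ∣ α) (h2 : ¬ q ∣ α) (h3 : q ∣ β) (h4 : ¬ p ∣ β) :
    ∀ B ∈ X, ∀ x, P F α (P F β (ind B)) x = (p * q : ℕ) := by
  classical
  have hn2 : 2 ≤ F.card := by rw [hcard]; nlinarith [hp.two_le, hq.two_le]
  have hcop : Nat.Coprime (α + β) F.card := by
    rw [hcard]
    apply Nat.Coprime.mul_right
    · apply ((Nat.Prime.coprime_iff_not_dvd hp).mpr _).symm
      intro hd
      exact h4 ((Nat.dvd_add_right h1).mp hd)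
    · apply ((Nat.Prime.coprime_iff_not_dvd hq).mpr _).symm
      intro hd
      exact h2 ((Nat.dvd_add_left h3).mp hd)
  have hdiag := MinSys.dilation hX hXF hn2 (α + β) hcop
  have hdp := MinSys.dvd_P hX hXF hp hq hcard α h1 h2
  have hdq := MinSys.dvd_P hX hXF hq hp (by rw [hcard, mul_comm]) β h3 h4
  -- lower bound
  have hlow : ∀ B ∈ X, ∀ x, ((p * q : ℕ) : ℤ) ≤ P F α (P F β (ind B)) x := by
    intro B hB x
    have hge1 : 1 ≤ P F α (P F β (ind B)) x := by
      have h := hdiag B hB x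
      rw [← h]
      simp only [P]
      apply Finset.sum_le_sum
      intro f hf
      have : ind B (x - (α + β) • f) = ind B (x - α • f - β • f) := by
        congr 1
        rw [add_smul]
        abel
      rw [this]
      exact Finset.single_le_sum (f := fun g => ind B (x - α • f - β • g))
        (fun g _ => ind_nonneg B _) hf
    have hdvdp : (p : ℤ) ∣ P F α (P F β (ind B)) x := by
      rw [P_comm]
      exact Finset.dvd_sum fun g _ => hdp B hB _
    have hdvdq : (q : ℤ) ∣ P F α (P F β (ind B)) x :=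
      Finset.dvd_sum fun f _ => hdq B hB _
    have hcopZ : IsCoprime (p : ℤ) (q : ℤ) :=
      Nat.isCoprime_iff_coprime.mpr ((Nat.coprime_primes hp hq).mpr hpq)
    have hdvd : ((p * q : ℕ) : ℤ) ∣ P F α (P F β (ind B)) x := by
      push_cast
      exact hcopZ.mul_dvd hdvdp hdvdq
    exact Int.le_of_dvd (by omega) hdvd
  have key := hX.vanish (F ×ˢ F) (fun w => -(α • w.1) - β • w.2) (fun w => -(1 • w.2))
    ((p * q : ℕ) : ℤ)
    (fun B hB => by
      have := hlow B hB 0
      rw [P_P_apply, ← Finset.sum_product'] at this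
      simpa using this)
    (fun B hB => by
      rw [Finset.sum_product]
      have h1 : ∀ f ∈ F, ∑ g ∈ F, ind B (-(1 • g)) = 1 := by
        intro f _
        have := hXF hB 0
        rwa [P_zero_eq] at this
      rw [Finset.sum_congr rfl h1, ← hcard]
      simp)
  intro B hB x
  have := key (tr x B) (hX.inv x B hB)
  rw [Finset.sum_product] at this
  rw [P_P_apply, ← this]
  apply Finset.sum_congr rfl
  intro f _
  apply Finset.sum_congr rfl
  intro g _
  simp only [ind_tr]
  congr 1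
  abel

end

/-- Existence of a tiling with exact dilation identities. -/
theorem exists_nice (F : Finset G) {p q : ℕ} (hp : p.Prime) (hq : q.Prime) (hpq : p ≠ q)
    (hcard : F.card = p * q) (B0 : G → Bool) (hB0 : ∀ x, P F 1 (ind B0) x = 1) :
    ∃ B : G → Bool,
      (∀ r, Nat.Coprime r (p * q) → ∀ x, P F r (ind B) x = 1) ∧
      (∀ α β, p ∣ α → ¬ q ∣ α → q ∣ β → ¬ p ∣ β → ∀ x, P F α (P F β (ind B)) x = (p * q : ℕ)) ∧
      (∀ r, p ∣ r → ¬ q ∣ r → ∀ x, (p : ℤ) ∣ P F r (ind B) x) ∧
      (∀ r, q ∣ r → ¬ p ∣ r → ∀ x, (q : ℤ) ∣ P F r (ind B) x) := by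
  obtain ⟨X, hX0, hX⟩ := exists_minSys (tilings F) ⟨B0, hB0⟩ (tilings_closed F)
    (fun h B hB => tilings_inv F h B hB)
  obtain ⟨B, hB⟩ := hX.nonempty
  have hn2 : 2 ≤ F.card := by rw [hcard]; nlinarith [hp.two_le, hq.two_le]
  refine ⟨B, ?_, ?_, ?_, ?_⟩
  · intro r hr
    rw [← hcard] at hr
    exact MinSys.dilation hX hX0 hn2 r hr B hB
  · intro α β h1 h2 h3 h4
    exact MinSys.P_P_eq hX hX0 hp hq hpq hcard α β h1 h2 h3 h4 B hB
  · intro r h1 h2
    exact MinSys.dvd_P hX hX0 hp hq hcard r h1 h2 B hB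
  · intro r h1 h2
    exact MinSys.dvd_P hX hX0 hq hp (by rw [hcard, mul_comm]) r h1 h2 B hB

end Vale.Agent.Lib.P043
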