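import Mathlib

/-!
Vanishing of power sums and rotation invariance of weighted multisets of nonzero complex numbers.
-/

namespace Vale.Agent.Lib.P043

open Finset

/-- weighted multiplicity of the value `v` -/
noncomputable def Mu {ι : Type*} (s : Finset ι) (c : ι → ℂ) (z : ι → ℂ) (v : ℂ) : ℂ := by
  classical
  exact ∑ i ∈ s, if z i = v then c i else 0

lemma sum_eq_sum_Mu {ι : Type*} (s : Finset ι) (a w : ι → ℂ) (r : ℕ) :
    ∑ i ∈ s, a i * w i ^ r = ∑ v ∈ s.image w, Mu s a w v * v ^ r := by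
  classical
  simp only [Mu, Finset.sum_mul]
  rw [Finset.sum_comm]
  apply Finset.sum_congr rfl
  intro i hi
  rw [Finset.sum_eq_single (w i)]
  · simp
  · intro b _ hb
    rw [if_neg (Ne.symm hb)]
    simp
  · intro hn
    exact absurd (Finset.mem_image_of_mem w hi) hn

/-- If all positive power sums vanish, all weighted multiplicities vanish. -/
theorem Mu_eq_zero_of_power_sums {ι : Type*} (s : Finset ι) (a w : ι → ℂ)
    (hw : ∀ i ∈ s, w i ≠ 0) (h : ∀ r : ℕ, 1 ≤ r → ∑ i ∈ s, a i * w i ^ r = 0) (v : ℂ) :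
    Mu s a w v = 0 := by
  classical
  by_cases hv : v ∈ s.image w
  · set S := s.image w with hS
    let e := S.equivFin.symm
    let f : Fin S.card → ℂ := fun j => (e j : ℂ)
    have hf : Function.Injective f := fun x y hxy => e.injective (Subtype.ext hxy)
    let x : Fin S.card → ℂ := fun j => Mu s a w (e j) * (e j : ℂ)
    have hx : x = 0 := by
      apply Matrix.eq_zero_of_forall_pow_sum_mul_pow_eq_zero hf
      intro i
      have h1 := h (i + 1) (by omega)
      rw [sum_eq_sum_Mu] at h1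
      rw [← h1, ← Finset.sum_coe_sort S (fun v => Mu s a w v * v ^ ((i : ℕ) + 1))]
      rw [← Equiv.sum_comp e]
      apply Finset.sum_congr rfl
      intro j _
      simp only [x, f]
      ring
    have hjv := congrFun hx (S.equivFin ⟨v, hv⟩)
    simp only [x, e, Equiv.symm_apply_apply, Pi.zero_apply] at hjv
    rcases mul_eq_zero.mp hjv with h0 | h0
    · exact h0
    · exfalso
      obtain ⟨i, hi, rfl⟩ := Finset.mem_image.mp hv
      exact hw i hi h0
  · simp only [Mu]
    apply Finset.sum_eq_zero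
    intro i hi
    rw [if_neg]
    intro hiv
    exact hv (hiv ▸ Finset.mem_image_of_mem w hi)

/-- rotation invariance of the weighted multiplicity -/
theorem Mu_rot {ι : Type*} (s : Finset ι) (c z : ι → ℂ) (hz : ∀ i ∈ s, z i ≠ 0) (q : ℕ) (ζ : ℂ)
    (hζ : ζ ^ q = 1) (hq : q ≠ 0) (h : ∀ r : ℕ, 1 ≤ r → ¬ q ∣ r → ∑ i ∈ s, c i * z i ^ r = 0)
    (v : ℂ) : Mu s c z (ζ * v) = Mu s c z v := by
  classical
  have hζ0 : ζ ≠ 0 := by
    intro h0
    rw [h0, zero_pow hq] at hζ
    exact zero_ne_one hζ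
  have hs : ∀ r : ℕ, 1 ≤ r → ∑ x ∈ s.disjSum s, (Sum.elim c (fun i => - c i) x)
      * (Sum.elim (fun i => ζ * z i) z x) ^ r = 0 := by
    intro r hr
    rw [Finset.sum_disjSum]
    simp only [Sum.elim_inl, Sum.elim_inr]
    have : ∑ i ∈ s, c i * (ζ * z i) ^ r + ∑ i ∈ s, - c i * z i ^ r
        = (ζ ^ r - 1) * ∑ i ∈ s, c i * z i ^ r := by
      rw [Finset.mul_sum, ← Finset.sum_add_distrib]
      apply Finset.sum_congr rfl
      intro i _
      ring
    rw [this]
    by_cases hd : q ∣ r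
    · obtain ⟨k, rfl⟩ := hd
      rw [pow_mul, hζ, one_pow]
      simp
    · rw [h r hr hd, mul_zero]
  have h0 := Mu_eq_zero_of_power_sums (s.disjSum s) (Sum.elim c (fun i => - c i))
    (Sum.elim (fun i => ζ * z i) z)
    (by
      rintro (i | i) hi
      · simp only [Finset.inl_mem_disjSum] at hi
        simpa using ⟨hζ0, hz i hi⟩
      · simp only [Finset.inr_mem_disjSum] at hi
        simpa using hz i hi) hs (ζ * v)
  simp only [Mu] at h0 ⊢
  rw [Finset.sum_disjSum] at h0
  simp only [Sum.elim_inl, Sum.elim_inr] at h0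
  have e1 : ∀ i, (ζ * z i = ζ * v) ↔ z i = v := fun i => mul_right_inj' hζ0
  simp only [e1] at h0
  have h0' : (∑ i ∈ s, if z i = v then c i else 0) + (∑ i ∈ s, if z i = ζ * v then - c i else 0) = 0 := by
    convert h0 using 3
    rename_i x hx
    by_cases hh : z x = ζ * v
    · rw [if_pos hh]; exact (if_pos hh).symm
    · rw [if_neg hh]; exact (if_neg hh).symm
  have e2 : (∑ i ∈ s, if z i = ζ * v then - c i else 0) = - ∑ i ∈ s, if z i = ζ * v then c i else 0 := by
    rw [← Finset.sum_neg_distrib]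
    apply Finset.sum_congr rfl
    intro i _
    split_ifs <;> simp
  rw [e2] at h0'
  exact (add_neg_eq_zero.mp h0').symm

lemma Mu_rot_pow {ι : Type*} (s : Finset ι) (c z : ι → ℂ) (hz : ∀ i ∈ s, z i ≠ 0) (q : ℕ) (ζ : ℂ)
    (hζ : ζ ^ q = 1) (hq : q ≠ 0) (h : ∀ r : ℕ, 1 ≤ r → ¬ q ∣ r → ∑ i ∈ s, c i * z i ^ r = 0)
    (k : ℕ) (v : ℂ) : Mu s c z (ζ ^ k * v) = Mu s c z v := by
  induction k with
  | zero => simp
  | succ k ih =>
    rw [pow_succ', mul_assoc, Mu_rot s c z hz q ζ hζ hq h, ih]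

end Vale.Agent.Lib.P043
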