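import Mathlib
import Vale.Agent.Lib.P043.GroupRing

/-!
The spectral principle, from the Nullstellensatz: a bounded function on a finitely
generated abelian group is `h`-periodic as soon as every character in the zero locus of
its annihilator ideal is trivial on `h`.
-/

namespace Vale.Agent.Lib.P043

open AddMonoidAlgebra

variable {G : Type*} [AddCommGroup G]

/-- annihilator ideal of a function -/
noncomputable def annIdeal (u : G → ℂ) : Ideal (AddMonoidAlgebra ℂ G) where
  carrier := {e | act e u = 0}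
  add_mem' := by
    intro a b ha hb
    simp only [Set.mem_ofPred_eq] at *
    rw [map_add, LinearMap.add_apply, ha, hb, add_zero]
  zero_mem' := by
    simp
  smul_mem' := by
    intro c e he
    simp only [Set.mem_ofPred_eq] at *
    rw [smul_eq_mul, act_mul, he, map_zero]

lemma mem_annIdeal (u : G → ℂ) (e : AddMonoidAlgebra ℂ G) : e ∈ annIdeal u ↔ act e u = 0 := Iff.rfl

/-- extension of a character to the group ring -/
noncomputable def evalChar (χ : AddChar G ℂ) : AddMonoidAlgebra ℂ G →ₐ[ℂ] ℂ :=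
  AddMonoidAlgebra.lift ℂ ℂ G χ.toMonoidHom

lemma evalChar_single (χ : AddChar G ℂ) (h : G) (c : ℂ) : evalChar χ (single h c) = c * χ h := by
  simp [evalChar, AddMonoidAlgebra.lift_single]

lemma evalChar_wt (χ : AddChar G ℂ) (F : Finset G) (r : ℕ) (c : G → ℂ) :
    evalChar χ (wt F r c) = ∑ f ∈ F, c f * χ f ^ r := by
  simp only [wt, map_sum, evalChar_single, AddChar.map_nsmul_eq_pow]

/-- `χ` lies in the zero locus of the annihilator of `u` -/
def InV (χ : AddChar G ℂ) (u : G → ℂ) : Prop := ∀ e, act e u = 0 → evalChar χ e = 0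

lemma InV.ne_zero {χ : AddChar G ℂ} {u : G → ℂ} (h : InV χ u) : u ≠ 0 := by
  rintro rfl
  have := h 1 (map_zero _)
  simp at this

lemma InV.exists_ne {χ : AddChar G ℂ} {u : G → ℂ} (h : InV χ u) : ∃ x, u x ≠ 0 := by
  by_contra hcon
  push Not at hcon
  exact h.ne_zero (funext hcon)

/-- zero locus of a finite sum -/
lemma InV_sum {ι : Type*} (s : Finset ι) (v : ι → G → ℂ) (χ : AddChar G ℂ)
    (h : InV χ (∑ i ∈ s, v i)) : ∃ i ∈ s, InV χ (v i) := by
  classical
  by_contra hcon
  push Not at hcon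
  have h' : ∀ i ∈ s, ∃ e, act e (v i) = 0 ∧ evalChar χ e ≠ 0 := by
    intro i hi
    have := hcon i hi
    unfold InV at this
    push Not at this
    exact this
  choose! e he1 he2 using h'
  have hact : act (∏ i ∈ s, e i) (∑ i ∈ s, v i) = 0 := by
    rw [map_sum]
    apply Finset.sum_eq_zero
    intro i hi
    rw [← Finset.mul_prod_erase s e hi, mul_comm, act_mul, he1 i hi, map_zero]
  have := h _ hact
  rw [map_prod] at this
  obtain ⟨i, hi, h0⟩ := Finset.prod_eq_zero_iff.mp this
  exact he2 i hi h0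

/-- consequence of an annihilation identity -/
lemma InV.weighted {χ : AddChar G ℂ} {v : G → ℂ} (h : InV χ v) (F : Finset G) (r : ℕ) (c : G → ℂ)
    (hz : ∀ x, ∑ f ∈ F, c f * v (x - r • f) = 0) : ∑ f ∈ F, c f * χ f ^ r = 0 := by
  rw [← evalChar_wt]
  apply h
  funext x
  rw [act_wt, hz]
  rfl

lemma act_sub_one (h : G) (v : G → ℂ) (x : G) :
    act (single h (1 : ℂ) - 1) v x = v (x - h) - v x := by
  rw [map_sub, LinearMap.sub_apply, Pi.sub_apply, act_single, map_one]
  simp

/-- consequence of a constant dilation -/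
lemma InV.power_sum {χ : AddChar G ℂ} {v : G → ℂ} (h : InV χ v) (F : Finset G) (r : ℕ) (C : ℂ)
    (hz : ∀ x, P F r v x = C) (g : G) (hg : χ g ≠ 1) : ∑ f ∈ F, χ f ^ r = 0 := by
  have hact : act ((single g (1 : ℂ) - 1) * wt F r (fun _ => (1 : ℂ))) v = 0 := by
    rw [act_mul, act_wt_one]
    funext x
    rw [act_sub_one, hz, hz]
    simp
  have := h _ hact
  rw [map_mul, map_sub, map_one, evalChar_single, evalChar_wt] at this
  simp only [one_mul] at this
  rcases mul_eq_zero.mp this with h0 | h0
  · exact absurd (sub_eq_zero.mp h0) hg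
  · exact h0

/-- difference operator -/
def D (h : G) (v : G → ℂ) : G → ℂ := fun x => v (x - h) - v x

lemma bounded_D_of_D_D (h : G) (v : G → ℂ) (C : ℝ) (hC : ∀ x, ‖v x‖ ≤ C)
    (hDD : D h (D h v) = 0) : D h v = 0 := by
  have hper : ∀ x, D h v (x - h) = D h v x := by
    intro x
    have := congrFun hDD x
    simp only [D, Pi.zero_apply] at this ⊢
    linear_combination this
  have hper' : ∀ (n : ℕ) (x : G), D h v (x - n • h) = D h v x := by
    intro n
    induction n with
    | zero => simp
    | succ n ih =>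
      intro x
      rw [succ_nsmul, ← sub_sub, hper, ih]
  have hline : ∀ (n : ℕ) (x : G), v (x - n • h) = v x + n * D h v x := by
    intro n
    induction n with
    | zero => simp
    | succ n ih =>
      intro x
      have h1 : v (x - (n + 1) • h) = v (x - n • h) + D h v (x - n • h) := by
        simp only [D]
        rw [succ_nsmul, ← sub_sub]
        ring
      rw [h1, hper', ih]
      push_cast
      ring
  funext x
  simp only [Pi.zero_apply]
  by_contra hne
  have hpos : 0 < ‖D h v x‖ := norm_pos_iff.mpr hne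
  obtain ⟨n, hn⟩ := exists_nat_gt (2 * C / ‖D h v x‖)
  have h2 : 2 * C < n * ‖D h v x‖ := by
    rwa [div_lt_iff₀ hpos] at hn
  have h3 : (n : ℂ) * D h v x = v (x - n • h) - v x := by
    rw [hline]; ring
  have h4 : ‖(n : ℂ) * D h v x‖ = n * ‖D h v x‖ := by
    rw [norm_mul]; simp
  have h5 : ‖v (x - n • h) - v x‖ ≤ 2 * C := by
    calc ‖v (x - n • h) - v x‖ ≤ ‖v (x - n • h)‖ + ‖v x‖ := norm_sub_le _ _
      _ ≤ C + C := add_le_add (hC _) (hC _)
      _ = 2 * C := by ring
  rw [← h3, h4] at h5
  linarith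

lemma iterate_D_bounded (h : G) (K : ℕ) : ∀ (v : G → ℂ) (C : ℝ), (∀ x, ‖v x‖ ≤ C) →
    (D h)^[K + 1] v = 0 → D h v = 0 := by
  induction K with
  | zero =>
    intro v C _ hv
    simpa using hv
  | succ K ih =>
    intro v C hC hv
    have h1 : D h (D h v) = 0 := by
      apply ih (D h v) (2 * C)
      · intro x
        calc ‖D h v x‖ ≤ ‖v (x - h)‖ + ‖v x‖ := norm_sub_le _ _
          _ ≤ C + C := add_le_add (hC _) (hC _)
          _ = 2 * C := by ring
      · rw [← Function.iterate_succ_apply]
        exact hv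
    exact bounded_D_of_D_D h v C hC h1

/-- the Nullstellensatz step: a maximal ideal of the group ring is the kernel of a character -/
lemma exists_char_of_maximal [AddGroup.FG G] (J : Ideal (AddMonoidAlgebra ℂ G)) (hJ : J.IsMaximal) :
    ∃ χ : AddChar G ℂ, ∀ e, e ∈ J ↔ evalChar χ e = 0 := by
  classical
  let _ : Field (AddMonoidAlgebra ℂ G ⧸ J) := Ideal.Quotient.field J
  have : IsJacobsonRing ℂ := inferInstance
  have hfin : Module.Finite ℂ (AddMonoidAlgebra ℂ G ⧸ J) :=
    finite_of_finite_type_of_isJacobsonRing ℂ (AddMonoidAlgebra ℂ G ⧸ J)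
  have hint : Algebra.IsIntegral ℂ (AddMonoidAlgebra ℂ G ⧸ J) := Algebra.IsIntegral.of_finite _ _
  have hbij : Function.Bijective (algebraMap ℂ (AddMonoidAlgebra ℂ G ⧸ J)) :=
    IsAlgClosed.algebraMap_bijective_of_isIntegral
  let eq : ℂ ≃ₐ[ℂ] (AddMonoidAlgebra ℂ G ⧸ J) := AlgEquiv.ofBijective (Algebra.ofId ℂ _) hbij
  let φ : AddMonoidAlgebra ℂ G →ₐ[ℂ] ℂ :=
    (eq.symm : (AddMonoidAlgebra ℂ G ⧸ J) →ₐ[ℂ] ℂ).comp (Ideal.Quotient.mkₐ ℂ J)
  let χ : AddChar G ℂ :=
    { toFun := fun x => φ (single x 1)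
      map_zero_eq_one' := by
        have : (single (0 : G) (1 : ℂ) : AddMonoidAlgebra ℂ G) = 1 := rfl
        rw [this, map_one]
      map_add_eq_mul' := by
        intro x y
        rw [← map_mul, AddMonoidAlgebra.single_mul_single, one_mul] }
  have hφ : evalChar χ = φ := by
    refine AddMonoidAlgebra.algHom_ext (fun x => ?_) ?_
    · rw [evalChar_single, one_mul]
      rfl
    · exact AlgHom.ext fun c => (AlgHom.commutes _ c).trans (AlgHom.commutes _ c).symm
  refine ⟨χ, fun e => ?_⟩
  rw [hφ]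
  constructor
  · intro he
    have : Ideal.Quotient.mkₐ ℂ J e = 0 := by
      simpa using Ideal.Quotient.eq_zero_iff_mem.mpr he
    show eq.symm (Ideal.Quotient.mkₐ ℂ J e) = 0
    rw [this, map_zero]
  · intro he
    have h0 : eq.symm (Ideal.Quotient.mkₐ ℂ J e) = 0 := he
    have h1 : Ideal.Quotient.mkₐ ℂ J e = 0 := by
      have := congrArg eq h0
      simpa using this
    exact Ideal.Quotient.eq_zero_iff_mem.mp h1

/-- The spectral principle. -/
theorem spectral_periodic [AddGroup.FG G] (u : G → ℂ) (C : ℝ) (hC : ∀ x, ‖u x‖ ≤ C) (h : G)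
    (H : ∀ χ : AddChar G ℂ, InV χ u → χ h = 1) : ∀ x, u (x - h) = u x := by
  classical
  have hJac : IsJacobsonRing (AddMonoidAlgebra ℂ G) := isJacobsonRing_of_finiteType (A := ℂ)
  set e : AddMonoidAlgebra ℂ G := single h (1 : ℂ) - 1 with he
  have hmem : e ∈ (annIdeal u).radical := by
    rw [Ideal.radical_eq_jacobson]
    simp only [Ideal.jacobson, Ideal.mem_sInf, Set.mem_ofPred_eq]
    rintro J ⟨hIJ, hJ⟩
    obtain ⟨χ, hχ⟩ := exists_char_of_maximal J hJ
    rw [hχ]
    have hV : InV χ u := fun e' he' => (hχ e').mp (hIJ he')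
    rw [he, map_sub, evalChar_single, H χ hV, map_one]
    simp
  obtain ⟨K, hK⟩ := hmem
  have hact : ∀ v, (⇑(act e)) v = D h v := by
    intro v
    funext x
    rw [he, act_sub_one]
    rfl
  have hactfun : (⇑(act e)) = D h := funext hact
  have hK' : (D h)^[K] u = 0 := by
    have : act (e ^ K) u = 0 := hK
    rw [map_pow, Module.End.pow_apply, hactfun] at this
    exact this
  have hfinal : D h u = 0 := by
    have h0 : (D h)^[K + 1] u = 0 := by
      rw [Function.iterate_succ_apply']
      rw [hK']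
      funext x
      simp [D]
    exact iterate_D_bounded h K u C hC h0
  intro x
  have := congrFun hfinal x
  simp only [D, Pi.zero_apply] at this
  linear_combination this

end Vale.Agent.Lib.P043
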