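import Mathlib

/-!
Finite index subgroups of finitely generated abelian groups, the construction of periodic sets
from cosets, and the two-level tiling criterion.
-/

namespace Vale.Agent.Lib.P043

variable {G : Type*} [AddCommGroup G]

/-- the subgroup of multiples -/
def mulSub (G : Type*) [AddCommGroup G] (n : ℕ) : AddSubgroup G := (nsmulAddMonoidHom n : G →+ G).range

lemma mem_mulSub (n : ℕ) (x : G) : x ∈ mulSub G n ↔ ∃ y, n • y = x := by
  simp [mulSub, AddMonoidHom.mem_range]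

lemma nsmul_mem_mulSub (n : ℕ) (y : G) : n • y ∈ mulSub G n := (mem_mulSub n _).mpr ⟨y, rfl⟩

lemma mulSub_finiteIndex [AddGroup.FG G] (n : ℕ) (hn : 0 < n) : (mulSub G n).FiniteIndex := by
  rw [AddSubgroup.finiteIndex_iff_finite_quotient]
  apply AddCommGroup.finite_of_fg_isAddTorsion
  intro x
  induction x using QuotientAddGroup.induction_on with
  | H g =>
    rw [isOfFinAddOrder_iff_nsmul_eq_zero]
    refine ⟨n, hn, ?_⟩
    rw [← QuotientAddGroup.mk_nsmul, QuotientAddGroup.eq_zero_iff]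
    exact nsmul_mem_mulSub n g

lemma finite_quotient_mulSub [AddGroup.FG G] (n : ℕ) (hn : 0 < n) : Finite (G ⧸ mulSub G n) := by
  have := mulSub_finiteIndex (G := G) n hn
  exact AddSubgroup.finiteIndex_iff_finite_quotient.mp this

/-- A finite exponent for the torsion of a finitely generated abelian group. -/
lemma exists_torsion_exponent (Y : Type*) [AddCommGroup Y] [AddGroup.FG Y] :
    ∃ n : ℕ, 0 < n ∧ ∀ y : Y, IsOfFinAddOrder y → n • y = 0 := by
  have h1 : Module.Finite ℤ Y := Module.Finite.iff_addGroup_fg.mpr inferInstance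
  have h2 : IsNoetherian ℤ Y := inferInstance
  have h : (AddSubgroup.toIntSubmodule (AddCommGroup.torsion Y)).FG := IsNoetherian.noetherian _
  have hfg : AddGroup.FG (AddCommGroup.torsion Y) :=
    (AddGroup.fg_iff_addSubgroup_fg _).mpr ((Submodule.fg_iff_addSubgroup_fg _).mp h)
  have hfin : Finite (AddCommGroup.torsion Y) := by
    apply AddCommGroup.finite_of_fg_isAddTorsion
    rintro ⟨y, hy⟩
    have hy' : IsOfFinAddOrder y := hy
    rw [isOfFinAddOrder_iff_nsmul_eq_zero] at hy' ⊢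
    obtain ⟨n, hn, hny⟩ := hy'
    refine ⟨n, hn, ?_⟩
    exact Subtype.ext (by simpa using hny)
  refine ⟨Nat.card (AddCommGroup.torsion Y), Nat.card_pos, ?_⟩
  intro y hy
  have := card_nsmul_eq_zero' (G := AddCommGroup.torsion Y) (x := ⟨y, hy⟩)
  exact congrArg Subtype.val this

/-- Separation: finite index subgroup cutting `E` exactly in `E'`. -/
theorem exists_sep [AddGroup.FG G] (E E' : AddSubgroup G)
    (htors : ∀ e ∈ E, ∃ n : ℕ, 0 < n ∧ n • e ∈ E') :
    ∃ Λ : AddSubgroup G, Λ.FiniteIndex ∧ E' ≤ Λ ∧ ∀ e ∈ E, e ∈ Λ → e ∈ E' := by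
  obtain ⟨n, hn, hexp⟩ := exists_torsion_exponent (G ⧸ E')
  let π : G →+ G ⧸ E' := QuotientAddGroup.mk' E'
  have hπ : Function.Surjective π := QuotientAddGroup.mk'_surjective E'
  refine ⟨(mulSub (G ⧸ E') n).comap π, ?_, ?_, ?_⟩
  · have := mulSub_finiteIndex (G := G ⧸ E') n hn
    rw [AddSubgroup.finiteIndex_iff, AddSubgroup.index_comap_of_surjective _ hπ]
    exact this.index_ne_zero
  · intro e' he'
    have : π e' = 0 := by
      simpa [π] using he'
    simp [AddSubgroup.mem_comap, this, zero_mem]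
  · intro e he heΛ
    obtain ⟨y, hy⟩ := (mem_mulSub n _).mp heΛ
    obtain ⟨k, hk, hke⟩ := htors e he
    have h0 : k • π e = 0 := by
      rw [← map_nsmul]
      exact (QuotientAddGroup.eq_zero_iff _).mpr hke
    have hytors : IsOfFinAddOrder y := by
      rw [isOfFinAddOrder_iff_nsmul_eq_zero]
      refine ⟨k * n, Nat.mul_pos hk hn, ?_⟩
      rw [mul_comm, mul_nsmul, hy, h0]
    have : π e = 0 := by
      rw [← hy, hexp y hytors]
    simpa [π] using this

/-- The lifting construction. -/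
theorem lift_set [AddGroup.FG G] (H E E' : AddSubgroup G) (hEH : E ≤ H)
    (hH : H.FiniteIndex) (htors : ∀ e ∈ E, ∃ n : ℕ, 0 < n ∧ n • e ∈ E') (S : Set G)
    (hSE : ∀ s ∈ S, s ∈ E) (hS : ∀ s ∈ S, ∀ e' ∈ E', s + e' ∈ S) :
    ∃ (Λ : AddSubgroup G) (S' : Set G), Λ.FiniteIndex ∧ (∀ x ∈ S', ∀ l ∈ Λ, x + l ∈ S') ∧
      (∀ x ∈ S', x ∈ H) ∧ ∀ x ∈ H, ∃ e0 ∈ E, ∀ e ∈ E, (x - e ∈ S' ↔ e0 - e ∈ S) := by
  classical
  obtain ⟨Λ₀, hΛ₀, hE'Λ, hsep⟩ := exists_sep E E' htors
  let Λ : AddSubgroup G := Λ₀ ⊓ H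
  have hΛ : Λ.FiniteIndex := inferInstance
  let L : AddSubgroup G := E ⊔ Λ
  have hLH : L ≤ H := sup_le hEH inf_le_right
  let rep : G → G := fun x => Quotient.out (QuotientAddGroup.mk x : G ⧸ L)
  have hrep : ∀ x, rep x - x ∈ L := by
    intro x
    have : (QuotientAddGroup.mk (rep x) : G ⧸ L) = QuotientAddGroup.mk x :=
      Quotient.out_eq' _
    rw [QuotientAddGroup.eq] at this
    have h2 : rep x - x = -(-rep x + x) := by abel
    rw [h2]
    exact L.neg_mem this
  have hrep_eq : ∀ x y, x - y ∈ L → rep x = rep y := by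
    intro x y hxy
    have : (QuotientAddGroup.mk x : G ⧸ L) = QuotientAddGroup.mk y := by
      rw [QuotientAddGroup.eq]
      have h2 : -x + y = -(x - y) := by abel
      rw [h2]
      exact L.neg_mem hxy
    simp only [rep, this]
  let S' : Set G := {x | x ∈ H ∧ ∃ s ∈ S, ∃ l ∈ Λ, x = rep x + s + l}
  refine ⟨Λ, S', hΛ, ?_, fun x hx => hx.1, ?_⟩
  · rintro x ⟨hxH, s, hs, l, hl, hx⟩ l' hl'
    have hl'L : l' ∈ L := (le_sup_right : Λ ≤ L) hl'
    refine ⟨H.add_mem hxH (inf_le_right (a := Λ₀) hl'), s, hs, l + l', Λ.add_mem hl hl', ?_⟩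
    have hrepeq : rep (x + l') = rep x := hrep_eq _ _ (by simpa using hl'L)
    rw [hrepeq]
    nth_rw 1 [hx]
    abel
  · intro x hxH
    have hmem : x - rep x ∈ L := by
      have := L.neg_mem (hrep x)
      simpa using this
    obtain ⟨e0, he0, l0, hl0, hsum⟩ := AddSubgroup.mem_sup.mp hmem
    refine ⟨e0, he0, ?_⟩
    intro e he
    have hrepe : rep (x - e) = rep x := hrep_eq _ _ (by
      have h : x - e - x = -e := by abel
      rw [h]
      exact L.neg_mem ((le_sup_left : E ≤ L) he))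
    constructor
    · rintro ⟨_, s, hs, l, hl, hx⟩
      rw [hrepe] at hx
      -- e0 - e - s = l - l0
      have h1 : e0 - e - s = l - l0 := by
        have h2 : x = rep x + e0 + l0 := by
          rw [add_assoc, hsum]; abel
        have h3 : rep x + e0 + l0 - e = rep x + s + l := by rw [← h2]; exact hx
        have h4 : e0 + l0 - e = s + l := by
          have : rep x + (e0 + l0 - e) = rep x + (s + l) := by
            calc rep x + (e0 + l0 - e) = rep x + e0 + l0 - e := by abel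
              _ = rep x + s + l := h3
              _ = rep x + (s + l) := by abel
          exact add_left_cancel this
        calc e0 - e - s = (e0 + l0 - e) - s - l0 := by abel
          _ = (s + l) - s - l0 := by rw [h4]
          _ = l - l0 := by abel
      have h5 : e0 - e - s ∈ E :=
        E.sub_mem (E.sub_mem he0 he) (hSE s hs)
      have h6 : e0 - e - s ∈ Λ₀ := by
        rw [h1]
        exact Λ₀.sub_mem (inf_le_left (b := H) hl) (inf_le_left (b := H) hl0)
      have h7 := hS s hs _ (hsep _ h5 h6)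
      have h8 : s + (e0 - e - s) = e0 - e := by abel
      rwa [h8] at h7
    · intro hs
      refine ⟨H.sub_mem hxH (hEH he), e0 - e, hs, l0, hl0, ?_⟩
      rw [hrepe]
      have h2 : x = rep x + (x - rep x) := by abel
      rw [← hsum] at h2
      calc x - e = rep x + (e0 + l0) - e := by rw [← h2]
        _ = rep x + (e0 - e) + l0 := by abel

/-- The two-level tiling criterion. -/
theorem tf_tiling [AddGroup.FG G] (H E E' : AddSubgroup G) (hEH : E ≤ H) (hE'E : E' ≤ E)
    (hH : H.FiniteIndex) (htors : ∀ e ∈ E, ∃ n : ℕ, 0 < n ∧ n • e ∈ E') (F : Finset G)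
    (hF : ∀ y : G, ∃ t, (∀ f ∈ F, y - f ∈ H → f - t ∈ E) ∧
      ∀ e ∈ E, ∃! f, f ∈ F ∧ y - f ∈ H ∧ f - t - e ∈ E') :
    ∃ (A' : Set G) (L : AddSubgroup G), L.FiniteIndex ∧ (∀ x ∈ A', ∀ l ∈ L, x + l ∈ A') ∧
      ∀ y, ∃! f, f ∈ F ∧ y - f ∈ A' := by
  obtain ⟨Λ, S', hΛ, hper, hS'H, hkey⟩ := lift_set H E E' hEH hH htors (E' : Set G)
    (fun s hs => hE'E hs) (fun s hs e he => E'.add_mem hs he)
  refine ⟨S', Λ, hΛ, hper, ?_⟩
  intro y
  obtain ⟨t, ht1, ht2⟩ := hF y
  obtain ⟨f0, ⟨hf0F, hf0H, hf0E⟩, -⟩ := ht2 0 E.zero_mem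
  have hxH : y - t ∈ H := by
    have h1 : y - t = (y - f0) + (f0 - t - 0) := by abel
    rw [h1]
    exact H.add_mem hf0H (hEH (hE'E hf0E))
  obtain ⟨e0, he0, hk⟩ := hkey (y - t) hxH
  obtain ⟨f1, ⟨hf1F, hf1H, hf1E⟩, huniq⟩ := ht2 e0 he0
  have hrewrite : ∀ f, y - f = (y - t) - (f - t) := by intro f; abel
  refine ⟨f1, ⟨hf1F, ?_⟩, ?_⟩
  · rw [hrewrite, hk _ (ht1 f1 hf1F hf1H)]
    have h1 : e0 - (f1 - t) = -(f1 - t - e0) := by abel
    simp only [SetLike.mem_coe]
    rw [h1]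
    exact E'.neg_mem hf1E
  · rintro f ⟨hfF, hfS⟩
    have hfH : y - f ∈ H := hS'H _ hfS
    have hfE := ht1 f hfF hfH
    rw [hrewrite, hk _ hfE] at hfS
    apply huniq
    refine ⟨hfF, hfH, ?_⟩
    have h1 : f - t - e0 = -(e0 - (f - t)) := by abel
    rw [h1]
    exact E'.neg_mem hfS

end Vale.Agent.Lib.P043
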