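import Mathlib
import Vale.Agent.Lib.P043.Periodic

/-!
The two structures on a set `F` of size `2 q` which produce a periodic tiling.
-/

namespace Vale.Agent.Lib.P043

variable {G : Type*} [AddCommGroup G]

lemma char_ne_zero (χ : AddChar G ℂ) (x : G) : χ x ≠ 0 := (AddChar.val_isUnit χ x).ne_zero

/-- the subgroup where `χ = 1` -/
def charKer (χ : AddChar G ℂ) : AddSubgroup G where
  carrier := {x | χ x = 1}
  add_mem' := by
    intro a b ha hb
    simp only [Set.mem_ofPred_eq] at *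
    rw [AddChar.map_add_eq_mul, ha, hb, one_mul]
  zero_mem' := AddChar.map_zero_eq_one χ
  neg_mem' := by
    intro a ha
    simp only [Set.mem_ofPred_eq] at *
    rw [AddChar.map_neg_eq_inv, ha, inv_one]

/-- the subgroup where `χ ^ q = 1` -/
def charKerPow (χ : AddChar G ℂ) (q : ℕ) : AddSubgroup G where
  carrier := {x | χ x ^ q = 1}
  add_mem' := by
    intro a b ha hb
    simp only [Set.mem_ofPred_eq] at *
    rw [AddChar.map_add_eq_mul, mul_pow, ha, hb, one_mul]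
  zero_mem' := by
    simp only [Set.mem_ofPred_eq, AddChar.map_zero_eq_one, one_pow]
  neg_mem' := by
    intro a ha
    simp only [Set.mem_ofPred_eq] at *
    rw [AddChar.map_neg_eq_inv, inv_pow, ha, inv_one]

lemma mem_charKer (χ : AddChar G ℂ) (x : G) : x ∈ charKer χ ↔ χ x = 1 := Iff.rfl
lemma mem_charKerPow (χ : AddChar G ℂ) (q : ℕ) (x : G) : x ∈ charKerPow χ q ↔ χ x ^ q = 1 := Iff.rfl

/-- If values cover a coset of the `q`-th roots of unity on a set of at most `q` elements,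
they do so bijectively. -/
lemma fiber_cover {α : Type*} {X : Finset α} {q : ℕ} {ζ v : ℂ}
    (hζ : IsPrimitiveRoot ζ q) (hv : v ≠ 0) (χ : α → ℂ) (hX : X.card ≤ q)
    (hex : ∀ k < q, ∃ f ∈ X, χ f = ζ ^ k * v) :
    (∀ f ∈ X, ∃ k < q, χ f = ζ ^ k * v) ∧ (∀ f ∈ X, ∀ f' ∈ X, χ f = χ f' → f = f') := by
  classical
  have hex' : ∀ k : Fin q, ∃ f ∈ X, χ f = ζ ^ (k : ℕ) * v := fun k => hex k k.2
  choose g' hgX hgχ using hex'
  have hinj : Function.Injective g' := by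
    intro a b hab
    have h1 : ζ ^ (a : ℕ) * v = ζ ^ (b : ℕ) * v := by
      rw [← hgχ a, ← hgχ b]
      exact congrArg χ hab
    have h2 := mul_right_cancel₀ hv h1
    exact Fin.ext (hζ.pow_inj a.2 b.2 h2)
  have himg : Finset.univ.image g' = X := by
    apply Finset.eq_of_subset_of_card_le
    · intro x hx
      obtain ⟨k, _, rfl⟩ := Finset.mem_image.mp hx
      exact hgX k
    · rw [Finset.card_image_of_injective _ hinj]
      simpa using hX
  have hcov : ∀ f ∈ X, ∃ k : Fin q, g' k = f := by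
    intro f hf
    rw [← himg] at hf
    obtain ⟨k, _, hk⟩ := Finset.mem_image.mp hf
    exact ⟨k, hk⟩
  constructor
  · intro f hf
    obtain ⟨k, rfl⟩ := hcov f hf
    exact ⟨k, k.2, hgχ k⟩
  · intro f hf f' hf' hff
    obtain ⟨k, rfl⟩ := hcov f hf
    obtain ⟨k', rfl⟩ := hcov f' hf'
    have h1 : ζ ^ (k : ℕ) * v = ζ ^ (k' : ℕ) * v := by
      rw [← hgχ k, ← hgχ k']
      exact hff
    have h2 := mul_right_cancel₀ hv h1
    have h3 : k = k' := Fin.ext (hζ.pow_inj k.2 k'.2 h2)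
    rw [h3]

/-- Structure L: a homomorphism to `ZMod 2` with fibres of size `q` on `F`, and a character
mapping each fibre bijectively to a coset of the `q`-th roots of unity. -/
def LStruct (F : Finset G) (q : ℕ) : Prop :=
  ∃ (ε : G →+ ZMod 2) (χ : AddChar G ℂ) (z : ZMod 2 → ℂ) (ζ : ℂ),
    IsPrimitiveRoot ζ q ∧ (∀ i, z i ≠ 0) ∧
    (∀ i, ∀ k < q, ∃ f ∈ F, ε f = i ∧ χ f = ζ ^ k * z i) ∧
    ∀ i, (F.filter (fun f => ε f = i)).card = q

theorem tiling_of_LStruct [AddGroup.FG G] (F : Finset G) {q : ℕ} (hq : 0 < q) (h : LStruct F q) :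
    ∃ (A' : Set G) (L : AddSubgroup G), L.FiniteIndex ∧ (∀ x ∈ A', ∀ l ∈ L, x + l ∈ A') ∧
      ∀ y, ∃! f, f ∈ F ∧ y - f ∈ A' := by
  classical
  obtain ⟨ε, χ, z, ζ, hζ, hz, hex, hcard⟩ := h
  have : NeZero q := ⟨hq.ne'⟩
  have hH : ε.ker.FiniteIndex := by
    have := mulSub_finiteIndex (G := G) 2 (by norm_num)
    apply AddSubgroup.finiteIndex_of_le (H := mulSub G 2)
    intro x hx
    obtain ⟨y, rfl⟩ := (mem_mulSub 2 x).mp hx
    rw [AddMonoidHom.mem_ker, map_nsmul, two_nsmul, CharTwo.add_self_eq_zero]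
  have hcov : ∀ i, (∀ f ∈ F.filter (fun f => ε f = i), ∃ k < q, χ f = ζ ^ k * z i) ∧
      (∀ f ∈ F.filter (fun f => ε f = i), ∀ f' ∈ F.filter (fun f => ε f = i), χ f = χ f' → f = f') := by
    intro i
    apply fiber_cover hζ (hz i) χ (hcard i).le
    intro k hk
    obtain ⟨f, hf, hfi, hfχ⟩ := hex i k hk
    exact ⟨f, Finset.mem_filter.mpr ⟨hf, hfi⟩, hfχ⟩
  apply tf_tiling ε.ker (ε.ker ⊓ charKerPow χ q) (ε.ker ⊓ charKer χ) inf_le_left
    (by
      intro x hx
      obtain ⟨hx1, hx2⟩ := AddSubgroup.mem_inf.mp hx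
      refine AddSubgroup.mem_inf.mpr ⟨hx1, ?_⟩
      rw [mem_charKerPow, (mem_charKer χ x).mp hx2, one_pow]) hH
    (by
      intro e he
      obtain ⟨he1, he2⟩ := AddSubgroup.mem_inf.mp he
      refine ⟨q, hq, AddSubgroup.mem_inf.mpr ⟨ε.ker.nsmul_mem he1 q, ?_⟩⟩
      rw [mem_charKer, AddChar.map_nsmul_eq_pow]
      exact he2) F
  intro y
  have hmemker : ∀ f, y - f ∈ ε.ker ↔ ε f = ε y := by
    intro f
    rw [AddMonoidHom.mem_ker, map_sub, sub_eq_zero]
    exact eq_comm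
  obtain ⟨t, htF, hti, htχ⟩ := hex (ε y) 0 hq
  simp only [pow_zero, one_mul] at htχ
  refine ⟨t, ?_, ?_⟩
  · intro f hf hyf
    have hfi : ε f = ε y := (hmemker f).mp hyf
    refine AddSubgroup.mem_inf.mpr ⟨?_, ?_⟩
    · rw [AddMonoidHom.mem_ker, map_sub, hfi, hti, sub_self]
    · obtain ⟨k, _, hk⟩ := (hcov (ε y)).1 f (Finset.mem_filter.mpr ⟨hf, hfi⟩)
      rw [mem_charKerPow, AddChar.map_sub_eq_div, hk, htχ, mul_div_cancel_right₀ _ (hz _), ← pow_mul,
        mul_comm, pow_mul, hζ.pow_eq_one, one_pow]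
  · intro e he
    obtain ⟨he1, he2⟩ := AddSubgroup.mem_inf.mp he
    have heq : χ e ^ q = 1 := he2
    obtain ⟨j, hj, hjζ⟩ := hζ.eq_pow_of_pow_eq_one heq
    obtain ⟨f, hf, hfi, hfχ⟩ := hex (ε y) j hj
    have hcomp : ∀ f', χ f' = ζ ^ j * z (ε y) → ε f' = ε y → f' - t - e ∈ ε.ker ⊓ charKer χ := by
      intro f' h1 h2
      refine AddSubgroup.mem_inf.mpr ⟨?_, ?_⟩
      · have : ε e = 0 := he1
        rw [AddMonoidHom.mem_ker, map_sub, map_sub, h2, hti, this]
        simp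
      · rw [mem_charKer, AddChar.map_sub_eq_div, AddChar.map_sub_eq_div, h1, htχ, ← hjζ,
          mul_div_cancel_right₀ _ (hz _)]
        exact div_self (by rw [hjζ]; exact char_ne_zero χ e)
    refine ⟨f, ⟨hf, (hmemker f).mpr hfi, hcomp f hfχ hfi⟩, ?_⟩
    rintro f' ⟨hf'F, hf'y, hf'e⟩
    have hf'i : ε f' = ε y := (hmemker f').mp hf'y
    have hval : χ f' = χ f := by
      have h1 : χ (f' - t - e) = 1 := (AddSubgroup.mem_inf.mp hf'e).2
      rw [AddChar.map_sub_eq_div, AddChar.map_sub_eq_div, htχ] at h1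
      have h2 := char_ne_zero χ e
      have hzz := hz (ε y)
      rw [hfχ, hjζ]
      field_simp at h1
      linear_combination h1
    exact (hcov (ε y)).2 f' (Finset.mem_filter.mpr ⟨hf'F, hf'i⟩) f
      (Finset.mem_filter.mpr ⟨hf, hfi⟩) hval

/-- Structure H produces a periodic tiling: a character of order `q`, with fibres pairs on `F`, and
an index two sign structure separating each pair. -/
theorem tiling_of_HStruct [AddGroup.FG G] (F : Finset G) {q : ℕ} (hq : 0 < q) (χ : AddChar G ℂ)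
    {ζ : ℂ} (hζ : IsPrimitiveRoot ζ q) (hχ : ∀ g, χ g ^ q = 1) (E0 Pr : AddSubgroup G)
    (hPr : Pr ≤ E0) (h2 : ∀ a ∈ E0, a ∉ Pr → ∀ b ∈ E0, b ∉ Pr → a + b ∈ Pr)
    (hfib : ∀ k < q, ∃ f g, f ∈ F ∧ g ∈ F ∧ χ f = ζ ^ k ∧ χ g = ζ ^ k ∧ f - g ∈ E0 ∧ f - g ∉ Pr ∧
      ∀ f' ∈ F, χ f' = ζ ^ k → f' = f ∨ f' = g) :
    ∃ (A' : Set G) (L : AddSubgroup G), L.FiniteIndex ∧ (∀ x ∈ A', ∀ l ∈ L, x + l ∈ A') ∧
      ∀ y, ∃! f, f ∈ F ∧ y - f ∈ A' := by
  classical
  have : NeZero q := ⟨hq.ne'⟩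
  have hH : (charKer χ).FiniteIndex := by
    have := mulSub_finiteIndex (G := G) q hq
    apply AddSubgroup.finiteIndex_of_le (H := mulSub G q)
    intro x hx
    obtain ⟨y, rfl⟩ := (mem_mulSub q x).mp hx
    rw [mem_charKer, AddChar.map_nsmul_eq_pow]
    exact hχ y
  apply tf_tiling (charKer χ) (charKer χ ⊓ E0) (charKer χ ⊓ Pr) inf_le_left
    (inf_le_inf_left _ hPr) hH
    (by
      intro e he
      obtain ⟨he1, he2⟩ := AddSubgroup.mem_inf.mp he
      refine ⟨2, by norm_num, AddSubgroup.mem_inf.mpr ⟨(charKer χ).nsmul_mem he1 2, ?_⟩⟩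
      rw [two_nsmul]
      by_cases hp : e ∈ Pr
      · exact Pr.add_mem hp hp
      · exact h2 e he2 hp e he2 hp) F
  intro y
  obtain ⟨k, hk, hkζ⟩ := hζ.eq_pow_of_pow_eq_one (hχ y)
  obtain ⟨f, g, hf, hg, hfχ, hgχ, hfg1, hfg2, hall⟩ := hfib k hk
  have hmemker : ∀ f', y - f' ∈ charKer χ ↔ χ f' = ζ ^ k := by
    intro f'
    rw [mem_charKer, AddChar.map_sub_eq_div, hkζ, div_eq_one_iff_eq (char_ne_zero χ f')]
    exact eq_comm
  have hfgker : f - g ∈ charKer χ := by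
    rw [mem_charKer, AddChar.map_sub_eq_div, hfχ, hgχ]
    exact div_self (by rw [← hgχ]; exact char_ne_zero χ g)
  refine ⟨g, ?_, ?_⟩
  · intro f' hf' hyf
    rcases hall f' hf' ((hmemker f').mp hyf) with rfl | rfl
    · exact AddSubgroup.mem_inf.mpr ⟨hfgker, hfg1⟩
    · rw [sub_self]
      exact zero_mem _
  · intro e he
    obtain ⟨he1, he2⟩ := AddSubgroup.mem_inf.mp he
    by_cases hp : e ∈ Pr
    · refine ⟨g, ⟨hg, (hmemker g).mpr hgχ, ?_⟩, ?_⟩
      · rw [sub_self, zero_sub]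
        exact AddSubgroup.mem_inf.mpr ⟨(charKer χ).neg_mem he1, Pr.neg_mem hp⟩
      · rintro f' ⟨hf'F, hf'y, hf'e⟩
        rcases hall f' hf'F ((hmemker f').mp hf'y) with rfl | rfl
        · exfalso
          apply hfg2
          have : f' - g = (f' - g - e) + e := by abel
          rw [this]
          exact Pr.add_mem (AddSubgroup.mem_inf.mp hf'e).2 hp
        · rfl
    · refine ⟨f, ⟨hf, (hmemker f).mpr hfχ, ?_⟩, ?_⟩
      · refine AddSubgroup.mem_inf.mpr ⟨(charKer χ).sub_mem hfgker he1, ?_⟩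
        have : f - g - e = (f - g) + (-e) := by abel
        rw [this]
        exact h2 _ hfg1 hfg2 _ (E0.neg_mem he2) (fun hn => hp (by simpa using Pr.neg_mem hn))
      · rintro f' ⟨hf'F, hf'y, hf'e⟩
        rcases hall f' hf'F ((hmemker f').mp hf'y) with rfl | rfl
        · rfl
        · exfalso
          apply hp
          have h3 := (AddSubgroup.mem_inf.mp hf'e).2
          rw [sub_self, zero_sub] at h3
          simpa using Pr.neg_mem h3

end Vale.Agent.Lib.P043
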