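import Mathlib
import Vale.Agent.Lib.P043.Struct
import Vale.Agent.Lib.P043.Spectral
import Vale.Agent.Lib.P043.PowerSum
import Vale.Agent.Lib.P043.Nice

/-!
Structure of characters in the zero locus, and periodicity of the level function
in the absence of structure L.
-/

namespace Vale.Agent.Lib.P043

variable {G : Type*} [AddCommGroup G]

/-- the exact properties of a nice tiling of a set of size `2 q` -/
structure NiceA (F : Finset G) (q : ℕ) (a : G → ℤ) : Prop where
  h01 : ∀ x, a x = 0 ∨ a x = 1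
  h1 : ∀ r, Nat.Coprime r (2 * q) → ∀ x, P F r a x = 1
  h2 : ∀ α β, 2 ∣ α → ¬ q ∣ α → q ∣ β → ¬ 2 ∣ β → ∀ x, P F α (P F β a) x = ((2 * q : ℕ) : ℤ)
  d1 : ∀ r, 2 ∣ r → ¬ q ∣ r → ∀ x, ((2 : ℕ) : ℤ) ∣ P F r a x
  d2 : ∀ r, q ∣ r → ¬ 2 ∣ r → ∀ x, (q : ℤ) ∣ P F r a x

section cases

variable {F : Finset G} {q : ℕ} {ζ : ℂ}

lemma card_fiber_rot (hq : 0 < q) (hζ : IsPrimitiveRoot ζ q) (χ : AddChar G ℂ)
    (hps : ∀ r : ℕ, 1 ≤ r → ¬ q ∣ r → ∑ f ∈ F, χ f ^ r = 0) (k : ℕ) (v : ℂ) :
    (F.filter (fun f => χ f = ζ ^ k * v)).card = (F.filter (fun f => χ f = v)).card := by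
  classical
  have hM := Mu_rot_pow F (fun _ => (1 : ℂ)) (fun f => χ f) (fun i _ => char_ne_zero χ i) q ζ
    hζ.pow_eq_one hq.ne' (by
      intro r hr hd
      simpa using hps r hr hd) k v
  simp only [Mu, Finset.sum_boole] at hM
  exact_mod_cast hM

lemma exists_rot (hq : 0 < q) (hζ : IsPrimitiveRoot ζ q) (χ : AddChar G ℂ)
    (hps : ∀ r : ℕ, 1 ≤ r → ¬ q ∣ r → ∑ f ∈ F, χ f ^ r = 0) {v : ℂ} (hv : ∃ f ∈ F, χ f = v)
    (k : ℕ) : ∃ f ∈ F, χ f = ζ ^ k * v := by
  classical
  obtain ⟨f, hf, hfv⟩ := hv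
  have h1 := card_fiber_rot hq hζ χ hps k v
  have h2 : 0 < (F.filter (fun f => χ f = v)).card :=
    Finset.card_pos.mpr ⟨f, Finset.mem_filter.mpr ⟨hf, hfv⟩⟩
  rw [← h1] at h2
  obtain ⟨f', hf'⟩ := Finset.card_pos.mp h2
  exact ⟨f', (Finset.mem_filter.mp hf').1, (Finset.mem_filter.mp hf').2⟩

/-- counting lemma: covering a coset of the `q`-th roots of unity requires `q` elements -/
lemma card_ge_of_cover {α : Type*} {X : Finset α} {v : ℂ} (hζ : IsPrimitiveRoot ζ q)
    (hv : v ≠ 0) (χ : α → ℂ) (hex : ∀ k < q, ∃ f ∈ X, χ f = ζ ^ k * v) : q ≤ X.card := by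
  classical
  have hex' : ∀ k : Fin q, ∃ f ∈ X, χ f = ζ ^ (k : ℕ) * v := fun k => hex k k.2
  choose g' hgX hgχ using hex'
  have hinj : Function.Injective g' := by
    intro a b hab
    have h1 : ζ ^ (a : ℕ) * v = ζ ^ (b : ℕ) * v := by
      rw [← hgχ a, ← hgχ b]
      exact congrArg χ hab
    have h2 := mul_right_cancel₀ hv h1
    exact Fin.ext (hζ.pow_inj a.2 b.2 h2)
  have := Finset.card_le_card_of_injOn (s := (Finset.univ : Finset (Fin q))) (t := X) g'
    (fun k _ => hgX k) hinj.injOn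
  simpa using this

/-- The shape of a character whose power sums vanish away from multiples of `q`. -/
theorem char_cases (hq : 0 < q) (hζ : IsPrimitiveRoot ζ q) (h0 : (0 : G) ∈ F)
    (hcard : F.card = 2 * q) (χ : AddChar G ℂ)
    (hps : ∀ r : ℕ, 1 ≤ r → ¬ q ∣ r → ∑ f ∈ F, χ f ^ r = 0) :
    (∀ f ∈ F, χ f ^ q = 1) ∨ ∃ f1 ∈ F, χ f1 ^ q ≠ 1 ∧
      (∀ k < q, ∃ f ∈ F, χ f = ζ ^ k * 1) ∧ (∀ k < q, ∃ f ∈ F, χ f = ζ ^ k * χ f1) ∧
      (∀ f ∈ F, χ f ^ q = 1 ∨ χ f ^ q = χ f1 ^ q) ∧
      (F.filter (fun f => χ f ^ q = 1)).card = q ∧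
      (F.filter (fun f => ¬ χ f ^ q = 1)).card = q := by
  classical
  by_cases hall : ∀ f ∈ F, χ f ^ q = 1
  · exact Or.inl hall
  right
  push Not at hall
  obtain ⟨f1, hf1, hf1q⟩ := hall
  have hz1 : (χ : G → ℂ) 0 = 1 := AddChar.map_zero_eq_one χ
  have hex0 : ∀ k < q, ∃ f ∈ F, χ f = ζ ^ k * 1 := fun k _ =>
    exists_rot hq hζ χ hps ⟨0, h0, hz1⟩ k
  have hex1 : ∀ k < q, ∃ f ∈ F, χ f = ζ ^ k * χ f1 := fun k _ =>
    exists_rot hq hζ χ hps ⟨f1, hf1, rfl⟩ k
  let X0 := F.filter (fun f => χ f ^ q = 1)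
  let X1 := F.filter (fun f => χ f ^ q = χ f1 ^ q)
  have hζq : ∀ k : ℕ, (ζ ^ k) ^ q = 1 := by
    intro k
    rw [← pow_mul, mul_comm, pow_mul, hζ.pow_eq_one, one_pow]
  have hc0 : q ≤ X0.card := by
    apply card_ge_of_cover hζ one_ne_zero (fun f => χ f)
    intro k hk
    obtain ⟨f, hf, hfv⟩ := hex0 k hk
    refine ⟨f, Finset.mem_filter.mpr ⟨hf, ?_⟩, hfv⟩
    rw [hfv, mul_one, hζq]
  have hc1 : q ≤ X1.card := by
    apply card_ge_of_cover hζ (char_ne_zero χ f1) (fun f => χ f)
    intro k hk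
    obtain ⟨f, hf, hfv⟩ := hex1 k hk
    refine ⟨f, Finset.mem_filter.mpr ⟨hf, ?_⟩, hfv⟩
    rw [hfv, mul_pow, hζq, one_mul]
  have hdisj : Disjoint X0 X1 := by
    rw [Finset.disjoint_left]
    intro f hf0 hf1'
    have h1 := (Finset.mem_filter.mp hf0).2
    have h2 := (Finset.mem_filter.mp hf1').2
    exact hf1q (h2 ▸ h1)
  have hun : (X0 ∪ X1).card = X0.card + X1.card := Finset.card_union_of_disjoint hdisj
  have hsub : X0 ∪ X1 ⊆ F :=
    Finset.union_subset (Finset.filter_subset _ _) (Finset.filter_subset _ _)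
  have hle := Finset.card_le_card hsub
  have hX0 : X0.card = q := by omega
  have hX1 : X1.card = q := by omega
  have heq : X0 ∪ X1 = F := Finset.eq_of_subset_of_card_le hsub (by omega)
  have hcover : ∀ f ∈ F, χ f ^ q = 1 ∨ χ f ^ q = χ f1 ^ q := by
    intro f hf
    rw [← heq] at hf
    rcases Finset.mem_union.mp hf with h | h
    · exact Or.inl (Finset.mem_filter.mp h).2
    · exact Or.inr (Finset.mem_filter.mp h).2
  refine ⟨f1, hf1, hf1q, hex0, hex1, hcover, hX0, ?_⟩
  have : F.filter (fun f => ¬ χ f ^ q = 1) = X1 := by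
    ext f
    simp only [Finset.mem_filter, X1]
    constructor
    · rintro ⟨hf, hn⟩
      rcases hcover f hf with h | h
      · exact absurd h hn
      · exact ⟨hf, h⟩
    · rintro ⟨hf, h⟩
      exact ⟨hf, fun hh => hf1q (by rw [← h]; exact hh)⟩
  rw [this]
  exact hX1

end cases

/-- a homomorphism to `ZMod 2` from an index at most two subgroup -/
lemma hom_of_index_two (X : AddSubgroup G) (h2 : ∀ a, a ∉ X → ∀ b, b ∉ X → a + b ∈ X) :
    ∃ ε : G →+ ZMod 2, (∀ x, x ∈ X → ε x = 0) ∧ (∀ x, x ∉ X → ε x = 1) := by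
  classical
  let ε : G →+ ZMod 2 := AddMonoidHom.mk' (fun g => if g ∈ X then 0 else 1) (by
    intro a b
    by_cases ha : a ∈ X <;> by_cases hb : b ∈ X
    · simp [ha, hb, X.add_mem ha hb]
    · have : a + b ∉ X := fun h => hb (by
        have := X.sub_mem h ha
        simpa using this)
      simp [ha, hb, this]
    · have : a + b ∉ X := fun h => ha (by
        have := X.sub_mem h hb
        simpa using this)
      simp [ha, hb, this]
    · simp only [ha, hb, h2 a ha b hb, if_true, if_false]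
      decide)
  exact ⟨ε, fun x hx => by simp [ε, hx], fun x hx => by simp [ε, hx]⟩

section M

variable (F : Finset G)

/-- the subgroup generated by differences within the two blocks `B`, `F \ B` -/
def DSub (B : Finset G) : AddSubgroup G :=
  AddSubgroup.closure {d | ∃ f ∈ F, ∃ g ∈ F, (f ∈ B ↔ g ∈ B) ∧ d = f - g}

open Classical in
/-- an odd exponent of the quotient by `DSub`, if there is one -/
noncomputable def NOf (B : Finset G) : ℕ :=
  if h : ∃ N : ℕ, Odd N ∧ ∀ g : G, N • g ∈ DSub F B then h.choose else 1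

lemma NOf_odd (B : Finset G) : Odd (NOf F B) := by
  classical
  unfold NOf
  split_ifs with h
  · exact h.choose_spec.1
  · exact odd_one

lemma NOf_spec (B : Finset G) (h : ∃ N : ℕ, Odd N ∧ ∀ g : G, N • g ∈ DSub F B) (g : G) :
    NOf F B • g ∈ DSub F B := by
  classical
  unfold NOf
  rw [dif_pos h]
  exact h.choose_spec.2 g

/-- the universal odd period -/
noncomputable def MOf (q : ℕ) : ℕ := q * ∏ B ∈ F.powerset, NOf F B

lemma MOf_odd {q : ℕ} (hq : Odd q) : Odd (MOf F q) := by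
  unfold MOf
  apply hq.mul
  apply Finset.prod_induction _ (fun n => Odd n) (fun a b ha hb => ha.mul hb) odd_one
  intro B _
  exact NOf_odd F B

lemma dvd_MOf (q : ℕ) : q ∣ MOf F q := Dvd.intro _ rfl

lemma mul_NOf_dvd_MOf (q : ℕ) {B : Finset G} (hB : B ⊆ F) : q * NOf F B ∣ MOf F q := by
  apply Nat.mul_dvd_mul_left
  exact Finset.dvd_prod_of_mem _ (Finset.mem_powerset.mpr hB)

end M

section oddexp

variable {F : Finset G} {q : ℕ} {ζ : ℂ}

/-- In the absence of structure L, the blocks of a character have an odd exponent quotient. -/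
lemma exists_odd_of_not_L (h0 : (0 : G) ∈ F) (hgen : AddSubgroup.closure (F : Set G) = ⊤)
    (hq : 0 < q) (hζ : IsPrimitiveRoot ζ q)
    (hL : ¬ LStruct F q) (χ : AddChar G ℂ) (f1 : G) (hf1 : f1 ∈ F) (hf1q : χ f1 ^ q ≠ 1)
    (hex0 : ∀ k < q, ∃ f ∈ F, χ f = ζ ^ k * 1) (hex1 : ∀ k < q, ∃ f ∈ F, χ f = ζ ^ k * χ f1)
    (hc0 : (F.filter (fun f => χ f ^ q = 1)).card = q)
    (hc1 : (F.filter (fun f => ¬ χ f ^ q = 1)).card = q) :
    ∃ N : ℕ, Odd N ∧ ∀ g : G, N • g ∈ DSub F (F.filter (fun f => χ f ^ q = 1)) := by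
  classical
  set B := F.filter (fun f => χ f ^ q = 1) with hB
  set D := DSub F B with hD
  have h0B : (0 : G) ∈ B := by
    rw [hB, Finset.mem_filter]
    refine ⟨h0, ?_⟩
    rw [AddChar.map_zero_eq_one, one_pow]
  have hf1B : f1 ∉ B := by
    rw [hB, Finset.mem_filter]
    exact fun h => hf1q h.2
  have hmemB : ∀ f ∈ F, f ∈ B → f ∈ D := by
    intro f hf hfB
    apply AddSubgroup.subset_closure
    exact ⟨f, hf, 0, h0, ⟨fun _ => h0B, fun _ => hfB⟩, by simp⟩
  have hmemN : ∀ f ∈ F, f ∉ B → f - f1 ∈ D := by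
    intro f hf hfB
    apply AddSubgroup.subset_closure
    exact ⟨f, hf, f1, hf1, ⟨fun h => absurd h hfB, fun h => absurd h hf1B⟩, rfl⟩
  -- decomposition of the group
  have hdecomp : ∀ g : G, ∃ d ∈ D, ∃ k : ℤ, g = d + k • f1 := by
    intro g
    have hg : g ∈ AddSubgroup.closure (F : Set G) := by rw [hgen]; trivial
    induction hg using AddSubgroup.closure_induction with
    | mem f hf =>
      by_cases hfB : f ∈ B
      · exact ⟨f, hmemB f hf hfB, 0, by simp⟩
      · exact ⟨f - f1, hmemN f hf hfB, 1, by simp⟩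
    | zero => exact ⟨0, D.zero_mem, 0, by simp⟩
    | add a b _ _ ha hb =>
      obtain ⟨d1, hd1, k1, rfl⟩ := ha
      obtain ⟨d2, hd2, k2, rfl⟩ := hb
      refine ⟨d1 + d2, D.add_mem hd1 hd2, k1 + k2, ?_⟩
      rw [add_smul]
      abel
    | neg a _ ha =>
      obtain ⟨d1, hd1, k1, rfl⟩ := ha
      refine ⟨-d1, D.neg_mem hd1, -k1, ?_⟩
      rw [neg_smul]
      abel
  set X := D ⊔ mulSub G 2 with hX
  by_cases hc : f1 ∈ X
  · -- odd exponent
    obtain ⟨d, hd, m, hm, hsum⟩ := AddSubgroup.mem_sup.mp hc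
    obtain ⟨g', rfl⟩ := (mem_mulSub 2 m).mp hm
    obtain ⟨d', hd', k, rfl⟩ := hdecomp g'
    have hrel : (1 - 2 * k) • f1 = d + 2 • d' := by
      have e : f1 = d + 2 • (d' + k • f1) := hsum.symm
      have e2 : (1 - 2 * k) • f1 = f1 - (2 * k) • f1 := by
        rw [sub_smul, one_smul]
      have e3 : (2 * k) • f1 = 2 • (k • f1) := by
        rw [mul_smul]
        norm_cast
      rw [e2, e3]
      nth_rw 1 [e]
      rw [nsmul_add]
      abel
    have hrelD : (1 - 2 * k) • f1 ∈ D := by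
      rw [hrel]
      exact D.add_mem hd (D.nsmul_mem hd' 2)
    refine ⟨(1 - 2 * k).natAbs, ?_, ?_⟩
    · rw [Int.natAbs_odd]
      exact ⟨-k, by ring⟩
    · intro g
      obtain ⟨d'', hd'', k'', rfl⟩ := hdecomp g
      have hNf : ((1 - 2 * k).natAbs) • f1 ∈ D := by
        rw [← natCast_zsmul, Int.natCast_natAbs]
        rcases abs_choice (1 - 2 * k) with h | h
        · rw [h]; exact hrelD
        · rw [h, neg_smul]; exact D.neg_mem hrelD
      rw [nsmul_add]
      refine D.add_mem (D.nsmul_mem hd'' _) ?_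
      rw [smul_comm]
      exact D.zsmul_mem hNf k''
  · -- structure L
    exfalso
    apply hL
    have hDX : ∀ x ∈ D, x ∈ X := fun x hx => (le_sup_left : D ≤ X) hx
    have hmX : ∀ x, 2 • x ∈ X := fun x =>
      (le_sup_right : mulSub G 2 ≤ X) (nsmul_mem_mulSub 2 x)
    have hall : ∀ g, g ∈ X ∨ g - f1 ∈ X := by
      intro g
      obtain ⟨d, hd, k, rfl⟩ := hdecomp g
      rcases Int.even_or_odd' k with ⟨m, rfl | rfl⟩
      · left
        refine X.add_mem (hDX d hd) ?_
        have : (2 * m) • f1 = 2 • (m • f1) := by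
          rw [mul_smul]; norm_cast
        rw [this]
        exact hmX _
      · right
        have : d + (2 * m + 1) • f1 - f1 = d + 2 • (m • f1) := by
          rw [add_smul, one_smul, mul_smul]
          have : (2 : ℤ) • (m • f1) = (2 : ℕ) • (m • f1) := by norm_cast
          rw [this]
          abel
        rw [this]
        exact X.add_mem (hDX d hd) (hmX _)
    obtain ⟨ε, hε0, hε1⟩ := hom_of_index_two X (by
      intro a ha b hb
      have h1 := (hall a).resolve_left ha
      have h2 := (hall b).resolve_left hb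
      have : a + b = (a - f1) + (b - f1) + 2 • f1 := by
        rw [two_nsmul]; abel
      rw [this]
      exact X.add_mem (X.add_mem h1 h2) (hmX _))
    have hε_B : ∀ f ∈ F, χ f ^ q = 1 → ε f = 0 := by
      intro f hf hfq
      exact hε0 f (hDX f (hmemB f hf (Finset.mem_filter.mpr ⟨hf, hfq⟩)))
    have hε_N : ∀ f ∈ F, ¬ χ f ^ q = 1 → ε f = 1 := by
      intro f hf hfq
      apply hε1
      intro hfX
      apply hc
      have hh := hmemN f hf (fun h => hfq (Finset.mem_filter.mp h).2)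
      have : f1 = f - (f - f1) := by abel
      rw [this]
      exact X.sub_mem hfX (hDX _ hh)
    have hζq : ∀ k : ℕ, (ζ ^ k) ^ q = 1 := by
      intro k
      rw [← pow_mul, mul_comm, pow_mul, hζ.pow_eq_one, one_pow]
    have hfil0 : F.filter (fun f => ε f = 0) = F.filter (fun f => χ f ^ q = 1) := by
      apply Finset.filter_congr
      intro f hf
      constructor
      · intro h
        by_contra hn
        rw [hε_N f hf hn] at h
        exact one_ne_zero h
      · exact hε_B f hf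
    have hfil1 : F.filter (fun f => ε f = 1) = F.filter (fun f => ¬ χ f ^ q = 1) := by
      apply Finset.filter_congr
      intro f hf
      constructor
      · intro h hn
        rw [hε_B f hf hn] at h
        exact zero_ne_one h
      · exact hε_N f hf
    have hall2 : ∀ i : ZMod 2, i = 0 ∨ i = 1 := by decide
    refine ⟨ε, χ, fun i => if i = 0 then 1 else χ f1, ζ, hζ, ?_, ?_, ?_⟩
    · intro i
      rcases hall2 i with rfl | rfl
      · simp
      · simpa using char_ne_zero χ f1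
    · intro i k hk
      rcases hall2 i with rfl | rfl
      · obtain ⟨f, hf, hfv⟩ := hex0 k hk
        refine ⟨f, hf, ?_, by simpa using hfv⟩
        apply hε_B f hf
        rw [hfv, mul_one, hζq]
      · obtain ⟨f, hf, hfv⟩ := hex1 k hk
        refine ⟨f, hf, ?_, by simpa using hfv⟩
        apply hε_N f hf
        rw [hfv, mul_pow, hζq, one_mul]
        exact hf1q
    · intro i
      rcases hall2 i with rfl | rfl
      · rw [hfil0]; exact hc0
      · rw [hfil1]; exact hc1

end oddexp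

section periodic

variable {F : Finset G} {q : ℕ} {a : G → ℤ}

lemma P_smul_left (F : Finset G) (r : ℕ) (c : ℤ) (t : G → ℤ) (x : G) :
    c * P F r t x = P F r (fun y => c * t y) x := by
  simp only [P, Finset.mul_sum]

/-- dilations of the level function are constant -/
theorem P_level (hq : q.Prime) (hcard : F.card = 2 * q) (hN : NiceA F q a) {M : ℕ} (hMo : Odd M)
    (hqM : q ∣ M) {t : G → ℤ} (ht : ∀ x, (q : ℤ) * t x = P F M a x) (r : ℕ) (hr : ¬ q ∣ r) (x : G) :
    P F r t x = 2 := by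
  have hq0 : (q : ℤ) ≠ 0 := by exact_mod_cast hq.ne_zero
  have hM2 : ¬ 2 ∣ M := by
    rw [← even_iff_two_dvd]
    exact Nat.not_even_iff_odd.mpr hMo
  apply mul_left_cancel₀ hq0
  rw [P_smul_left]
  have e1 : (fun y => (q : ℤ) * t y) = P F M a := funext ht
  rw [e1]
  by_cases h2 : 2 ∣ r
  · rw [hN.h2 r M h2 hr hqM hM2 x]
    push_cast
    ring
  · have hcop : Nat.Coprime r (2 * q) := by
      apply Nat.Coprime.mul_right
      · exact ((Nat.Prime.coprime_iff_not_dvd Nat.prime_two).mpr h2).symm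
      · exact ((Nat.Prime.coprime_iff_not_dvd hq).mpr hr).symm
    rw [P_comm]
    have e2 : P F r a = fun _ => 1 := funext (hN.h1 r hcop)
    rw [e2]
    simp only [P, Finset.sum_const, mul_one, nsmul_eq_mul, hcard]
    push_cast
    ring

/-- In the absence of structure L, the level function is periodic. -/
theorem core_level_periodic [AddGroup.FG G] (h0 : (0 : G) ∈ F)
    (hgen : AddSubgroup.closure (F : Set G) = ⊤) (hq : q.Prime) (hq2 : q ≠ 2)
    (hcard : F.card = 2 * q) (hN : NiceA F q a) (hL : ¬ LStruct F q) {t : G → ℤ}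
    (ht : ∀ x, (q : ℤ) * t x = P F (MOf F q) a x) (x v : G) :
    t (x + MOf F q • v) = t x := by
  classical
  have hqpos := hq.pos
  have hqodd : Odd q := hq.odd_of_ne_two hq2
  have hMo : Odd (MOf F q) := MOf_odd F hqodd
  have hqM := dvd_MOf F q
  obtain ⟨ζ, hζ⟩ : ∃ ζ : ℂ, IsPrimitiveRoot ζ q := ⟨_, Complex.isPrimitiveRoot_exp q hq.ne_zero⟩
  let u : G → ℂ := fun x => ((t x : ℤ) : ℂ)
  have hPu : ∀ r, ¬ q ∣ r → ∀ x, P F r u x = 2 := by
    intro r hr x
    have := P_level hq hcard hN hMo hqM ht r hr x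
    have h2 : ((P F r t x : ℤ) : ℂ) = 2 := by rw [this]; norm_num
    rw [← h2]
    simp [P, u]
  have hbd : ∀ x, ‖u x‖ ≤ 2 := by
    intro x
    have h1 : 0 ≤ P F (MOf F q) a x := Finset.sum_nonneg fun f _ => by
      rcases hN.h01 (x - MOf F q • f) with h | h <;> simp [h]
    have h2 : P F (MOf F q) a x ≤ (2 * q : ℕ) := by
      calc P F (MOf F q) a x ≤ ∑ _f ∈ F, (1 : ℤ) := Finset.sum_le_sum fun f _ => by
            rcases hN.h01 (x - MOf F q • f) with h | h <;> simp [h]
        _ = (2 * q : ℕ) := by simp [hcard]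
    have hqZ : (0 : ℤ) < q := by exact_mod_cast hqpos
    have h3 : 0 ≤ t x := by
      by_contra hn
      rw [not_le] at hn
      have : (q : ℤ) * t x < 0 := mul_neg_of_pos_of_neg hqZ hn
      rw [ht] at this
      omega
    have h4 : t x ≤ 2 := by
      by_contra hn
      rw [not_le] at hn
      have h5 : (q : ℤ) * 2 < (q : ℤ) * t x := mul_lt_mul_of_pos_left hn hqZ
      rw [ht] at h5
      push_cast at h2
      linarith
    simp only [u, Complex.norm_intCast]
    have : |((t x : ℤ) : ℝ)| = ((|t x| : ℤ) : ℝ) := by push_cast; rfl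
    rw [this]
    rw [abs_of_nonneg h3]
    exact_mod_cast h4
  have hkey : ∀ χ : AddChar G ℂ, InV χ u → χ (MOf F q • v) = 1 := by
    intro χ hχ
    rw [AddChar.map_nsmul_eq_pow]
    by_cases htriv : ∃ g, χ g ≠ 1
    · obtain ⟨g, hg⟩ := htriv
      have hps : ∀ r : ℕ, 1 ≤ r → ¬ q ∣ r → ∑ f ∈ F, χ f ^ r = 0 := by
        intro r _ hr
        exact hχ.power_sum F r 2 (hPu r hr) g hg
      rcases char_cases hqpos hζ h0 hcard χ hps with hA | ⟨f1, hf1, hf1q, hex0, hex1, hcov, hc0, hc1⟩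
      · have hle : AddSubgroup.closure (F : Set G) ≤ charKerPow χ q := by
          rw [AddSubgroup.closure_le]
          intro f hf
          exact hA f hf
        rw [hgen] at hle
        have hv : χ v ^ q = 1 := hle (AddSubgroup.mem_top v)
        obtain ⟨c, hc⟩ := hqM
        rw [hc, pow_mul, hv, one_pow]
      · have hodd := exists_odd_of_not_L h0 hgen hqpos hζ hL χ f1 hf1 hf1q hex0 hex1 hc0 hc1
        set B := F.filter (fun f => χ f ^ q = 1) with hB
        have hBF : B ⊆ F := Finset.filter_subset _ _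
        have hD : DSub F B ≤ charKerPow χ q := by
          rw [DSub, AddSubgroup.closure_le]
          rintro d ⟨f, hf, g, hg', hfg, rfl⟩
          have hval : χ f ^ q = χ g ^ q := by
            by_cases hfB : f ∈ B
            · have h1 := (Finset.mem_filter.mp hfB).2
              have h2 := (Finset.mem_filter.mp (hfg.mp hfB)).2
              rw [h1, h2]
            · have h1 : ¬ χ f ^ q = 1 := fun h => hfB (Finset.mem_filter.mpr ⟨hf, h⟩)
              have h2 : ¬ χ g ^ q = 1 := fun h =>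
                hfB (hfg.mpr (Finset.mem_filter.mpr ⟨hg', h⟩))
              rw [(hcov f hf).resolve_left h1, (hcov g hg').resolve_left h2]
          show χ (f - g) ^ q = 1
          rw [AddChar.map_sub_eq_div, div_pow, hval]
          exact div_self (pow_ne_zero _ (char_ne_zero χ g))
        have hv : χ (NOf F B • v) ^ q = 1 := hD (NOf_spec F B hodd v)
        rw [AddChar.map_nsmul_eq_pow, ← pow_mul] at hv
        obtain ⟨c, hc⟩ := mul_NOf_dvd_MOf (F := F) q hBF
        rw [hc, pow_mul, mul_comm q (NOf F B), hv, one_pow]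
    · push Not at htriv
      rw [htriv v, one_pow]
  have := spectral_periodic u 2 hbd (MOf F q • v) hkey (x + MOf F q • v)
  simp only [add_sub_cancel_right, u] at this
  exact_mod_cast this.symm

end periodic

end Vale.Agent.Lib.P043
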