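import Mathlib
import Vale.Agent.Lib.P043.Core1

/-!
The level set, sign functions on cosets, and the annihilation identities.
-/

namespace Vale.Agent.Lib.P043

variable {G : Type*} [AddCommGroup G]

/-- data of a periodic level function -/
structure LevelData (F : Finset G) (q : ℕ) (a : G → ℤ) (M : ℕ) (t : G → ℤ) : Prop where
  hq : q.Prime
  hq2 : q ≠ 2
  hcard : F.card = 2 * q
  h0 : (0 : G) ∈ F
  hN : NiceA F q a
  hMo : Odd M
  hqM : q ∣ M
  ht : ∀ x, (q : ℤ) * t x = P F M a x
  hper : ∀ x v, t (x + M • v) = t x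

namespace LevelData

variable {F : Finset G} {q : ℕ} {a : G → ℤ} {M : ℕ} {t : G → ℤ} (D : LevelData F q a M t)

include D

lemma a_nonneg (x : G) : 0 ≤ a x := by
  rcases D.hN.h01 x with h | h <;> simp [h]

lemma a_le_one (x : G) : a x ≤ 1 := by
  rcases D.hN.h01 x with h | h <;> simp [h]

lemma qZ_pos : (0 : ℤ) < q := by exact_mod_cast D.hq.pos

lemma t_nonneg (x : G) : 0 ≤ t x := by
  by_contra hn
  rw [not_le] at hn
  have : (q : ℤ) * t x < 0 := mul_neg_of_pos_of_neg D.qZ_pos hn
  rw [D.ht] at this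
  have h1 : 0 ≤ P F M a x := Finset.sum_nonneg fun f _ => D.a_nonneg _
  omega

lemma r_one_sum (y : G) : P F 1 a y = 1 := by
  apply D.hN.h1
  simp

lemma not_two_dvd_M : ¬ 2 ∣ M := by
  rw [← even_iff_two_dvd]
  exact Nat.not_even_iff_odd.mpr D.hMo

lemma t_le_two (x : G) : t x ≤ 2 := by
  have h2 : P F M a x ≤ (2 * q : ℕ) := by
    calc P F M a x ≤ ∑ _f ∈ F, (1 : ℤ) := Finset.sum_le_sum fun f _ => D.a_le_one _
      _ = (2 * q : ℕ) := by simp [D.hcard]
  by_contra hn
  rw [not_le] at hn
  have h5 : (q : ℤ) * 2 < (q : ℤ) * t x := mul_lt_mul_of_pos_left hn D.qZ_pos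
  rw [D.ht] at h5
  push_cast at h2
  linarith

/-- no point has level two -/
lemma t_le_one (x : G) : t x ≤ 1 := by
  classical
  by_contra hn
  rw [not_le] at hn
  have ht2 : t x = 2 := le_antisymm (D.t_le_two x) (by omega)
  -- the whole coset lies in the tiling
  have hcoset : ∀ v, a (x + M • v) = 1 := by
    intro v
    have h1 : t (x + M • v) = 2 := by rw [D.hper, ht2]
    have h2 : P F M a (x + M • v) = (2 * q : ℕ) := by
      rw [← D.ht, h1]
      push_cast
      ring
    by_contra hne
    have h3 : a (x + M • v) = 0 := (D.hN.h01 _).resolve_right hne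
    have h4 : P F M a (x + M • v) < (2 * q : ℕ) := by
      have : P F M a (x + M • v) < ∑ _f ∈ F, (1 : ℤ) := by
        apply Finset.sum_lt_sum (fun f _ => D.a_le_one _)
        refine ⟨0, D.h0, ?_⟩
        simp only [smul_zero, sub_zero, h3]
        norm_num
      simpa [D.hcard] using this
    omega
  -- an even dilation forces a second point
  have hr2 : 2 ∣ (1 + M) := by
    have := D.hMo.add_odd odd_one
    rw [add_comm] at this
    exact even_iff_two_dvd.mp this
  have hrq : ¬ q ∣ (1 + M) := by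
    intro h
    have h1 : q ∣ 1 := (Nat.dvd_add_left D.hqM).mp h
    exact D.hq.one_lt.ne' (Nat.dvd_one.mp h1)
  have hev := D.hN.d1 (1 + M) hr2 hrq x
  have hax : a x = 1 := by
    have := hcoset 0
    simpa using this
  have hex : ∃ g ∈ F, g ≠ 0 ∧ a (x - (1 + M) • g) = 1 := by
    by_contra hcon
    push Not at hcon
    have hs : P F (1 + M) a x = 1 := by
      simp only [P]
      rw [Finset.sum_eq_single 0]
      · simpa using hax
      · intro g hg hg0
        exact (D.hN.h01 _).resolve_right (hcon g hg hg0)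
      · intro hn0
        exact absurd D.h0 hn0
    rw [hs] at hev
    norm_num at hev
  obtain ⟨g, hg, hg0, hag⟩ := hex
  have hy : P F 1 a (x + M • (-g)) = 1 := D.r_one_sum _
  have h1 : a (x + M • (-g) - 1 • (0 : G)) = 1 := by
    simpa using hcoset (-g)
  have h2 : a (x + M • (-g) - 1 • g) = 1 := by
    have : x + M • (-g) - 1 • g = x - (1 + M) • g := by
      rw [add_smul, smul_neg]
      abel
    rw [this]
    exact hag
  have hle : ∑ f ∈ ({0, g} : Finset G), a (x + M • (-g) - 1 • f) ≤ P F 1 a (x + M • (-g)) := by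
    apply Finset.sum_le_sum_of_subset_of_nonneg
    · intro f hf
      rcases Finset.mem_insert.mp hf with rfl | hf
      · exact D.h0
      · rw [Finset.mem_singleton] at hf
        rw [hf]
        exact hg
    · intro f _ _
      exact D.a_nonneg _
  rw [Finset.sum_pair (Ne.symm hg0), h1, h2, hy] at hle
  norm_num at hle

lemma t_zero_or_one (x : G) : t x = 0 ∨ t x = 1 := by
  have h1 := D.t_nonneg x
  have h2 := D.t_le_one x
  omega

lemma a_le_t {x : G} (h : a x = 1) : t x = 1 := by
  have h1 : 0 < (q : ℤ) * t x := by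
    rw [D.ht]
    apply lt_of_lt_of_le (zero_lt_one)
    have : a (x - M • (0 : G)) = 1 := by simpa using h
    rw [← this]
    exact Finset.single_le_sum (f := fun f => a (x - M • f)) (fun f _ => D.a_nonneg _) D.h0
  have h2 : 0 < t x := (pos_iff_pos_of_mul_pos h1).mp D.qZ_pos
  have h3 := D.t_le_one x
  omega

lemma a_zero_of_t_ne {x : G} (h : t x ≠ 1) : a x = 0 :=
  (D.hN.h01 x).resolve_right fun h1 => h (D.a_le_t h1)

lemma P_t_eq (r : ℕ) (hr : ¬ q ∣ r) (y : G) : P F r t y = 2 :=
  P_level D.hq D.hcard D.hN D.hMo D.hqM D.ht r hr y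

lemma filter_card (r : ℕ) (hr : ¬ q ∣ r) (y : G) :
    (F.filter (fun c => t (y - r • c) = 1)).card = 2 := by
  classical
  have h := D.P_t_eq r hr y
  simp only [P] at h
  have h2 : ∑ c ∈ F, t (y - r • c) = ∑ c ∈ F, (if t (y - r • c) = 1 then (1 : ℤ) else 0) := by
    apply Finset.sum_congr rfl
    intro c _
    rcases D.t_zero_or_one (y - r • c) with h0 | h1
    · simp [h0]
    · simp [h1]
  rw [h2, Finset.sum_boole] at h
  exact_mod_cast h

lemma only_pair {r : ℕ} (hr : ¬ q ∣ r) {y f g : G} (hf : f ∈ F) (hg : g ∈ F) (hfg : f ≠ g)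
    (h1 : t (y - r • f) = 1) (h2 : t (y - r • g) = 1) {c : G} (hc : c ∈ F)
    (hc1 : t (y - r • c) = 1) : c = f ∨ c = g := by
  classical
  have hS : ({f, g} : Finset G) = F.filter (fun c => t (y - r • c) = 1) := by
    apply Finset.eq_of_subset_of_card_le
    · intro c hc
      rcases Finset.mem_insert.mp hc with rfl | hc
      · exact Finset.mem_filter.mpr ⟨hf, h1⟩
      · rw [Finset.mem_singleton] at hc
        rw [hc]
        exact Finset.mem_filter.mpr ⟨hg, h2⟩
    · rw [D.filter_card r hr y, Finset.card_pair hfg]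
  have : c ∈ ({f, g} : Finset G) := by
    rw [hS]
    exact Finset.mem_filter.mpr ⟨hc, hc1⟩
  rcases Finset.mem_insert.mp this with h | h
  · exact Or.inl h
  · exact Or.inr (Finset.mem_singleton.mp h)

lemma level_pair {r : ℕ} (hr : ¬ q ∣ r) {y f g : G} (hf : f ∈ F) (hg : g ∈ F) (hfg : f ≠ g)
    (h1 : t (y - r • f) = 1) (h2 : t (y - r • g) = 1) :
    P F r a y = a (y - r • f) + a (y - r • g) := by
  classical
  simp only [P]
  apply Finset.sum_eq_add f g hfg
  · rintro c hc ⟨hcf, hcg⟩
    apply D.a_zero_of_t_ne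
    intro hc1
    rcases D.only_pair hr hf hg hfg h1 h2 hc hc1 with h | h
    · exact hcf h
    · exact hcg h
  · exact fun h => absurd hf h
  · exact fun h => absurd hg h

lemma pair_odd {r : ℕ} (hr : ¬ q ∣ r) (hr2 : ¬ 2 ∣ r) {y f g : G} (hf : f ∈ F) (hg : g ∈ F)
    (hfg : f ≠ g) (h1 : t (y - r • f) = 1) (h2 : t (y - r • g) = 1) :
    a (y - r • f) + a (y - r • g) = 1 := by
  rw [← D.level_pair hr hf hg hfg h1 h2]
  apply D.hN.h1
  apply Nat.Coprime.mul_right
  · exact ((Nat.Prime.coprime_iff_not_dvd Nat.prime_two).mpr hr2).symm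
  · exact ((Nat.Prime.coprime_iff_not_dvd D.hq).mpr hr).symm

lemma pair_even {r : ℕ} (hr : ¬ q ∣ r) (hr2 : 2 ∣ r) {y f g : G} (hf : f ∈ F) (hg : g ∈ F)
    (hfg : f ≠ g) (h1 : t (y - r • f) = 1) (h2 : t (y - r • g) = 1) :
    a (y - r • f) = a (y - r • g) := by
  have h := D.hN.d1 r hr2 hr y
  rw [D.level_pair hr hf hg hfg h1 h2] at h
  rcases D.hN.h01 (y - r • f) with h3 | h3 <;> rcases D.hN.h01 (y - r • g) with h4 | h4 <;>
    simp [h3, h4] at h ⊢

omit D in
/-- the sign function along a coset of `M G` -/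
def U (a : G → ℤ) (M : ℕ) (x v : G) : ℤ := 2 * a (x + M • v) - 1

lemma U_eq_or (x v : G) : U a M x v = 1 ∨ U a M x v = -1 := by
  unfold U
  rcases D.hN.h01 (x + M • v) with h | h <;> simp [h]

lemma U_ne_zero (x v : G) : U a M x v ≠ 0 := by
  rcases D.U_eq_or x v with h | h <;> simp [h]

/-- The key adjacency lemma. -/
lemma adj_core {x x' f g : G} {r : ℕ} (hf : f ∈ F) (hg : g ∈ F) (hfg : f ≠ g) (hr : ¬ q ∣ r)
    (hx : t x = 1) (hx' : t x' = 1) (hrel : x' + r • g = x + r • f) :
    (∃ σ : ℤ, (σ = 1 ∨ σ = -1) ∧ ∀ v, U a M x' v = σ * U a M x v) ∧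
      ∀ v, U a M x (v + (f - g)) = - U a M x v := by
  have hrM : ¬ q ∣ (r + M) := fun h => hr ((Nat.dvd_add_left D.hqM).mp h)
  have e1 : ∀ v, x + r • f + M • v - r • f = x + M • v := by intro v; abel
  have e2 : ∀ v, x + r • f + M • v - r • g = x' + M • v := by
    intro v
    rw [← hrel]
    abel
  have e3 : ∀ v, x + r • f + M • v - (r + M) • f = x + M • (v - f) := by
    intro v
    rw [add_smul, smul_sub]
    abel
  have e4 : ∀ v, x + r • f + M • v - (r + M) • g = x' + M • (v - g) := by
    intro v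
    rw [← hrel, add_smul, smul_sub]
    abel
  have ht1 : ∀ v, t (x + M • v) = 1 := fun v => by rw [D.hper, hx]
  have ht2 : ∀ v, t (x' + M • v) = 1 := fun v => by rw [D.hper, hx']
  -- the two parity relations
  have hrel2 : ∀ v, a (x + M • v) + a (x + M • (v + (f - g))) = 1 ∧
      ∃ σ : ℤ, (σ = 1 ∨ σ = -1) ∧ U a M x' v = σ * U a M x v ∧
      ((σ = 1 → ∀ w, a (x' + M • w) = a (x + M • w)) ∧
       (σ = -1 → ∀ w, a (x' + M • w) = 1 - a (x + M • w))) := by
    intro v
    have hv1 : v + (f - g) - f = v - g := by abel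
    by_cases h2 : 2 ∣ r
    · have hrM2 : ¬ 2 ∣ (r + M) := fun h => D.not_two_dvd_M ((Nat.dvd_add_right h2).mp h)
      have H1 : ∀ w, a (x' + M • w) = a (x + M • w) := by
        intro w
        have := D.pair_even (y := x + r • f + M • w) hr h2 hf hg hfg
          (by rw [e1]; exact ht1 w) (by rw [e2]; exact ht2 w)
        rw [e1, e2] at this
        exact this.symm
      have H2 : ∀ w, a (x + M • (w - f)) + a (x' + M • (w - g)) = 1 := by
        intro w
        have := D.pair_odd (y := x + r • f + M • w) hrM hrM2 hf hg hfg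
          (by rw [e3]; exact ht1 _) (by rw [e4]; exact ht2 _)
        rwa [e3, e4] at this
      refine ⟨?_, 1, Or.inl rfl, ?_, fun _ => H1, fun h => by norm_num at h⟩
      · have := H2 (v + f)
        rw [add_sub_cancel_right, H1] at this
        have e : v + f - g = v + (f - g) := by abel
        rwa [e] at this
      · simp [U, H1 v]
    · have hrM2 : 2 ∣ (r + M) := by
        have hro : Odd r := Nat.not_even_iff_odd.mp (fun h => h2 (even_iff_two_dvd.mp h))
        exact even_iff_two_dvd.mp (hro.add_odd D.hMo)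
      have H1 : ∀ w, a (x' + M • w) = 1 - a (x + M • w) := by
        intro w
        have := D.pair_odd (y := x + r • f + M • w) hr h2 hf hg hfg
          (by rw [e1]; exact ht1 w) (by rw [e2]; exact ht2 w)
        rw [e1, e2] at this
        linarith
      have H2 : ∀ w, a (x + M • (w - f)) = a (x' + M • (w - g)) := by
        intro w
        have := D.pair_even (y := x + r • f + M • w) hrM hrM2 hf hg hfg
          (by rw [e3]; exact ht1 _) (by rw [e4]; exact ht2 _)
        rwa [e3, e4] at this
      refine ⟨?_, -1, Or.inr rfl, ?_, fun h => by norm_num at h, fun _ => H1⟩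
      · have := H2 (v + f)
        rw [add_sub_cancel_right, H1] at this
        have e : v + f - g = v + (f - g) := by abel
        rw [e] at this
        linarith
      · simp only [U, H1 v]
        ring
  constructor
  · obtain ⟨σ, hσ, _, hσ1, hσ2⟩ := (hrel2 0).2
    refine ⟨σ, hσ, ?_⟩
    intro v
    rcases hσ with rfl | rfl
    · simp [U, hσ1 rfl v]
    · simp only [U, hσ2 rfl v]
      ring
  · intro v
    have := (hrel2 v).1
    simp only [U]
    linarith

omit D in
/-- periods of a function -/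
def perS (u : G → ℤ) : Set G := {e | ∀ v, u (v + e) = u v}

omit D in
/-- antiperiods of a function -/
def antS (u : G → ℤ) : Set G := {e | ∀ v, u (v + e) = - u v}

lemma adj_ty {x x' f g : G} {r : ℕ} (hf : f ∈ F) (hg : g ∈ F) (hfg : f ≠ g) (hr : ¬ q ∣ r)
    (hx : t x = 1) (hx' : t x' = 1) (hrel : x' + r • g = x + r • f) :
    perS (U a M x') = perS (U a M x) ∧ antS (U a M x') = antS (U a M x) ∧
      f - g ∈ antS (U a M x) := by
  obtain ⟨⟨σ, hσ, hσv⟩, hant⟩ := D.adj_core hf hg hfg hr hx hx' hrel
  have hσ0 : σ ≠ 0 := by rcases hσ with rfl | rfl <;> norm_num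
  refine ⟨?_, ?_, hant⟩
  · ext e
    simp only [perS, Set.mem_ofPred_eq, hσv]
    constructor
    · intro h v
      exact mul_left_cancel₀ hσ0 (h v)
    · intro h v
      rw [h]
  · ext e
    simp only [antS, Set.mem_ofPred_eq, hσv]
    constructor
    · intro h v
      have := h v
      exact mul_left_cancel₀ hσ0 (by rw [this]; ring)
    · intro h v
      rw [h, mul_neg]

omit D in
lemma U_shift (x w v : G) : U a M (x + M • w) v = U a M x (w + v) := by
  simp only [U]
  rw [add_assoc, smul_add]

omit D in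
lemma ty_shift (x w : G) :
    perS (U a M (x + M • w)) = perS (U a M x) ∧ antS (U a M (x + M • w)) = antS (U a M x) := by
  constructor
  · ext e
    simp only [perS, Set.mem_ofPred_eq, U_shift]
    constructor
    · intro h v
      have := h (v - w)
      rwa [show w + (v - w + e) = v + e by abel, show w + (v - w) = v by abel] at this
    · intro h v
      rw [← add_assoc, h]
  · ext e
    simp only [antS, Set.mem_ofPred_eq, U_shift]
    constructor
    · intro h v
      have := h (v - w)
      rwa [show w + (v - w + e) = v + e by abel, show w + (v - w) = v by abel] at this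
    · intro h v
      rw [← add_assoc, h]

end LevelData

end Vale.Agent.Lib.P043
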