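import Mathlib
import Vale.Agent.Lib.P043.Core2

/-!
Sign functions on `F`, and the deduction of a periodic tiling in the periodic level case.
-/

namespace Vale.Agent.Lib.P043

open LevelData

variable {G : Type*} [AddCommGroup G]

section signs

variable (u : G → ℤ)

lemma perS_zero : (0 : G) ∈ perS u := fun v => by simp

lemma perS_add {a b : G} (ha : a ∈ perS u) (hb : b ∈ perS u) : a + b ∈ perS u := fun v => by
  rw [← add_assoc, hb, ha]

lemma perS_neg {a : G} (ha : a ∈ perS u) : -a ∈ perS u := fun v => by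
  have := ha (v + -a)
  rw [add_assoc, neg_add_cancel, add_zero] at this
  exact this.symm

lemma antS_add_perS {a b : G} (ha : a ∈ antS u) (hb : b ∈ perS u) : a + b ∈ antS u := fun v => by
  rw [← add_assoc, hb, ha]

lemma antS_add_antS {a b : G} (ha : a ∈ antS u) (hb : b ∈ antS u) : a + b ∈ perS u := fun v => by
  rw [← add_assoc, hb, ha, neg_neg]

lemma antS_neg {a : G} (ha : a ∈ antS u) : -a ∈ antS u := fun v => by
  have := ha (v + -a)
  rw [add_assoc, neg_add_cancel, add_zero] at this
  rw [this, neg_neg]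

lemma antS_sub {a b : G} (ha : a ∈ antS u) (hb : b ∈ antS u) : a - b ∈ perS u := by
  rw [sub_eq_add_neg]
  exact antS_add_antS u ha (antS_neg u hb)

lemma antS_not_perS (hu : ∀ v, u v ≠ 0) {a : G} (ha : a ∈ antS u) : a ∉ perS u := fun hp => by
  have h1 := ha 0
  have h2 := hp 0
  rw [h2] at h1
  have h3 : u 0 = 0 := by omega
  exact hu 0 h3

/-- the subgroup of periods -/
def perSub : AddSubgroup G where
  carrier := perS u
  add_mem' := perS_add u
  zero_mem' := perS_zero u
  neg_mem' := perS_neg u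

/-- the subgroup of periods and antiperiods -/
def allSub : AddSubgroup G where
  carrier := perS u ∪ antS u
  add_mem' := by
    rintro a b (ha | ha) (hb | hb)
    · exact Or.inl (perS_add u ha hb)
    · rw [add_comm]
      exact Or.inr (antS_add_perS u hb ha)
    · exact Or.inr (antS_add_perS u ha hb)
    · exact Or.inl (antS_add_antS u ha hb)
  zero_mem' := Or.inl (perS_zero u)
  neg_mem' := by
    rintro a (ha | ha)
    · exact Or.inl (perS_neg u ha)
    · exact Or.inr (antS_neg u ha)

lemma mem_perSub (a : G) : a ∈ perSub u ↔ a ∈ perS u := Iff.rfl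

lemma mem_allSub (a : G) : a ∈ allSub u ↔ a ∈ perS u ∨ a ∈ antS u := Iff.rfl

open Classical in
/-- the sign of `f` relative to `f0` -/
noncomputable def sg (f0 f : G) : ℤ :=
  if f - f0 ∈ perS u then 1 else if f - f0 ∈ antS u then -1 else 0

lemma sg_self (f0 : G) : sg u f0 f0 = 1 := by
  simp [sg, perS_zero]

lemma sg_cases (f0 f : G) : sg u f0 f = 1 ∨ sg u f0 f = -1 ∨ sg u f0 f = 0 := by
  unfold sg
  split_ifs <;> simp

lemma sg_eq_one_iff (f0 f : G) : sg u f0 f = 1 ↔ f - f0 ∈ perS u := by
  unfold sg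
  split_ifs with h1 h2
  · simp [h1]
  · simp [h1]
  · simp [h1]

lemma sg_eq_neg_one_iff (hu : ∀ v, u v ≠ 0) (f0 f : G) : sg u f0 f = -1 ↔ f - f0 ∈ antS u := by
  unfold sg
  split_ifs with h1 h2
  · constructor
    · intro h; norm_num at h
    · intro h; exact absurd h1 (antS_not_perS u hu h)
  · simp [h2]
  · simp [h2]

lemma sg_add_of_ant (hu : ∀ v, u v ≠ 0) (f0 : G) {f1 f2 : G} (h : f1 - f2 ∈ antS u) :
    sg u f0 f1 + sg u f0 f2 = 0 := by
  have e : f2 - f0 = (f1 - f0) + (-(f1 - f2)) := by abel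
  have e' : f1 - f0 = (f2 - f0) + (f1 - f2) := by abel
  by_cases h1 : f1 - f0 ∈ perS u
  · have h2 : f2 - f0 ∈ antS u := by
      rw [e, add_comm]
      exact antS_add_perS u (antS_neg u h) h1
    rw [(sg_eq_one_iff u f0 f1).mpr h1, (sg_eq_neg_one_iff u hu f0 f2).mpr h2]
    norm_num
  · by_cases h1' : f1 - f0 ∈ antS u
    · have h2 : f2 - f0 ∈ perS u := by
        rw [e]
        exact antS_add_antS u h1' (antS_neg u h)
      rw [(sg_eq_one_iff u f0 f2).mpr h2, (sg_eq_neg_one_iff u hu f0 f1).mpr h1']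
      norm_num
    · have h3 : f2 - f0 ∉ perS u := by
        intro h4
        apply h1'
        rw [e', add_comm]
        exact antS_add_perS u h h4
      have h4 : f2 - f0 ∉ antS u := by
        intro h5
        apply h1
        rw [e']
        exact antS_add_antS u h5 h
      simp [sg, h1, h1', h3, h4]

end signs

/-- Balance for periodic nonnegative functions. -/
lemma balance [AddGroup.FG G] (F : Finset G) (n : ℕ) (hn : 0 < n) (u c : G → ℤ)
    (hper : ∀ x v, u (x + n • v) = u x) (hnn : ∀ x, 0 ≤ u x) (x0 : G) (hx0 : 0 < u x0)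
    (hz : ∀ y, ∑ f ∈ F, c f * u (y - f) = 0) : ∑ f ∈ F, c f = 0 := by
  classical
  have := finite_quotient_mulSub (G := G) n hn
  let _ : Fintype (G ⧸ mulSub G n) := Fintype.ofFinite _
  let ubar : (G ⧸ mulSub G n) → ℤ := fun Q => u (Quotient.out Q)
  have hubar : ∀ x, ubar (QuotientAddGroup.mk x) = u x := by
    intro x
    obtain ⟨h, hh⟩ := QuotientAddGroup.mk_out_eq_add (mulSub G n) x
    obtain ⟨w, hw⟩ := (mem_mulSub n _).mp h.2
    simp only [ubar]
    have e : (Quotient.out (QuotientAddGroup.mk x : G ⧸ mulSub G n)) = x + (h : G) := hh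
    rw [e, ← hw, hper]
  have hS : 0 < ∑ Q : G ⧸ mulSub G n, ubar Q := by
    apply Finset.sum_pos'
    · intro Q _
      exact hnn _
    · exact ⟨QuotientAddGroup.mk x0, Finset.mem_univ _, by rw [hubar]; exact hx0⟩
  have hzero : (∑ f ∈ F, c f) * ∑ Q : G ⧸ mulSub G n, ubar Q = 0 := by
    rw [Finset.sum_mul]
    have h1 : ∀ f ∈ F, c f * ∑ Q : G ⧸ mulSub G n, ubar Q =
        ∑ Q : G ⧸ mulSub G n, c f * u (Quotient.out Q - f) := by
      intro f _
      rw [Finset.mul_sum]
      rw [← Equiv.sum_comp (Equiv.subRight (QuotientAddGroup.mk f : G ⧸ mulSub G n))]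
      apply Finset.sum_congr rfl
      intro Q _
      congr 1
      simp only [Equiv.subRight_apply]
      rw [← hubar (Quotient.out Q - f)]
      congr 1
      rw [QuotientAddGroup.mk_sub]
      congr 1
      exact (Quotient.out_eq' Q).symm
    rw [Finset.sum_congr rfl h1, Finset.sum_comm]
    apply Finset.sum_eq_zero
    intro Q _
    exact hz _
  rcases mul_eq_zero.mp hzero with h | h
  · exact h
  · omega

namespace LevelData

variable {F : Finset G} {q : ℕ} {a : G → ℤ} {M : ℕ} {t : G → ℤ}

open Classical in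
/-- the part of the level set of a given type -/
noncomputable def uT (a t : G → ℤ) (M : ℕ) (τ : Set G × Set G) (x : G) : ℤ :=
  if t x = 1 ∧ (perS (U a M x), antS (U a M x)) = τ then 1 else 0

lemma uT_nonneg (τ : Set G × Set G) (x : G) : 0 ≤ uT a t M τ x := by
  unfold uT; split_ifs <;> simp

variable (D : LevelData F q a M t)

include D

lemma uT_per (τ : Set G × Set G) (x v : G) : uT a t M τ (x + M • v) = uT a t M τ x := by
  unfold uT
  have h1 := ty_shift (a := a) (M := M) x v
  simp only [D.hper, h1.1, h1.2]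

lemma M_pos : 0 < M := D.hMo.pos

lemma finite_types [AddGroup.FG G] :
    (Set.range (fun x : G => (perS (U a M x), antS (U a M x)))).Finite := by
  have := finite_quotient_mulSub (G := G) M D.M_pos
  apply (Set.finite_range (fun Q : G ⧸ mulSub G M =>
    (perS (U a M (Quotient.out Q)), antS (U a M (Quotient.out Q))))).subset
  rintro _ ⟨x, rfl⟩
  refine ⟨QuotientAddGroup.mk x, ?_⟩
  obtain ⟨h, hh⟩ := QuotientAddGroup.mk_out_eq_add (mulSub G M) x
  obtain ⟨w, hw⟩ := (mem_mulSub M _).mp h.2
  have e : (Quotient.out (QuotientAddGroup.mk x : G ⧸ mulSub G M)) = x + M • w := by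
    rw [hw]; exact hh
  simp only [e]
  have h1 := ty_shift (a := a) (M := M) x w
  rw [h1.1, h1.2]

/-- Annihilation: signs cancel on each type. -/
lemma sg_ann (τ : Set G × Set G) (x0 : G) (hτ : (perS (U a M x0), antS (U a M x0)) = τ)
    (f0 : G) (r : ℕ) (hr : ¬ q ∣ r) (y : G) :
    ∑ f ∈ F, sg (U a M x0) f0 f * uT a t M τ (y - r • f) = 0 := by
  classical
  obtain ⟨f1, f2, hne, hS⟩ := Finset.card_eq_two.mp (D.filter_card r hr y)
  have hmem1 : f1 ∈ F.filter (fun c => t (y - r • c) = 1) := by rw [hS]; simp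
  have hmem2 : f2 ∈ F.filter (fun c => t (y - r • c) = 1) := by rw [hS]; simp
  obtain ⟨hf1, ht1⟩ := Finset.mem_filter.mp hmem1
  obtain ⟨hf2, ht2⟩ := Finset.mem_filter.mp hmem2
  rw [Finset.sum_eq_add f1 f2 hne]
  · have hrel : (y - r • f2) + r • f2 = (y - r • f1) + r • f1 := by abel
    obtain ⟨hP, hA, hant⟩ := D.adj_ty hf1 hf2 hne hr ht1 ht2 hrel
    have hU : ∀ v, U a M x0 v ≠ 0 := D.U_ne_zero x0
    by_cases hty : (perS (U a M (y - r • f1)), antS (U a M (y - r • f1))) = τ
    · have hty2 : (perS (U a M (y - r • f2)), antS (U a M (y - r • f2))) = τ := by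
        rw [hP, hA]; exact hty
      have hu1 : uT a t M τ (y - r • f1) = 1 := by
        unfold uT; rw [if_pos ⟨ht1, hty⟩]
      have hu2 : uT a t M τ (y - r • f2) = 1 := by
        unfold uT; rw [if_pos ⟨ht2, hty2⟩]
      rw [hu1, hu2, mul_one, mul_one]
      have hant' : f1 - f2 ∈ antS (U a M x0) := by
        have := congrArg Prod.snd (hty.trans hτ.symm)
        simp only at this
        rwa [← this]
      exact sg_add_of_ant _ hU f0 hant'
    · have hty2 : ¬ (perS (U a M (y - r • f2)), antS (U a M (y - r • f2))) = τ := by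
        rw [hP, hA]; exact hty
      have hu1 : uT a t M τ (y - r • f1) = 0 := by
        unfold uT; rw [if_neg (fun h => hty h.2)]
      have hu2 : uT a t M τ (y - r • f2) = 0 := by
        unfold uT; rw [if_neg (fun h => hty2 h.2)]
      rw [hu1, hu2, mul_zero, mul_zero, add_zero]
  · rintro c hc ⟨hc1, hc2⟩
    have hnot : t (y - r • c) ≠ 1 := by
      intro h
      have : c ∈ F.filter (fun c => t (y - r • c) = 1) := Finset.mem_filter.mpr ⟨hc, h⟩
      rw [hS] at this
      simp only [Finset.mem_insert, Finset.mem_singleton] at this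
      rcases this with h | h
      · exact hc1 h
      · exact hc2 h
    have : uT a t M τ (y - r • c) = 0 := by
      unfold uT; rw [if_neg (fun h => hnot h.1)]
    rw [this, mul_zero]
  · exact fun h => absurd hf1 h
  · exact fun h => absurd hf2 h

end LevelData

end Vale.Agent.Lib.P043
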