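import Mathlib
import Vale.Agent.Lib.P043.Core3

/-!
The main theorem for generating sets containing `0`.
-/

namespace Vale.Agent.Lib.P043

open LevelData

variable {G : Type*} [AddCommGroup G]

section

variable {F : Finset G} {q : ℕ} {a : G → ℤ} {M : ℕ} {t : G → ℤ}

/-- weighted multiplicity with integer weights -/
noncomputable def muZ (F : Finset G) (χ : AddChar G ℂ) (s : G → ℤ) (v : ℂ) : ℤ := by
  classical
  exact ∑ f ∈ F, if χ f = v then s f else 0

lemma cast_muZ (F : Finset G) (χ : AddChar G ℂ) (s : G → ℤ) (v : ℂ) :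
    ((muZ F χ s v : ℤ) : ℂ) = Mu F (fun f => ((s f : ℤ) : ℂ)) (fun f => χ f) v := by
  classical
  simp only [muZ, Mu]
  push_cast
  apply Finset.sum_congr rfl
  intro f _
  split_ifs <;> simp

lemma muZ_rot {ζ : ℂ} (hq : 0 < q) (hζ : IsPrimitiveRoot ζ q) (χ : AddChar G ℂ) (s : G → ℤ)
    (h : ∀ r : ℕ, 1 ≤ r → ¬ q ∣ r → ∑ f ∈ F, ((s f : ℤ) : ℂ) * χ f ^ r = 0) (k : ℕ) (v : ℂ) :
    muZ F χ s (ζ ^ k * v) = muZ F χ s v := by
  have := Mu_rot_pow F (fun f => ((s f : ℤ) : ℂ)) (fun f => χ f) (fun i _ => char_ne_zero χ i) q ζ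
    hζ.pow_eq_one hq.ne' h k v
  rw [← cast_muZ, ← cast_muZ] at this
  exact_mod_cast this

lemma sum_muZ (F : Finset G) (χ : AddChar G ℂ) (s : G → ℤ) :
    ∑ v ∈ F.image (fun f => χ f), muZ F χ s v = ∑ f ∈ F, s f := by
  classical
  simp only [muZ]
  rw [Finset.sum_comm]
  apply Finset.sum_congr rfl
  intro f hf
  rw [Finset.sum_eq_single (χ f)]
  · simp
  · intro b _ hb
    rw [if_neg (Ne.symm hb)]
  · intro hn
    exact absurd (Finset.mem_image_of_mem (fun f => χ f) hf) hn

lemma muZ_eq_zero_of_not_mem {χ : AddChar G ℂ} {s : G → ℤ} {v : ℂ}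
    (h : v ∉ F.image (fun f => χ f)) : muZ F χ s v = 0 := by
  classical
  simp only [muZ]
  apply Finset.sum_eq_zero
  intro f hf
  rw [if_neg]
  intro hfv
  exact h (hfv ▸ Finset.mem_image_of_mem (fun f => χ f) hf)

lemma exists_of_muZ_pos {χ : AddChar G ℂ} {s : G → ℤ} {v : ℂ}
    (hs : ∀ f, s f = 1 ∨ s f = -1 ∨ s f = 0) (h : 0 < muZ F χ s v) :
    ∃ f ∈ F, χ f = v ∧ s f = 1 := by
  classical
  by_contra hcon
  push Not at hcon
  have : muZ F χ s v ≤ 0 := by
    simp only [muZ]
    apply Finset.sum_nonpos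
    intro f hf
    split_ifs with hfv
    · rcases hs f with h1 | h1 | h1
      · exact absurd h1 (hcon f hf hfv)
      · simp [h1]
      · simp [h1]
    · exact le_refl _
  omega

lemma exists_of_muZ_neg {χ : AddChar G ℂ} {s : G → ℤ} {v : ℂ}
    (hs : ∀ f, s f = 1 ∨ s f = -1 ∨ s f = 0) (h : muZ F χ s v < 0) :
    ∃ f ∈ F, χ f = v ∧ s f = -1 := by
  classical
  by_contra hcon
  push Not at hcon
  have : 0 ≤ muZ F χ s v := by
    simp only [muZ]
    apply Finset.sum_nonneg
    intro f hf
    split_ifs with hfv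
    · rcases hs f with h1 | h1 | h1
      · simp [h1]
      · exact absurd h1 (hcon f hf hfv)
      · simp [h1]
    · exact le_refl _
  omega

/-- A nonzero weighted multiplicity of total mass zero forces structure L. -/
lemma LStruct_of_muZ_ne (h0 : (0 : G) ∈ F) (hgen : AddSubgroup.closure (F : Set G) = ⊤)
    (hq : 0 < q) (hcard : F.card = 2 * q) {ζ : ℂ} (hζ : IsPrimitiveRoot ζ q)
    (u0 : G → ℤ) (hu0 : ∀ v, u0 v ≠ 0) (χ : AddChar G ℂ) (f0 : G)
    (hsum : ∑ f ∈ F, sg u0 f0 f = 0)
    (hps : ∀ r : ℕ, 1 ≤ r → ¬ q ∣ r → ∑ f ∈ F, ((sg u0 f0 f : ℤ) : ℂ) * χ f ^ r = 0)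
    (v : ℂ) (hv : muZ F χ (sg u0 f0) v ≠ 0) : LStruct F q := by
  classical
  set s := sg u0 f0 with hs
  have hsc : ∀ f, s f = 1 ∨ s f = -1 ∨ s f = 0 := sg_cases u0 f0
  -- both signs occur
  have hsumZ : ∑ w ∈ F.image (fun f => χ f), muZ F χ s w = 0 := by
    rw [sum_muZ]; exact hsum
  have hvmem : v ∈ F.image (fun f => χ f) := by
    by_contra hn
    exact hv (muZ_eq_zero_of_not_mem hn)
  have hpos : ∃ w, 0 < muZ F χ s w := by
    by_contra hcon
    push Not at hcon
    have := (Finset.sum_eq_zero_iff_of_nonpos (fun w _ => hcon w)).mp hsumZ v hvmem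
    exact hv this
  have hneg : ∃ w, muZ F χ s w < 0 := by
    by_contra hcon
    push Not at hcon
    have := (Finset.sum_eq_zero_iff_of_nonneg (fun w _ => hcon w)).mp hsumZ v hvmem
    exact hv this
  obtain ⟨vp, hvp⟩ := hpos
  obtain ⟨vm, hvm⟩ := hneg
  have hne_of_muZ : ∀ w, muZ F χ s w ≠ 0 → w ≠ 0 := by
    intro w hw hw0
    apply hw
    apply muZ_eq_zero_of_not_mem
    intro hmem
    obtain ⟨f, _, hf⟩ := Finset.mem_image.mp hmem
    rw [hw0] at hf
    exact char_ne_zero χ f hf
  have hvp0 : vp ≠ 0 := hne_of_muZ vp hvp.ne'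
  have hvm0 : vm ≠ 0 := hne_of_muZ vm hvm.ne
  let Fp := F.filter (fun f => s f = 1)
  let Fm := F.filter (fun f => s f = -1)
  have hcovp : ∀ k < q, ∃ f ∈ Fp, χ f = ζ ^ k * vp := by
    intro k _
    have h1 : 0 < muZ F χ s (ζ ^ k * vp) := by
      rw [muZ_rot hq hζ χ s hps]; exact hvp
    obtain ⟨f, hf, hfv, hfs⟩ := exists_of_muZ_pos hsc h1
    exact ⟨f, Finset.mem_filter.mpr ⟨hf, hfs⟩, hfv⟩
  have hcovm : ∀ k < q, ∃ f ∈ Fm, χ f = ζ ^ k * vm := by
    intro k _
    have h1 : muZ F χ s (ζ ^ k * vm) < 0 := by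
      rw [muZ_rot hq hζ χ s hps]; exact hvm
    obtain ⟨f, hf, hfv, hfs⟩ := exists_of_muZ_neg hsc h1
    exact ⟨f, Finset.mem_filter.mpr ⟨hf, hfs⟩, hfv⟩
  have hcp : q ≤ Fp.card := card_ge_of_cover hζ hvp0 (fun f => χ f) hcovp
  have hcm : q ≤ Fm.card := card_ge_of_cover hζ hvm0 (fun f => χ f) hcovm
  have hdisj : Disjoint Fp Fm := by
    rw [Finset.disjoint_left]
    intro f h1 h2
    have h3 := (Finset.mem_filter.mp h1).2
    have h4 := (Finset.mem_filter.mp h2).2
    rw [h3] at h4
    norm_num at h4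
  have hun : (Fp ∪ Fm).card = Fp.card + Fm.card := Finset.card_union_of_disjoint hdisj
  have hsub : Fp ∪ Fm ⊆ F :=
    Finset.union_subset (Finset.filter_subset _ _) (Finset.filter_subset _ _)
  have hle := Finset.card_le_card hsub
  have hFp : Fp.card = q := by omega
  have hFm : Fm.card = q := by omega
  have heq : Fp ∪ Fm = F := Finset.eq_of_subset_of_card_le hsub (by omega)
  have hsplit : ∀ f ∈ F, s f = 1 ∨ s f = -1 := by
    intro f hf
    rw [← heq] at hf
    rcases Finset.mem_union.mp hf with h | h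
    · exact Or.inl (Finset.mem_filter.mp h).2
    · exact Or.inr (Finset.mem_filter.mp h).2
  have hallF : ∀ f ∈ F, f - f0 ∈ allSub u0 := by
    intro f hf
    rcases hsplit f hf with h | h
    · exact Or.inl ((sg_eq_one_iff u0 f0 f).mp h)
    · exact Or.inr ((sg_eq_neg_one_iff u0 hu0 f0 f).mp h)
  have hf0all : f0 ∈ allSub u0 := by
    have := (allSub u0).neg_mem (hallF 0 h0)
    simpa using this
  have htop : ∀ g : G, g ∈ allSub u0 := by
    have hle : AddSubgroup.closure (F : Set G) ≤ allSub u0 := by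
      rw [AddSubgroup.closure_le]
      intro f hf
      have := (allSub u0).add_mem (hallF f hf) hf0all
      simpa using this
    rw [hgen] at hle
    exact fun g => hle (AddSubgroup.mem_top g)
  obtain ⟨ε, hε0, hε1⟩ := hom_of_index_two (perSub u0) (by
    intro a' ha' b' hb'
    have h1 : a' ∈ antS u0 := ((mem_allSub u0 a').mp (htop a')).resolve_left ha'
    have h2 : b' ∈ antS u0 := ((mem_allSub u0 b').mp (htop b')).resolve_left hb'
    exact antS_add_antS u0 h1 h2)
  have hεp : ∀ f, s f = 1 → ε f = ε f0 := by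
    intro f hf
    have := hε0 _ ((sg_eq_one_iff u0 f0 f).mp hf)
    rw [map_sub, sub_eq_zero] at this
    exact this
  have hεm : ∀ f, s f = -1 → ε f ≠ ε f0 := by
    intro f hf heq
    have h1 := (sg_eq_neg_one_iff u0 hu0 f0 f).mp hf
    have h2 := hε1 _ (antS_not_perS u0 hu0 h1)
    rw [map_sub, heq, sub_self] at h2
    exact zero_ne_one h2
  have hcases2 : ∀ i j k : ZMod 2, i ≠ j → k ≠ j → k = i := by decide
  refine ⟨ε, χ, fun i => if i = ε f0 then vp else vm, ζ, hζ, ?_, ?_, ?_⟩
  · intro i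
    simp only
    split_ifs
    · exact hvp0
    · exact hvm0
  · intro i k hk
    by_cases hi : i = ε f0
    · obtain ⟨f, hf, hfv⟩ := hcovp k hk
      obtain ⟨hfF, hfs⟩ := Finset.mem_filter.mp hf
      refine ⟨f, hfF, by rw [hi]; exact hεp f hfs, ?_⟩
      simp only [hi, if_true]
      exact hfv
    · obtain ⟨f, hf, hfv⟩ := hcovm k hk
      obtain ⟨hfF, hfs⟩ := Finset.mem_filter.mp hf
      refine ⟨f, hfF, hcases2 _ _ _ hi (hεm f hfs), ?_⟩
      simp only [hi, if_false]
      exact hfv
  · intro i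
    by_cases hi : i = ε f0
    · have : F.filter (fun f => ε f = i) = Fp := by
        apply Finset.filter_congr
        intro f hf
        constructor
        · intro h
          rcases hsplit f hf with h1 | h1
          · exact h1
          · exact absurd (h.trans hi) (hεm f h1)
        · intro h
          rw [hi]
          exact hεp f h
      rw [this]
      exact hFp
    · have : F.filter (fun f => ε f = i) = Fm := by
        apply Finset.filter_congr
        intro f hf
        constructor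
        · intro h
          rcases hsplit f hf with h1 | h1
          · exact absurd (h.symm.trans (hεp f h1)) hi
          · exact h1
        · intro h
          exact hcases2 _ _ _ hi (hεm f h)
      rw [this]
      exact hFm

/-- The conclusion of the argument in the periodic case. -/
theorem tiling_of_level [AddGroup.FG G] (D : LevelData F q a M t)
    (hgen : AddSubgroup.closure (F : Set G) = ⊤) (hL : ¬ LStruct F q) :
    ∃ (A' : Set G) (L : AddSubgroup G), L.FiniteIndex ∧ (∀ x ∈ A', ∀ l ∈ L, x + l ∈ A') ∧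
      ∀ y, ∃! f, f ∈ F ∧ y - f ∈ A' := by
  classical
  have hqpos := D.hq.pos
  have hq1 : ¬ q ∣ 1 := fun h => D.hq.one_lt.ne' (Nat.dvd_one.mp h)
  obtain ⟨ζ, hζ⟩ : ∃ ζ : ℂ, IsPrimitiveRoot ζ q :=
    ⟨_, Complex.isPrimitiveRoot_exp q D.hq.ne_zero⟩
  let u : G → ℂ := fun x => ((t x : ℤ) : ℂ)
  have hPu : ∀ r, ¬ q ∣ r → ∀ x, P F r u x = 2 := by
    intro r hr x
    have h2 : ((P F r t x : ℤ) : ℂ) = 2 := by rw [D.P_t_eq r hr x]; norm_num
    rw [← h2]
    simp [P, u]
  have hbd : ∀ x, ‖u x‖ ≤ 1 := by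
    intro x
    simp only [u]
    rcases D.t_zero_or_one x with h | h <;> simp [h]
  -- a nontrivial character in the zero locus
  obtain ⟨χ, hχ, g0, hg0⟩ : ∃ χ : AddChar G ℂ, InV χ u ∧ ∃ g, χ g ≠ 1 := by
    by_contra hcon
    push Not at hcon
    have hconst : ∀ x h, u (x - h) = u x := fun x h =>
      spectral_periodic u 1 hbd h (fun χ hχ => hcon χ hχ h) x
    have ht0 : ∀ x, t x = t 0 := by
      intro x
      have := hconst x x
      simp only [sub_self, u] at this
      exact_mod_cast this.symm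
    have h1 := D.P_t_eq 1 hq1 0
    simp only [P, ht0, Finset.sum_const, D.hcard] at h1
    have hq2 := D.hq.two_le
    rcases D.t_zero_or_one 0 with h | h <;> rw [h] at h1 <;> simp at h1
    omega
  -- power sums of the character
  have hps : ∀ r : ℕ, 1 ≤ r → ¬ q ∣ r → ∑ f ∈ F, χ f ^ r = 0 := by
    intro r _ hr
    exact hχ.power_sum F r 2 (hPu r hr) g0 hg0
  -- decomposition by type
  let TY : Finset (Set G × Set G) := D.finite_types.toFinset
  have hdecomp : u = ∑ τ ∈ TY, fun x => ((uT a t M τ x : ℤ) : ℂ) := by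
    funext x
    rw [Finset.sum_apply]
    simp only [u]
    have hmem : (perS (U a M x), antS (U a M x)) ∈ TY := by
      rw [Set.Finite.mem_toFinset]
      exact ⟨x, rfl⟩
    rw [Finset.sum_eq_single (perS (U a M x), antS (U a M x))]
    · rcases D.t_zero_or_one x with h | h
      · simp [uT, h]
      · simp [uT, h]
    · intro τ _ hτ
      have : uT a t M τ x = 0 := by
        unfold uT
        rw [if_neg]
        rintro ⟨_, h2⟩
        exact hτ h2.symm
      simp [this]
    · exact fun h => absurd hmem h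
  rw [hdecomp] at hχ
  obtain ⟨τ, -, hτ⟩ := InV_sum TY _ χ hχ
  obtain ⟨x0, hx0⟩ := hτ.exists_ne
  have hx0' : uT a t M τ x0 ≠ 0 := by
    intro h
    apply hx0
    simp [h]
  have hx0ty : t x0 = 1 ∧ (perS (U a M x0), antS (U a M x0)) = τ := by
    by_contra hn
    apply hx0'
    unfold uT
    rw [if_neg hn]
  obtain ⟨htx0, hτeq⟩ := hx0ty
  set u0 := U a M x0 with hu0def
  have hu0 : ∀ v, u0 v ≠ 0 := D.U_ne_zero x0
  -- annihilation and balance
  have hannC : ∀ f0, ∀ r : ℕ, 1 ≤ r → ¬ q ∣ r →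
      ∑ f ∈ F, ((sg u0 f0 f : ℤ) : ℂ) * χ f ^ r = 0 := by
    intro f0 r _ hr
    apply hτ.weighted F r
    intro y
    have := D.sg_ann τ x0 hτeq f0 r hr y
    have h2 : ((∑ f ∈ F, sg u0 f0 f * uT a t M τ (y - r • f) : ℤ) : ℂ) = 0 := by
      rw [this]; simp
    rw [← h2]
    push_cast
    rfl
  have hbal : ∀ f0, ∑ f ∈ F, sg u0 f0 f = 0 := by
    intro f0
    apply balance F M D.M_pos (uT a t M τ) (sg u0 f0) (D.uT_per τ) (uT_nonneg τ) x0
    · have : uT a t M τ x0 = 1 := by
        unfold uT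
        rw [if_pos ⟨htx0, hτeq⟩]
      omega
    · intro y
      have := D.sg_ann τ x0 hτeq f0 1 hq1 y
      simpa using this
  -- the two cases
  by_cases hcase : ∀ f0 ∈ F, ∀ v, muZ F χ (sg u0 f0) v = 0
  · -- structure H
    have hpartner : ∀ f0 ∈ F, ∃ g ∈ F, χ g = χ f0 ∧ g - f0 ∈ antS u0 := by
      intro f0 hf0
      by_contra hcon
      push Not at hcon
      have hz := hcase f0 hf0 (χ f0)
      have hge : 1 ≤ muZ F χ (sg u0 f0) (χ f0) := by
        simp only [muZ]
        have hterm : (if χ f0 = χ f0 then sg u0 f0 f0 else 0) = 1 := by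
          rw [if_pos rfl, sg_self]
        rw [← hterm]
        apply Finset.single_le_sum (f := fun f => if χ f = χ f0 then sg u0 f0 f else 0) _ hf0
        intro f hf
        split_ifs with hff
        · rcases sg_cases u0 f0 f with h | h | h
          · rw [h]; norm_num
          · exact absurd ((sg_eq_neg_one_iff u0 hu0 f0 f).mp h) (hcon f hf hff)
          · rw [h]
        · exact le_refl _
      omega
    have hex : ∀ k : Fin q, ∃ f ∈ F, χ f = ζ ^ (k : ℕ) := by
      intro k
      obtain ⟨f, hf, hfv⟩ := exists_rot hqpos hζ χ hps (v := 1)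
        ⟨0, D.h0, AddChar.map_zero_eq_one χ⟩ k
      exact ⟨f, hf, by simpa using hfv⟩
    choose fk hfkF hfkv using hex
    have hpart : ∀ k : Fin q, ∃ g ∈ F, χ g = χ (fk k) ∧ g - fk k ∈ antS u0 :=
      fun k => hpartner (fk k) (hfkF k)
    choose gk hgkF hgkv hgkant using hpart
    let φ : Fin q × Bool → G := fun p => if p.2 then gk p.1 else fk p.1
    have hφval : ∀ p, χ (φ p) = ζ ^ (p.1 : ℕ) := by
      rintro ⟨k, b⟩
      cases b
      · simp [φ, hfkv]
      · simp [φ, hgkv, hfkv]
    have hφF : ∀ p, φ p ∈ F := by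
      rintro ⟨k, b⟩
      cases b
      · simpa [φ] using hfkF k
      · simpa [φ] using hgkF k
    have hgf : ∀ k, gk k ≠ fk k := by
      intro k hk
      have := hgkant k
      rw [hk, sub_self] at this
      exact antS_not_perS u0 hu0 this (perS_zero u0)
    have hφinj : Function.Injective φ := by
      rintro ⟨k, b⟩ ⟨k', b'⟩ h
      have h1 : ζ ^ (k : ℕ) = ζ ^ (k' : ℕ) := by
        rw [← hφval (k, b), ← hφval (k', b')]
        exact congrArg χ h
      have h2 : k = k' := Fin.ext (hζ.pow_inj k.2 k'.2 h1)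
      subst h2
      cases b <;> cases b'
      · rfl
      · exfalso
        simp only [φ, Bool.false_eq_true, if_false, if_true] at h
        exact hgf k h.symm
      · exfalso
        simp only [φ, Bool.false_eq_true, if_false, if_true] at h
        exact hgf k h
      · rfl
    have himg : Finset.univ.image φ = F := by
      apply Finset.eq_of_subset_of_card_le
      · intro f hf
        obtain ⟨p, _, rfl⟩ := Finset.mem_image.mp hf
        exact hφF p
      · rw [Finset.card_image_of_injective _ hφinj, D.hcard]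
        simp
        ring_nf
        rfl
    have hcover : ∀ f ∈ F, ∃ p, φ p = f := by
      intro f hf
      rw [← himg] at hf
      obtain ⟨p, _, hp⟩ := Finset.mem_image.mp hf
      exact ⟨p, hp⟩
    have hχq : ∀ g, χ g ^ q = 1 := by
      have hle : AddSubgroup.closure (F : Set G) ≤ charKerPow χ q := by
        rw [AddSubgroup.closure_le]
        intro f hf
        obtain ⟨p, rfl⟩ := hcover f hf
        show χ (φ p) ^ q = 1
        rw [hφval, ← pow_mul, mul_comm, pow_mul, hζ.pow_eq_one, one_pow]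
      rw [hgen] at hle
      exact fun g => hle (AddSubgroup.mem_top g)
    apply tiling_of_HStruct F hqpos χ hζ hχq (allSub u0) (perSub u0)
      (fun x hx => Or.inl hx)
      (fun a' ha' ha'' b' hb' hb'' => antS_add_antS u0 (ha'.resolve_left ha'') (hb'.resolve_left hb''))
    intro k hk
    refine ⟨gk ⟨k, hk⟩, fk ⟨k, hk⟩, hgkF _, hfkF _, ?_, hfkv _, Or.inr (hgkant _), ?_, ?_⟩
    · rw [hgkv, hfkv]
    · exact antS_not_perS u0 hu0 (hgkant _)
    · intro f' hf' hval
      obtain ⟨⟨j, b⟩, rfl⟩ := hcover f' hf'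
      have h1 : ζ ^ (j : ℕ) = ζ ^ k := by
        rw [← hφval (j, b)]
        exact hval
      have h2 : (j : ℕ) = k := hζ.pow_inj j.2 hk h1
      have h3 : j = ⟨k, hk⟩ := Fin.ext h2
      subst h3
      cases b
      · right
        simp [φ]
      · left
        simp [φ]
  · -- structure L: contradiction
    exfalso
    push Not at hcase
    obtain ⟨f0, _, v, hv⟩ := hcase
    exact hL (LStruct_of_muZ_ne D.h0 hgen hqpos D.hcard hζ u0 hu0 χ f0 (hbal f0) (hannC f0) v hv)

end

end Vale.Agent.Lib.P043
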