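import Mathlib
import Vale.Agent.Lib.P043.GroupRing

/-!
Difference elements of the group ring, annihilators, the Vandermonde elimination,
and the reduction of products of differences on bounded functions.
-/

namespace Vale.Agent.Lib.P043

open AddMonoidAlgebra

variable {G : Type*} [AddCommGroup G]

section ring
variable {k : Type*} [CommRing k]

/-- the difference element `x ↦ v (x - h) - v x` -/
noncomputable def Dl (k : Type*) [CommRing k] (h : G) : AddMonoidAlgebra k G := single h 1 - 1

lemma act_one (v : G → k) : act (1 : AddMonoidAlgebra k G) v = v := by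
  rw [map_one]; rfl

lemma act_single_one (h : G) (v : G → k) (x : G) :
    act (single h (1 : k)) v x = v (x - h) := by
  rw [act_single, one_mul]

lemma act_Dl (h : G) (v : G → k) (x : G) : act (Dl k h) v x = v (x - h) - v x := by
  unfold Dl
  rw [map_sub, LinearMap.sub_apply, Pi.sub_apply, act_single_one, act_one]

lemma act_add_apply (e e' : AddMonoidAlgebra k G) (v : G → k) (x : G) :
    act (e + e') v x = act e v x + act e' v x := by
  rw [map_add]; rfl

lemma act_sub_apply (e e' : AddMonoidAlgebra k G) (v : G → k) (x : G) :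
    act (e - e') v x = act e v x - act e' v x := by
  rw [map_sub]; rfl

lemma act_comm (e e' : AddMonoidAlgebra k G) (v : G → k) :
    act e (act e' v) = act e' (act e v) := by
  rw [← act_mul, mul_comm, act_mul]

lemma act_fun_add (e : AddMonoidAlgebra k G) (v w : G → k) :
    act e (v + w) = act e v + act e w := map_add _ _ _

lemma act_fun_sub (e : AddMonoidAlgebra k G) (v w : G → k) :
    act e (v - w) = act e v - act e w := map_sub _ _ _

lemma act_fun_sum {ι : Type*} (s : Finset ι) (e : AddMonoidAlgebra k G) (v : ι → G → k) :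
    act e (∑ i ∈ s, v i) = ∑ i ∈ s, act e (v i) := map_sum _ _ _

lemma act_fun_smul (e : AddMonoidAlgebra k G) (c : k) (v : G → k) :
    act e (c • v) = c • act e v := map_smul _ _ _

lemma act_zero (e : AddMonoidAlgebra k G) : act e (0 : G → k) = 0 := map_zero _

lemma Dl_zero : Dl k (0 : G) = 0 := by
  unfold Dl
  rw [sub_eq_zero]
  rfl

lemma single_one_pow (h : G) (n : ℕ) :
    (single h (1 : k) : AddMonoidAlgebra k G) ^ n = single (n • h) 1 := by
  rw [AddMonoidAlgebra.single_pow, one_pow]

lemma single_add_one (g h : G) :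
    (single (g + h) (1 : k) : AddMonoidAlgebra k G) = single g 1 * single h 1 := by
  rw [AddMonoidAlgebra.single_mul_single, one_mul]

lemma single_zero_one : (single (0 : G) (1 : k) : AddMonoidAlgebra k G) = 1 := rfl

/-- `Dl h` divides `Dl (m • h)` for natural `m`. -/
lemma Dl_dvd_nsmul (m : ℕ) (h : G) : ∃ e, Dl k (m • h) = e * Dl k h := by
  refine ⟨∑ i ∈ Finset.range m, (single h (1 : k) : AddMonoidAlgebra k G) ^ i, ?_⟩
  unfold Dl
  rw [geom_sum_mul, single_one_pow]

lemma Dl_neg (h : G) : Dl k (-h) = - (single (-h) (1 : k)) * Dl k h := by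
  unfold Dl
  have : (single (-h) (1 : k) : AddMonoidAlgebra k G) * single h 1 = 1 := by
    rw [← single_add_one, neg_add_cancel]; rfl
  linear_combination this

/-- `Dl h` divides `Dl (m • h)` for integer `m`. -/
lemma Dl_dvd_zsmul (m : ℤ) (h : G) : ∃ e, Dl k (m • h) = e * Dl k h := by
  obtain ⟨n, rfl | rfl⟩ := m.eq_nat_or_neg
  · simpa using Dl_dvd_nsmul n h
  · obtain ⟨e, he⟩ := Dl_dvd_nsmul (k := k) n h
    refine ⟨- (single (-((n : ℤ) • h)) (1 : k)) * e, ?_⟩
    rw [neg_smul, Dl_neg]
    simp only [natCast_zsmul]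
    rw [he, mul_assoc]

/-- product expansion of a difference -/
lemma Dl_add (g h : G) : Dl k (g + h) = single g 1 * Dl k h + Dl k g := by
  unfold Dl
  rw [single_add_one]
  ring

/-- a unit cancels from an annihilation -/
lemma act_eq_zero_of_single_mul (h : G) (e : AddMonoidAlgebra k G) (v : G → k)
    (hz : act (single h 1 * e) v = 0) : act e v = 0 := by
  have : act (single (-h) 1 * (single h 1 * e)) v = 0 := by
    rw [act_mul, hz, map_zero]
  rw [← mul_assoc, ← single_add_one, neg_add_cancel, single_zero_one, one_mul] at this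
  exact this

/-- the annihilator ideal of a function -/
noncomputable def annI (v : G → k) : Ideal (AddMonoidAlgebra k G) where
  carrier := {e | act e v = 0}
  add_mem' := by
    intro a b ha hb
    simp only [Set.mem_ofPred_eq] at *
    rw [map_add, LinearMap.add_apply, ha, hb, add_zero]
  zero_mem' := by
    simp
  smul_mem' := by
    intro c e he
    simp only [Set.mem_ofPred_eq] at *
    rw [smul_eq_mul, act_mul, he, map_zero]

lemma mem_annI (v : G → k) (e : AddMonoidAlgebra k G) : e ∈ annI v ↔ act e v = 0 := Iff.rfl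

/-- invariance as annihilation -/
lemma act_Dl_eq_zero_iff (h : G) (v : G → k) : act (Dl k h) v = 0 ↔ ∀ x, v (x - h) = v x := by
  constructor
  · intro hz x
    have := congrFun hz x
    rw [act_Dl, Pi.zero_apply] at this
    exact sub_eq_zero.mp this
  · intro hz
    funext x
    rw [act_Dl, hz, sub_self, Pi.zero_apply]

/-- The reduction of a product of differences to a power of one difference. -/
theorem pow_Dl_ann {σ : Type*} (v : G → k) (S : Finset σ) (h : σ → G) (Y : G)
    (hY : ∀ s ∈ S, ∃ (m : ℤ) (l : G), Y = m • h s + l ∧ ∀ x, v (x - l) = v x)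
    (hz : act (∏ s ∈ S, Dl k (h s)) v = 0) : act (Dl k Y ^ S.card) v = 0 := by
  classical
  have hstep : ∀ s ∈ S, ∃ e, Ideal.Quotient.mk (annI v) (Dl k Y) =
      Ideal.Quotient.mk (annI v) (e * Dl k (h s)) := by
    intro s hs
    obtain ⟨m, l, hYe, hl⟩ := hY s hs
    obtain ⟨e, he⟩ := Dl_dvd_zsmul (k := k) m (h s)
    refine ⟨e, ?_⟩
    rw [← he, Ideal.Quotient.eq, mem_annI, hYe]
    rw [Dl_add (m • h s) l]
    have : single (m • h s) 1 * Dl k l + Dl k (m • h s) - Dl k (m • h s)
        = single (m • h s) 1 * Dl k l := by ring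
    rw [this, act_mul, (act_Dl_eq_zero_iff l v).mpr hl, map_zero]
  choose! e he using hstep
  rw [← mem_annI, ← Ideal.Quotient.eq_zero_iff_mem, map_pow, ← Finset.prod_const]
  rw [Finset.prod_congr rfl he, ← map_prod, Finset.prod_mul_distrib, map_mul]
  have : Ideal.Quotient.mk (annI v) (∏ s ∈ S, Dl k (h s)) = 0 :=
    Ideal.Quotient.eq_zero_iff_mem.mpr hz
  rw [this, mul_zero]

/-- The Vandermonde elimination. -/
theorem vander {τ : Type*} [DecidableEq τ] (T : Finset τ) (s : τ → AddMonoidAlgebra k G)
    (w : τ → G → k) (t0 : τ) (ht0 : t0 ∈ T)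
    (hz : ∀ j : ℕ, ∑ t ∈ T, act (s t ^ j) (w t) = 0) :
    act (∏ t ∈ T.erase t0, (s t0 - s t)) (w t0) = 0 := by
  induction hc : T.card using Nat.strong_induction_on generalizing T w with
  | _ c ih =>
    by_cases hex : ∃ t1 ∈ T, t1 ≠ t0
    · obtain ⟨t1, ht1, hne⟩ := hex
      let w' : τ → G → k := fun t => act (s t - s t1) (w t)
      have hz' : ∀ j : ℕ, ∑ t ∈ T.erase t1, act (s t ^ j) (w' t) = 0 := by
        intro j
        have h1 : ∀ t, act (s t ^ j) (w' t) = act (s t ^ (j + 1)) (w t)
            - act (s t1) (act (s t ^ j) (w t)) := by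
          intro t
          simp only [w']
          rw [← act_mul, ← act_mul]
          have e : s t ^ j * (s t - s t1) = s t ^ (j + 1) - s t1 * s t ^ j := by ring
          rw [e, map_sub]
          rfl
        have h2 : act (s t1 ^ j) (w' t1) = 0 := by
          simp only [w']
          rw [sub_self, map_zero]
          simp
        have h3 : ∑ t ∈ T.erase t1, act (s t ^ j) (w' t) = ∑ t ∈ T, act (s t ^ j) (w' t) := by
          rw [← Finset.add_sum_erase T _ ht1, h2, zero_add]
        rw [h3]
        simp only [h1]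
        rw [Finset.sum_sub_distrib, hz (j + 1), ← map_sum, hz j, map_zero, sub_zero]
      have hcard : (T.erase t1).card < c := by
        rw [← hc]; exact Finset.card_erase_lt_of_mem ht1
      have h0 : t0 ∈ T.erase t1 := Finset.mem_erase.mpr ⟨hne.symm, ht0⟩
      have := ih _ hcard (T.erase t1) w' h0 hz' rfl
      have e1 : T.erase t0 = insert t1 ((T.erase t1).erase t0) := by
        ext x
        simp only [Finset.mem_erase, Finset.mem_insert]
        constructor
        · rintro ⟨h1, h2⟩
          by_cases hx : x = t1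
          · exact Or.inl hx
          · exact Or.inr ⟨h1, hx, h2⟩
        · rintro (h1 | ⟨h1, h2, h3⟩)
          · subst h1; exact ⟨hne, ht1⟩
          · exact ⟨h1, h3⟩
      have hnot : t1 ∉ (T.erase t1).erase t0 := by simp
      rw [e1, Finset.prod_insert hnot, mul_comm, act_mul]
      exact this
    · push Not at hex
      have hT : T = {t0} := by
        ext x
        simp only [Finset.mem_singleton]
        exact ⟨hex x, fun h => h ▸ ht0⟩
      subst hT
      have := hz 0
      simpa [act_one] using this

end ring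

section bounded
set_option linter.unusedSectionVars false

/-- bounded real functions -/
def Bd (v : G → ℝ) : Prop := ∃ C, ∀ x, |v x| ≤ C

lemma Bd.add {v w : G → ℝ} (hv : Bd v) (hw : Bd w) : Bd (v + w) := by
  obtain ⟨C, hC⟩ := hv
  obtain ⟨D, hD⟩ := hw
  exact ⟨C + D, fun x => (abs_add_le _ _).trans (add_le_add (hC x) (hD x))⟩

lemma Bd.sub {v w : G → ℝ} (hv : Bd v) (hw : Bd w) : Bd (v - w) := by
  obtain ⟨C, hC⟩ := hv
  obtain ⟨D, hD⟩ := hw
  exact ⟨C + D, fun x => (abs_sub _ _).trans (add_le_add (hC x) (hD x))⟩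

lemma Bd.smul {v : G → ℝ} (hv : Bd v) (c : ℝ) : Bd (c • v) := by
  obtain ⟨C, hC⟩ := hv
  refine ⟨|c| * C, fun x => ?_⟩
  simp only [Pi.smul_apply, smul_eq_mul, abs_mul]
  exact mul_le_mul_of_nonneg_left (hC x) (abs_nonneg c)

lemma Bd.sum {ι : Type*} (s : Finset ι) (v : ι → G → ℝ) (hv : ∀ i ∈ s, Bd (v i)) :
    Bd (∑ i ∈ s, v i) := by
  classical
  induction s using Finset.induction_on with
  | empty => exact ⟨0, fun x => by simp⟩
  | insert a s ha ih =>
    rw [Finset.sum_insert ha]
    exact (hv a (Finset.mem_insert_self _ _)).add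
      (ih fun i hi => hv i (Finset.mem_insert_of_mem hi))

lemma Bd.shift {v : G → ℝ} (hv : Bd v) (h : G) : Bd (fun x => v (x - h)) := by
  obtain ⟨C, hC⟩ := hv
  exact ⟨C, fun x => hC _⟩

lemma Bd.act {v : G → ℝ} (hv : Bd v) (e : AddMonoidAlgebra ℝ G) : Bd (act e v) := by
  induction e using AddMonoidAlgebra.induction_linear with
  | zero =>
    rw [map_zero]
    exact ⟨0, fun x => by simp⟩
  | add a b ha hb =>
    rw [map_add]
    exact ha.add hb
  | single h c =>
    obtain ⟨C, hC⟩ := hv
    refine ⟨|c| * C, fun x => ?_⟩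
    rw [act_single, abs_mul]
    exact mul_le_mul_of_nonneg_left (hC _) (abs_nonneg c)

/-- second differences vanish: the first one vanishes on bounded functions -/
lemma act_Dl_of_Dl_Dl (h : G) (v : G → ℝ) (hv : Bd v)
    (hz : act (Dl ℝ h) (act (Dl ℝ h) v) = 0) : act (Dl ℝ h) v = 0 := by
  obtain ⟨C, hC⟩ := hv
  set z := act (Dl ℝ h) v with hzdef
  have hper : ∀ x, z (x - h) = z x := (act_Dl_eq_zero_iff h z).mp hz
  have hper' : ∀ (n : ℕ) (x : G), z (x - n • h) = z x := by
    intro n
    induction n with
    | zero => simp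
    | succ n ih =>
      intro x
      rw [succ_nsmul, ← sub_sub, hper, ih]
  have hline : ∀ (n : ℕ) (x : G), v (x - n • h) = v x + n * z x := by
    intro n
    induction n with
    | zero => simp
    | succ n ih =>
      intro x
      have h1 : v (x - (n + 1) • h) = v (x - n • h) + z (x - n • h) := by
        rw [hzdef, act_Dl, succ_nsmul, ← sub_sub]
        ring
      rw [h1, hper', ih]
      push_cast
      ring
  funext x
  simp only [Pi.zero_apply]
  by_contra hne
  have hpos : 0 < |z x| := abs_pos.mpr hne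
  obtain ⟨n, hn⟩ := exists_nat_gt (2 * C / |z x|)
  have h2 : 2 * C < n * |z x| := by
    rwa [div_lt_iff₀ hpos] at hn
  have h3 : (n : ℝ) * z x = v (x - n • h) - v x := by
    rw [hline]; ring
  have h4 : |(n : ℝ) * z x| = n * |z x| := by
    rw [abs_mul]; simp
  have h5 : |v (x - n • h) - v x| ≤ 2 * C := by
    calc |v (x - n • h) - v x| ≤ |v (x - n • h)| + |v x| := abs_sub _ _
      _ ≤ C + C := add_le_add (hC _) (hC _)
      _ = 2 * C := by ring
  rw [← h3, h4] at h5
  linarith

/-- powers of a difference on bounded functions -/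
theorem act_Dl_of_pow (h : G) (n : ℕ) (hn : 0 < n) (v : G → ℝ) (hv : Bd v)
    (hz : act (Dl ℝ h ^ n) v = 0) : act (Dl ℝ h) v = 0 := by
  induction n generalizing v with
  | zero => omega
  | succ n ih =>
    by_cases h0 : n = 0
    · subst h0
      simpa using hz
    · have hn' : 0 < n := Nat.pos_of_ne_zero h0
      apply act_Dl_of_Dl_Dl h v hv
      apply ih hn' (act (Dl ℝ h) v) (hv.act _)
      rw [← act_mul, ← pow_succ]
      exact hz

end bounded

end Vale.Agent.Lib.P043
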