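import Mathlib
import Vale.Agent.Lib.P043.Ops

/-!
Invariant means on bounded functions over a finitely generated subgroup: iterated ultrafilter
limits of Cesàro averages along lines.
-/

namespace Vale.Agent.Lib.P043

open Filter Topology AddMonoidAlgebra

/-- Cesàro averages -/
noncomputable def ces (s : ℕ → ℝ) (n : ℕ) : ℝ := (∑ i ∈ Finset.range n, s i) / n

/-- the Banach limit of a sequence -/
noncomputable def bLim (s : ℕ → ℝ) : ℝ := limUnder (hyperfilter ℕ : Filter ℕ) (ces s)

lemma ces_abs_le (s : ℕ → ℝ) (C : ℝ) (hC : 0 ≤ C) (hs : ∀ i, |s i| ≤ C) (n : ℕ) : |ces s n| ≤ C := by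
  unfold ces
  rcases Nat.eq_zero_or_pos n with rfl | hn
  · simpa using hC
  · have hn' : (0 : ℝ) < n := by exact_mod_cast hn
    rw [abs_div, Nat.abs_cast, div_le_iff₀ hn']
    calc |∑ i ∈ Finset.range n, s i| ≤ ∑ i ∈ Finset.range n, |s i| :=
          Finset.abs_sum_le_sum_abs _ _
      _ ≤ ∑ _i ∈ Finset.range n, C := Finset.sum_le_sum fun i _ => hs i
      _ = C * n := by simp; ring

lemma tendsto_bLim (s : ℕ → ℝ) (C : ℝ) (hs : ∀ i, |s i| ≤ C) :
    Tendsto (ces s) (hyperfilter ℕ : Filter ℕ) (𝓝 (bLim s)) := by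
  have hC : 0 ≤ C := (abs_nonneg _).trans (hs 0)
  apply tendsto_nhds_limUnder
  have hmem : ∀ n, ces s n ∈ Set.Icc (-C) C := fun n => abs_le.mp (ces_abs_le s C hC hs n)
  have hcomp : IsCompact (Set.Icc (-C) C) := isCompact_Icc
  have hle : ((hyperfilter ℕ).map (ces s) : Filter ℝ) ≤ 𝓟 (Set.Icc (-C) C) := by
    rw [le_principal_iff]
    exact Filter.mem_map.mpr (Filter.univ_mem' fun n => hmem n)
  obtain ⟨x, _, hx⟩ := hcomp.ultrafilter_le_nhds ((hyperfilter ℕ).map (ces s)) hle
  exact ⟨x, hx⟩

lemma bLim_congr {s t : ℕ → ℝ} (h : ∀ i, s i = t i) : bLim s = bLim t := by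
  have : s = t := funext h
  rw [this]

lemma ces_add (s t : ℕ → ℝ) (n : ℕ) : ces (fun i => s i + t i) n = ces s n + ces t n := by
  unfold ces
  rw [Finset.sum_add_distrib, add_div]

lemma ces_smul (c : ℝ) (s : ℕ → ℝ) (n : ℕ) : ces (fun i => c * s i) n = c * ces s n := by
  unfold ces
  rw [← Finset.mul_sum, mul_div_assoc]

lemma bLim_add (s t : ℕ → ℝ) (C D : ℝ) (hs : ∀ i, |s i| ≤ C) (ht : ∀ i, |t i| ≤ D) :
    bLim (fun i => s i + t i) = bLim s + bLim t := by
  have h1 := tendsto_bLim s C hs
  have h2 := tendsto_bLim t D ht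
  have h3 := tendsto_bLim (fun i => s i + t i) (C + D)
    (fun i => (abs_add_le _ _).trans (add_le_add (hs i) (ht i)))
  have h4 : Tendsto (ces (fun i => s i + t i)) (hyperfilter ℕ : Filter ℕ) (𝓝 (bLim s + bLim t)) := by
    simp only [funext (ces_add s t)]
    exact h1.add h2
  exact tendsto_nhds_unique h3 h4

lemma bLim_smul (c : ℝ) (s : ℕ → ℝ) (C : ℝ) (hs : ∀ i, |s i| ≤ C) :
    bLim (fun i => c * s i) = c * bLim s := by
  have h1 := tendsto_bLim s C hs
  have h3 := tendsto_bLim (fun i => c * s i) (|c| * C)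
    (fun i => by rw [abs_mul]; exact mul_le_mul_of_nonneg_left (hs i) (abs_nonneg c))
  have h4 : Tendsto (ces (fun i => c * s i)) (hyperfilter ℕ : Filter ℕ) (𝓝 (c * bLim s)) := by
    simp only [funext (ces_smul c s)]
    exact h1.const_mul c
  exact tendsto_nhds_unique h3 h4

lemma eventually_hyper_pos : ∀ᶠ n : ℕ in (hyperfilter ℕ : Filter ℕ), 0 < n := by
  have h : ∀ᶠ n : ℕ in atTop, 0 < n := eventually_gt_atTop 0
  rw [← Nat.cofinite_eq_atTop] at h
  exact hyperfilter_le_cofinite h

lemma bLim_const (c : ℝ) : bLim (fun _ => c) = c := by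
  have h3 := tendsto_bLim (fun _ => c) |c| (fun i => le_refl _)
  have h4 : Tendsto (ces (fun _ => c)) (hyperfilter ℕ : Filter ℕ) (𝓝 c) := by
    apply tendsto_const_nhds.congr'
    filter_upwards [eventually_hyper_pos] with n hn
    unfold ces
    have hn' : (n : ℝ) ≠ 0 := by exact_mod_cast hn.ne'
    simp [hn']
  exact tendsto_nhds_unique h3 h4

lemma bLim_abs_le (s : ℕ → ℝ) (C : ℝ) (hs : ∀ i, |s i| ≤ C) : |bLim s| ≤ C := by
  have hC : 0 ≤ C := (abs_nonneg _).trans (hs 0)
  have h1 := tendsto_bLim s C hs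
  have hmem : ∀ n, ces s n ∈ Set.Icc (-C) C := fun n => abs_le.mp (ces_abs_le s C hC hs n)
  have : bLim s ∈ Set.Icc (-C) C :=
    isClosed_Icc.mem_of_tendsto h1 (Eventually.of_forall hmem)
  exact abs_le.mpr this

lemma bLim_nonneg (s : ℕ → ℝ) (C : ℝ) (hs : ∀ i, |s i| ≤ C) (h0 : ∀ i, 0 ≤ s i) : 0 ≤ bLim s := by
  have h1 := tendsto_bLim s C hs
  have : ∀ n, 0 ≤ ces s n := fun n =>
    div_nonneg (Finset.sum_nonneg fun i _ => h0 i) (Nat.cast_nonneg n)
  exact ge_of_tendsto' h1 this

lemma bLim_shift (s : ℕ → ℝ) (C : ℝ) (hs : ∀ i, |s i| ≤ C) :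
    bLim (fun i => s (i + 1)) = bLim s := by
  have h1 := tendsto_bLim s C hs
  have h3 := tendsto_bLim (fun i => s (i + 1)) C (fun i => hs _)
  have hdiff : Tendsto (fun n : ℕ => ces (fun i => s (i + 1)) n - ces s n)
      (hyperfilter ℕ : Filter ℕ) (𝓝 0) := by
    have hb : Tendsto (fun n : ℕ => (2 * C) / (n : ℝ)) (hyperfilter ℕ : Filter ℕ) (𝓝 0) := by
      have : Tendsto (fun n : ℕ => (2 * C) / (n : ℝ)) atTop (𝓝 0) :=
        tendsto_const_div_atTop_nhds_zero_nat (2 * C)
      rw [← Nat.cofinite_eq_atTop] at this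
      exact this.mono_left hyperfilter_le_cofinite
    apply squeeze_zero_norm' _ hb
    filter_upwards [eventually_hyper_pos] with n hn
    have hn' : (0 : ℝ) < n := by exact_mod_cast hn
    have e : ces (fun i => s (i + 1)) n - ces s n = (s n - s 0) / n := by
      unfold ces
      rw [← sub_div]
      congr 1
      rw [← Finset.sum_sub_distrib, Finset.sum_range_sub]
    rw [e, Real.norm_eq_abs, abs_div, Nat.abs_cast]
    apply div_le_div_of_nonneg_right _ hn'.le
    calc |s n - s 0| ≤ |s n| + |s 0| := abs_sub _ _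
      _ ≤ C + C := add_le_add (hs _) (hs _)
      _ = 2 * C := by ring
  have h4 : Tendsto (ces (fun i => s (i + 1))) (hyperfilter ℕ : Filter ℕ) (𝓝 (bLim s)) := by
    have := hdiff.add h1
    simpa using this
  exact tendsto_nhds_unique h3 h4

variable {G : Type*} [AddCommGroup G]

/-- the invariant means over a subgroup -/
structure InvMean (Λ : AddSubgroup G) where
  M : (G → ℝ) → (G → ℝ)
  map_add : ∀ v w, Bd v → Bd w → M (v + w) = M v + M w
  map_smul : ∀ (c : ℝ) v, Bd v → M (c • v) = c • M v
  map_shift : ∀ (h : G) v, Bd v → M (fun x => v (x - h)) = fun x => M v (x - h)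
  inv : ∀ v, Bd v → ∀ l ∈ Λ, ∀ x, M v (x + l) = M v x
  fix : ∀ v, Bd v → (∀ l ∈ Λ, ∀ x, v (x + l) = v x) → M v = v
  abs_le : ∀ v (C : ℝ), (∀ x, |v x| ≤ C) → ∀ x, |M v x| ≤ C
  eq_zero : ∀ v x, Bd v → (∀ l ∈ Λ, v (x + l) = 0) → M v x = 0
  nonneg : ∀ v, Bd v → (∀ x, 0 ≤ v x) → ∀ x, 0 ≤ M v x

namespace InvMean

variable {Λ : AddSubgroup G} (m : InvMean Λ)

include m in
lemma bd {v : G → ℝ} (hv : Bd v) : Bd (m.M v) := by
  obtain ⟨C, hC⟩ := hv
  exact ⟨C, m.abs_le v C hC⟩

lemma map_sum {ι : Type*} (s : Finset ι) (v : ι → G → ℝ) (hv : ∀ i ∈ s, Bd (v i)) :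
    m.M (∑ i ∈ s, v i) = ∑ i ∈ s, m.M (v i) := by
  classical
  induction s using Finset.induction_on with
  | empty =>
    have := m.map_smul 0 0 ⟨0, fun x => by simp⟩
    simp only [zero_smul] at this
    simpa using this
  | insert a s ha ih =>
    rw [Finset.sum_insert ha, Finset.sum_insert ha,
      m.map_add _ _ (hv a (Finset.mem_insert_self _ _))
        (Bd.sum s v fun i hi => hv i (Finset.mem_insert_of_mem hi)),
      ih fun i hi => hv i (Finset.mem_insert_of_mem hi)]

lemma map_sub {v w : G → ℝ} (hv : Bd v) (hw : Bd w) : m.M (v - w) = m.M v - m.M w := by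
  have e : v - w = v + ((-1 : ℝ) • w) := by
    funext x; simp; ring
  rw [e, m.map_add _ _ hv (hw.smul _), m.map_smul _ _ hw]
  funext x
  simp
  ring

/-- a mean commutes with the group ring -/
lemma map_act (e : AddMonoidAlgebra ℝ G) {v : G → ℝ} (hv : Bd v) :
    m.M (act e v) = act e (m.M v) := by
  induction e using AddMonoidAlgebra.induction_linear with
  | zero =>
    rw [_root_.map_zero]
    have := m.map_smul 0 0 ⟨0, fun x => by simp⟩
    simp only [zero_smul] at this
    rw [LinearMap.zero_apply, LinearMap.zero_apply]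
    exact this
  | add a b ha hb =>
    rw [_root_.map_add, LinearMap.add_apply, LinearMap.add_apply,
      m.map_add _ _ (hv.act a) (hv.act b), ha, hb]
  | single h c =>
    have e1 : act (single h c) v = c • (fun x => v (x - h)) := by
      funext x
      rw [act_single]
      rfl
    have e2 : act (single h c) (m.M v) = c • (fun x => m.M v (x - h)) := by
      funext x
      rw [act_single]
      rfl
    rw [e1, e2, m.map_smul _ _ (hv.shift h), m.map_shift _ _ hv]

lemma const (c : ℝ) : m.M (fun _ => c) = fun _ => c :=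
  m.fix _ ⟨|c|, fun _ => le_refl _⟩ (fun _ _ _ => rfl)

end InvMean

/-- the mean along a line -/
noncomputable def lineM (d : G) (v : G → ℝ) (x : G) : ℝ := bLim (fun i : ℕ => v (x + i • d))

lemma lineM_seq_bd {v : G → ℝ} {C : ℝ} (hC : ∀ x, |v x| ≤ C) (d x : G) :
    ∀ i : ℕ, |v (x + i • d)| ≤ C := fun _ => hC _

/-- means over the trivial subgroup -/
noncomputable def invMeanBot : InvMean (⊥ : AddSubgroup G) where
  M := id
  map_add := fun _ _ _ _ => rfl
  map_smul := fun _ _ _ => rfl
  map_shift := fun _ _ _ => rfl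
  inv := by
    intro v _ l hl x
    rw [AddSubgroup.mem_bot] at hl
    subst hl
    simp
  fix := fun _ _ _ => rfl
  abs_le := fun _ _ h x => h x
  eq_zero := by
    intro v x _ h
    simpa using h 0 (AddSubgroup.zero_mem _)
  nonneg := fun _ _ h => h

/-- composition of a mean with the line mean over a new generator -/
noncomputable def InvMean.extend {s : Set G} (m : InvMean (AddSubgroup.closure s)) (d : G) :
    InvMean (AddSubgroup.closure (insert d s)) where
  M := fun v => lineM d (m.M v)
  map_add := by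
    intro v w hv hw
    funext x
    obtain ⟨C, hC⟩ := m.bd hv
    obtain ⟨D, hD⟩ := m.bd hw
    rw [m.map_add v w hv hw]
    exact bLim_add _ _ C D (fun i => hC _) (fun i => hD _)
  map_smul := by
    intro c v hv
    funext x
    obtain ⟨C, hC⟩ := m.bd hv
    rw [m.map_smul c v hv]
    exact bLim_smul c _ C (fun i => hC _)
  map_shift := by
    intro h v hv
    funext x
    rw [m.map_shift h v hv]
    unfold lineM
    apply bLim_congr
    intro i
    have e : x + i • d - h = x - h + i • d := by abel
    show m.M v (x + i • d - h) = _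
    rw [e]
  inv := by
    intro v hv l hl x
    obtain ⟨C, hC⟩ := m.bd hv
    have hbd : ∀ y, ∀ i : ℕ, |m.M v (y + i • d)| ≤ C := fun y i => hC _
    induction hl using AddSubgroup.closure_induction generalizing x with
    | mem y hy =>
      rcases hy with rfl | hy
      · unfold lineM
        have := bLim_shift (fun i : ℕ => m.M v (x + i • y)) C (hbd x)
        rw [← this]
        apply bLim_congr
        intro i
        congr 1
        rw [succ_nsmul]
        abel
      · unfold lineM
        apply bLim_congr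
        intro i
        have e : x + y + i • d = x + i • d + y := by abel
        rw [e]
        exact m.inv v hv y (AddSubgroup.subset_closure hy) _
    | zero => simp
    | add a b _ _ ha hb =>
      rw [← add_assoc, hb, ha]
    | neg a _ ha =>
      have := ha (x + -a)
      simp only [neg_add_cancel_right] at this
      exact this.symm
  fix := by
    intro v hv hinv
    have h1 : m.M v = v := m.fix v hv (fun l hl x => hinv l
      (AddSubgroup.closure_mono (Set.subset_insert _ _) hl) x)
    show lineM d (m.M v) = v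
    rw [h1]
    funext x
    unfold lineM
    have hd : ∀ y, v (y + d) = v y := hinv d (AddSubgroup.subset_closure (Set.mem_insert _ _))
    have hline : ∀ i : ℕ, v (x + i • d) = v x := by
      intro i
      induction i with
      | zero => simp
      | succ i ih =>
        rw [succ_nsmul, ← add_assoc, hd, ih]
    rw [bLim_congr hline, bLim_const]
  abs_le := by
    intro v C hC x
    exact bLim_abs_le _ C (fun i => m.abs_le v C hC _)
  eq_zero := by
    intro v x hv h0
    unfold lineM
    have : ∀ i : ℕ, m.M v (x + i • d) = 0 := by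
      intro i
      apply m.eq_zero v _ hv
      intro l hl
      have e : x + i • d + l = x + (i • d + l) := by abel
      rw [e]
      apply h0
      apply add_mem
      · exact nsmul_mem (AddSubgroup.subset_closure (Set.mem_insert _ _)) _
      · exact AddSubgroup.closure_mono (Set.subset_insert _ _) hl
    rw [bLim_congr this, bLim_const]
  nonneg := by
    intro v hv h0 x
    obtain ⟨C, hC⟩ := m.bd hv
    exact bLim_nonneg _ C (fun i => hC _) (fun i => m.nonneg v hv h0 _)

/-- Existence of invariant means over subgroups generated by a finite set. -/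
theorem exists_invMean (s : Finset G) : Nonempty (InvMean (AddSubgroup.closure (s : Set G))) := by
  classical
  induction s using Finset.induction_on with
  | empty =>
    rw [Finset.coe_empty, AddSubgroup.closure_empty]
    exact ⟨invMeanBot⟩
  | insert a s _ ih =>
    obtain ⟨m⟩ := ih
    rw [Finset.coe_insert]
    exact ⟨m.extend a⟩

end Vale.Agent.Lib.P043
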