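import Mathlib

/-!
From a real combination of digits with values in `{0,1}` to an integer relation modulo a prime.
-/

namespace Vale.Agent.Lib.P043

/-- An integer multiple of a finite family of rationals is integral. -/
lemma exists_common_den {ι : Type*} (I : Finset ι) (q : ι → ℚ) :
    ∃ D : ℕ, 0 < D ∧ ∀ j ∈ I, ∃ z : ℤ, (D : ℚ) * q j = z := by
  classical
  refine ⟨∏ j ∈ I, (q j).den, Finset.prod_pos fun j _ => (q j).den_pos, ?_⟩
  intro j hj
  rw [← Finset.mul_prod_erase I _ hj]
  refine ⟨(q j).num * ∏ i ∈ I.erase j, ((q i).den : ℤ), ?_⟩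
  push_cast
  have hd : ((q j).den : ℚ) ≠ 0 := by exact_mod_cast (q j).den_ne_zero
  have : (q j) * ((q j).den : ℚ) = (q j).num := Rat.mul_den_eq_num (q j)
  rw [← this]
  ring

theorem exists_relation {ι X : Type*} [DecidableEq ι] (I : Finset ι) (hI : I.Nonempty) (b : ι → ℝ)
    (hb0 : ∀ i ∈ I, 0 < b i) (hb1 : ∀ i ∈ I, b i ≠ 1) (θ : ι → X → ℤ)
    (hθ : ∀ i x, θ i x = 0 ∨ θ i x = 1)
    (hs : ∀ x, ∑ i ∈ I, b i * (θ i x : ℝ) = 0 ∨ ∑ i ∈ I, b i * (θ i x : ℝ) = 1)
    (hne : ∀ i ∈ I, ∃ x, θ i x = 1) :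
    ∃ i ∈ I, ∃ π : ℕ, π.Prime ∧ ∃ c : ι → ℤ, ¬ (π : ℤ) ∣ c i ∧
      ∀ x, (π : ℤ) ∣ ∑ j ∈ I, c j * θ j x := by
  classical
  by_cases hirr : ∃ i ∈ I, ∀ q : ℚ, (q : ℝ) ≠ b i
  · obtain ⟨i, hi, hq⟩ := hirr
    -- a rational functional killing `1` and not `b i`
    let W : Submodule ℚ ℝ := Submodule.span ℚ {(1 : ℝ)}
    have hnot : b i ∉ W := by
      intro hmem
      obtain ⟨q, hq'⟩ := Submodule.mem_span_singleton.mp hmem
      apply hq q
      rw [← hq']
      simp [Rat.smul_def]
    obtain ⟨ξ, hξ1, hξ2⟩ := Submodule.exists_le_ker_of_notMem hnot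
    have hξone : ξ 1 = 0 := hξ2 (Submodule.subset_span rfl)
    obtain ⟨D, hD, hz⟩ := exists_common_den I (fun j => ξ (b j))
    choose! c hc using hz
    have hci : c i ≠ 0 := by
      intro h0
      have := hc i hi
      rw [h0] at this
      have hDq : (D : ℚ) ≠ 0 := by exact_mod_cast hD.ne'
      simp only [Int.cast_zero, mul_eq_zero, hDq, false_or] at this
      exact hξ1 this
    obtain ⟨π, hπ, hπp⟩ := Nat.exists_infinite_primes (c i).natAbs.succ
    refine ⟨i, hi, π, hπp, c, ?_, ?_⟩
    · intro hdvd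
      have h1 : (π : ℤ) ≤ |c i| := Int.le_of_dvd (abs_pos.mpr hci) ((dvd_abs _ _).mpr hdvd)
      have h2 : |c i| = ((c i).natAbs : ℤ) := by simp
      rw [h2] at h1
      have h3 : π ≤ (c i).natAbs := by exact_mod_cast h1
      have : (c i).natAbs.succ ≤ (c i).natAbs := hπ.trans h3
      omega
    · intro x
      have hzero : ∑ j ∈ I, c j * θ j x = 0 := by
        have h1 : ξ (∑ j ∈ I, b j * (θ j x : ℝ)) = 0 := by
          rcases hs x with h | h
          · rw [h, map_zero]
          · rw [h, hξone]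
        have h2 : ξ (∑ j ∈ I, b j * (θ j x : ℝ)) = ∑ j ∈ I, (θ j x : ℚ) * ξ (b j) := by
          rw [map_sum]
          apply Finset.sum_congr rfl
          intro j _
          have e : b j * (θ j x : ℝ) = (θ j x : ℚ) • b j := by
            rw [Rat.smul_def]; push_cast; ring
          rw [e, map_smul, smul_eq_mul]
        have h3 : ((∑ j ∈ I, c j * θ j x : ℤ) : ℚ) = D * ξ (∑ j ∈ I, b j * (θ j x : ℝ)) := by
          rw [h2, Finset.mul_sum]
          push_cast
          apply Finset.sum_congr rfl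
          intro j hj
          rw [← hc j hj]
          ring
        rw [h1, mul_zero] at h3
        exact_mod_cast h3
      rw [hzero]
      exact dvd_zero _
  · push Not at hirr
    choose! q hq using hirr
    -- the minimal common denominator
    have hex : ∃ D : ℕ, 0 < D ∧ ∀ j ∈ I, ∃ z : ℤ, (D : ℝ) * b j = z := by
      obtain ⟨D, hD, hz⟩ := exists_common_den I q
      refine ⟨D, hD, fun j hj => ?_⟩
      obtain ⟨z, hz'⟩ := hz j hj
      refine ⟨z, ?_⟩
      rw [← hq j hj]
      exact_mod_cast hz'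
    let D := Nat.find hex
    have hDspec := Nat.find_spec hex
    have hDmin : ∀ m, m < D → ¬ (0 < m ∧ ∀ j ∈ I, ∃ z : ℤ, (m : ℝ) * b j = z) :=
      fun m hm => Nat.find_min hex hm
    change 0 < D ∧ ∀ j ∈ I, ∃ z : ℤ, (D : ℝ) * b j = z at hDspec
    obtain ⟨hD0, hz⟩ := hDspec
    choose! c hc using hz
    by_cases hD1 : D = 1
    · exfalso
      obtain ⟨i, hi⟩ := hI
      obtain ⟨x, hx⟩ := hne i hi
      have hbi : b i = c i := by
        have := hc i hi
        rw [hD1] at this
        simpa using this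
      have hci : 2 ≤ c i := by
        have h1 : (0 : ℝ) < c i := hbi ▸ hb0 i hi
        have h2 : (c i : ℝ) ≠ 1 := hbi ▸ hb1 i hi
        have h3 : 0 < c i := by exact_mod_cast h1
        have h4 : c i ≠ 1 := by exact_mod_cast h2
        omega
      have hbi2 : (2 : ℝ) ≤ b i := by
        rw [hbi]
        exact_mod_cast hci
      have hge : b i * (θ i x : ℝ) ≤ ∑ j ∈ I, b j * (θ j x : ℝ) := by
        apply Finset.single_le_sum (f := fun j => b j * (θ j x : ℝ)) _ hi
        intro j hj
        apply mul_nonneg (hb0 j hj).le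
        rcases hθ j x with h | h <;> simp [h]
      rw [hx] at hge
      simp only [Int.cast_one, mul_one] at hge
      rcases hs x with h | h <;> linarith
    · have hD2 : D ≠ 1 := hD1
      let π := D.minFac
      have hπ : π.Prime := Nat.minFac_prime hD2
      have hπD : π ∣ D := Nat.minFac_dvd D
      have hexi : ∃ i ∈ I, ¬ (π : ℤ) ∣ c i := by
        by_contra hcon
        push Not at hcon
        obtain ⟨m, hm⟩ := hπD
        have hmpos : 0 < m := by
          rcases Nat.eq_zero_or_pos m with h | h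
          · rw [h, mul_zero] at hm
            omega
          · exact h
        have hlt : m < D := by
          rw [hm]
          nlinarith [hπ.two_le]
        apply hDmin m hlt
        refine ⟨hmpos, fun j hj => ?_⟩
        obtain ⟨z, hz⟩ := hcon j hj
        refine ⟨z, ?_⟩
        have h1 := hc j hj
        rw [hz, hm] at h1
        push_cast at h1
        have hπ0 : (π : ℝ) ≠ 0 := by exact_mod_cast hπ.ne_zero
        apply mul_left_cancel₀ hπ0
        linarith
      obtain ⟨i, hi, hnd⟩ := hexi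
      refine ⟨i, hi, π, hπ, c, hnd, ?_⟩
      intro x
      have h1 : ((∑ j ∈ I, c j * θ j x : ℤ) : ℝ) = D * ∑ j ∈ I, b j * (θ j x : ℝ) := by
        rw [Finset.mul_sum]
        push_cast
        apply Finset.sum_congr rfl
        intro j hj
        rw [← hc j hj]
        ring
      have hπDZ : (π : ℤ) ∣ (D : ℤ) := by exact_mod_cast hπD
      rcases hs x with h | h
      · rw [h, mul_zero] at h1
        have : ∑ j ∈ I, c j * θ j x = 0 := by exact_mod_cast h1
        rw [this]
        exact dvd_zero _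
      · rw [h, mul_one] at h1
        have : ∑ j ∈ I, c j * θ j x = D := by exact_mod_cast h1
        rw [this]
        exact hπDZ

end Vale.Agent.Lib.P043
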