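import Mathlib
import Vale.Agent.Lib.P043.Mean
import Vale.Agent.Lib.P043.Relation

/-!
Ridge systems: periods, decomposition of a function annihilated by products of differences into
means and a periodic function, and periodicity of level sums.
-/

namespace Vale.Agent.Lib.P043

open AddMonoidAlgebra

variable {G : Type*} [AddCommGroup G]

/-- period: invariance under `K • G` -/
def Per {k : Type*} (K : ℕ) (v : G → k) : Prop := ∀ (g x : G), v (x + K • g) = v x

/-- some period -/
def IsPer {k : Type*} (v : G → k) : Prop := ∃ K, 0 < K ∧ Per K v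

lemma Per.mul_right {k : Type*} {K : ℕ} {v : G → k} (h : Per K v) (c : ℕ) : Per (K * c) v := by
  intro g x
  rw [mul_smul]
  exact h _ _

lemma Per.of_dvd {k : Type*} {K K' : ℕ} {v : G → k} (h : Per K v) (hd : K ∣ K') : Per K' v := by
  obtain ⟨c, rfl⟩ := hd
  exact h.mul_right c

lemma Per.of_zsmul {k : Type*} {v : G → k} (D : ℤ) (h : ∀ (g x : G), v (x + D • g) = v x) :
    Per D.natAbs v := by
  intro g x
  obtain ⟨n, hn | hn⟩ := D.eq_nat_or_neg
  · subst hn
    simpa using h g x
  · subst hn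
    have := h (-g) x
    simpa using this

lemma Per.shift {k : Type*} {K : ℕ} {v : G → k} (h : Per K v) (t : G) : Per K (fun x => v (x + t)) := by
  intro g x
  have e : x + K • g + t = x + t + K • g := by abel
  show v (x + K • g + t) = v (x + t)
  rw [e]
  exact h _ _

lemma Per.add {K : ℕ} {v w : G → ℝ} (hv : Per K v) (hw : Per K w) : Per K (v + w) := by
  intro g x
  simp only [Pi.add_apply]
  rw [hv g x, hw g x]

lemma Per.sub {K : ℕ} {v w : G → ℝ} (hv : Per K v) (hw : Per K w) : Per K (v - w) := by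
  intro g x
  simp only [Pi.sub_apply]
  rw [hv g x, hw g x]

lemma Per.sum {ι : Type*} {K : ℕ} (s : Finset ι) (v : ι → G → ℝ) (hv : ∀ i ∈ s, Per K (v i)) :
    Per K (∑ i ∈ s, v i) := by
  intro g x
  simp only [Finset.sum_apply]
  exact Finset.sum_congr rfl fun i hi => hv i hi g x

lemma IsPer.add {v w : G → ℝ} (hv : IsPer v) (hw : IsPer w) : IsPer (v + w) := by
  obtain ⟨K, hK, h1⟩ := hv
  obtain ⟨L, hL, h2⟩ := hw
  refine ⟨K * L, Nat.mul_pos hK hL, fun g x => ?_⟩
  simp only [Pi.add_apply]
  rw [(h1.mul_right L) g x, (h2.of_dvd (Dvd.intro_left K rfl)) g x]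

lemma IsPer.sub {v w : G → ℝ} (hv : IsPer v) (hw : IsPer w) : IsPer (v - w) := by
  obtain ⟨K, hK, h1⟩ := hv
  obtain ⟨L, hL, h2⟩ := hw
  refine ⟨K * L, Nat.mul_pos hK hL, fun g x => ?_⟩
  simp only [Pi.sub_apply]
  rw [(h1.mul_right L) g x, (h2.of_dvd (Dvd.intro_left K rfl)) g x]

lemma IsPer.smul {v : G → ℝ} (hv : IsPer v) (c : ℝ) : IsPer (c • v) := by
  obtain ⟨K, hK, h1⟩ := hv
  refine ⟨K, hK, fun g x => ?_⟩
  simp only [Pi.smul_apply]
  rw [h1 g x]

lemma IsPer.const (c : ℝ) : IsPer (fun _ : G => c) := ⟨1, one_pos, fun _ _ => rfl⟩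

lemma IsPer.sum {ι : Type*} (s : Finset ι) (v : ι → G → ℝ) (hv : ∀ i ∈ s, IsPer (v i)) :
    IsPer (∑ i ∈ s, v i) := by
  classical
  induction s using Finset.induction_on with
  | empty => exact ⟨1, one_pos, fun _ _ => by simp⟩
  | insert a s ha ih =>
    rw [Finset.sum_insert ha]
    exact (hv a (Finset.mem_insert_self _ _)).add (ih fun i hi => hv i (Finset.mem_insert_of_mem hi))

lemma IsPer.shift {v : G → ℝ} (hv : IsPer v) (t : G) : IsPer (fun x => v (x + t)) := by
  obtain ⟨K, hK, h1⟩ := hv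
  exact ⟨K, hK, h1.shift t⟩

/-- A common period for a finite family. -/
lemma exists_common_per {ι : Type*} {k : Type*} (s : Finset ι) (v : ι → G → k)
    (hv : ∀ i ∈ s, IsPer (v i)) : ∃ K, 0 < K ∧ ∀ i ∈ s, Per K (v i) := by
  classical
  induction s using Finset.induction_on with
  | empty => exact ⟨1, one_pos, fun _ h => absurd h (Finset.notMem_empty _)⟩
  | insert a s ha ih =>
    obtain ⟨K, hK, h1⟩ := ih fun i hi => hv i (Finset.mem_insert_of_mem hi)
    obtain ⟨L, hL, h2⟩ := hv a (Finset.mem_insert_self _ _)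
    refine ⟨K * L, Nat.mul_pos hK hL, fun i hi => ?_⟩
    rcases Finset.mem_insert.mp hi with rfl | hi
    · exact h2.of_dvd (Dvd.intro_left K rfl)
    · exact (h1 i hi).mul_right L

/-- A ridge system: levels, and subgroups on which the means are taken. -/
structure RidgeSys (G : Type*) [AddCommGroup G] (ι : Type*) where
  ell : ι → G →+ ℤ
  Lam : ι → AddSubgroup G
  ell_ne : ∀ i, ∃ y, ell i y ≠ 0
  ell_Lam : ∀ i, ∀ l ∈ Lam i, ell i l = 0
  Kk : ι → ℕ
  Kk_pos : ∀ i, 0 < Kk i
  Kk_mem : ∀ i g, ell i g = 0 → Kk i • g ∈ Lam i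
  Kp : ι → ι → ℕ
  Kp_pos : ∀ i j, 0 < Kp i j
  Kp_mem : ∀ i j, i ≠ j → ∀ g : G, ∃ l ∈ Lam i, ∃ m ∈ Lam j, Kp i j • g = l + m

section decomp
set_option linter.unusedSectionVars false

variable {ι : Type*} [DecidableEq ι] (sys : RidgeSys G ι) (mm : ∀ i, InvMean (sys.Lam i))

/-- A double mean is periodic. -/
lemma double_mean_per (i k : ι) (hik : i ≠ k) {w : G → ℝ} (hw : Bd w)
    (hinv : ∀ l ∈ sys.Lam k, ∀ x, w (x + l) = w x) :
    Per (sys.Kp i k) ((mm i).M w) := by
  intro g x
  obtain ⟨l, hl, m, hm, he⟩ := sys.Kp_mem i k hik g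
  have h1 : (mm i).M w (x + m) = (mm i).M w x := by
    have e1 : (fun y => w (y - (-m))) = w := by
      funext y
      rw [sub_neg_eq_add]
      exact hinv m hm y
    have := congrFun ((mm i).map_shift (-m) w hw) x
    rw [e1, sub_neg_eq_add] at this
    exact this.symm
  rw [he]
  have e : x + (l + m) = x + m + l := by abel
  rw [e, (mm i).inv w hw l hl, h1]

/-- The decomposition theorem, with a period which does not depend on the function. -/
theorem decomp_unif (S : Finset ι) : ∃ K, 0 < K ∧ ∀ w : G → ℝ, Bd w →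
    (∀ d : ι → G, (∀ i, d i ∈ sys.Lam i) → act (∏ i ∈ S, Dl ℝ (d i)) w = 0) →
    Per K (w - ∑ i ∈ S, (mm i).M w) := by
  induction S using Finset.induction_on with
  | empty =>
    refine ⟨1, one_pos, ?_⟩
    intro w _ hz
    have : w = 0 := by
      have := hz (fun _ => 0) (fun i => AddSubgroup.zero_mem _)
      simpa [act_one] using this
    subst this
    intro g x
    simp
  | insert k S hk ih =>
    obtain ⟨K1, hK1, ih⟩ := ih
    refine ⟨K1 * ∏ i ∈ S, sys.Kp i k, Nat.mul_pos hK1 (Finset.prod_pos fun i _ => sys.Kp_pos i k), ?_⟩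
    intro w hw hz
    set w' := w - (mm k).M w with hw'
    have hMk : Bd ((mm k).M w) := (mm k).bd hw
    have hbw' : Bd w' := hw.sub hMk
    have hz' : ∀ d : ι → G, (∀ i, d i ∈ sys.Lam i) → act (∏ i ∈ S, Dl ℝ (d i)) w' = 0 := by
      intro d hd
      set e := ∏ i ∈ S, Dl ℝ (d i) with he
      have hinv : ∀ l ∈ sys.Lam k, ∀ x, act e w (x + l) = act e w x := by
        intro l hl x
        have h1 := hz (Function.update d k (-l)) (by
          intro i
          by_cases hi : i = k
          · subst hi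
            rw [Function.update_self]
            exact AddSubgroup.neg_mem _ hl
          · rw [Function.update_of_ne hi]
            exact hd i)
        rw [Finset.prod_insert hk, Function.update_self] at h1
        have h2 : ∏ x ∈ S, Dl ℝ (Function.update d k (-l) x) = e := by
          apply Finset.prod_congr rfl
          intro i hi
          rw [Function.update_of_ne]
          rintro rfl
          exact hk hi
        rw [h2, act_mul] at h1
        have h3 := (act_Dl_eq_zero_iff (-l) (act e w)).mp h1 x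
        rwa [sub_neg_eq_add] at h3
      have hfix := (mm k).fix (act e w) (hw.act e) hinv
      rw [(mm k).map_act e hw] at hfix
      rw [hw', act_fun_sub, hfix, sub_self]
    have hper := ih w' hbw' hz'
    have hdouble : ∀ i ∈ S, Per (K1 * ∏ i ∈ S, sys.Kp i k) ((mm i).M ((mm k).M w)) := by
      intro i hi
      have h1 : Per (sys.Kp i k) ((mm i).M ((mm k).M w)) := by
        apply double_mean_per sys mm i k _ hMk
        · intro l hl x
          exact (mm k).inv w hw l hl x
        · rintro rfl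
          exact hk hi
      exact h1.of_dvd ((Finset.dvd_prod_of_mem _ hi).trans (Dvd.intro_left K1 rfl))
    have hfinal : w - ∑ i ∈ insert k S, (mm i).M w
        = (w' - ∑ i ∈ S, (mm i).M w') - ∑ i ∈ S, (mm i).M ((mm k).M w) := by
      rw [Finset.sum_insert hk]
      have : ∑ i ∈ S, (mm i).M w' = ∑ i ∈ S, ((mm i).M w - (mm i).M ((mm k).M w)) := by
        apply Finset.sum_congr rfl
        intro i _
        rw [hw', (mm i).map_sub hw hMk]
      rw [this, Finset.sum_sub_distrib, hw']
      abel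
    rw [hfinal]
    exact (hper.mul_right _).sub (Per.sum S _ hdouble)

/-- The decomposition theorem. -/
theorem decomp (S : Finset ι) (w : G → ℝ) (hw : Bd w)
    (hz : ∀ d : ι → G, (∀ i, d i ∈ sys.Lam i) → act (∏ i ∈ S, Dl ℝ (d i)) w = 0) :
    IsPer (w - ∑ i ∈ S, (mm i).M w) := by
  obtain ⟨K, hK, h⟩ := decomp_unif sys mm S
  exact ⟨K, hK, h w hw hz⟩

end decomp

section level
set_option linter.unusedSimpArgs false

/-- a product of units -/
lemma prod_single_one {k : Type*} [CommRing k] {τ : Type*} (S : Finset τ) (a : τ → G) :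
    ∏ t ∈ S, (single (a t) (1 : k) : AddMonoidAlgebra k G) = single (∑ t ∈ S, a t) 1 := by
  classical
  induction S using Finset.induction_on with
  | empty => simp; rfl
  | insert b S hb ih =>
    rw [Finset.prod_insert hb, Finset.sum_insert hb, ih, single_add_one]

/-- invariance passes through the action -/
lemma act_inv {k : Type*} [CommRing k] (e : AddMonoidAlgebra k G) (v : G → k) (l : G)
    (hl : ∀ x, v (x - l) = v x) : ∀ x, act e v (x - l) = act e v x := by
  rw [← act_Dl_eq_zero_iff] at hl ⊢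
  rw [act_comm, hl, act_zero]

/-- The level sums of a bounded invariant function with periodic dilated sums are periodic. -/
theorem level_periodic (ell : G →+ ℤ) (Lam : AddSubgroup G) (Kk : ℕ)
    (hKk : ∀ g, ell g = 0 → Kk • g ∈ Lam) (F : Finset G) (v : G → ℝ) (hv : Bd v)
    (Q : ℕ) (hQ : 0 < Q) (hKk0 : 0 < Kk) (hvinv : ∀ l ∈ Lam, ∀ x, v (x + Q • l) = v x)
    (r0 : ℕ) (hr0 : 0 < r0) (N : ℕ) (hN0 : 0 < N) (hN : Q * Kk ∣ N) (C : ℕ) (hC : 0 < C)
    (hper : ∀ (j : ℕ) (y x : G), ∑ f ∈ F, v (x + C • y - (r0 * (1 + j * N)) • f)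
      = ∑ f ∈ F, v (x - (r0 * (1 + j * N)) • f)) (t : ℤ) :
    IsPer (fun x => ∑ f ∈ F.filter (fun f => ell f = t), v (x - r0 • f)) := by
  classical
  set T := F.image ell with hT
  by_cases htT : t ∈ T
  swap
  · have : F.filter (fun f => ell f = t) = ∅ := by
      apply Finset.filter_false_of_mem
      intro f hf hft
      exact htT (Finset.mem_image.mpr ⟨f, hf, hft⟩)
    simp only [this, Finset.sum_empty]
    exact IsPer.const 0
  have hg : ∀ t' ∈ T, ∃ g ∈ F, ell g = t' := fun t' ht' => Finset.mem_image.mp ht'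
  choose! g hgF hgl using hg
  let c : ℤ → G → ℝ := fun t' x => ∑ f ∈ F.filter (fun f => ell f = t'), v (x - r0 • f)
  have hcbd : ∀ t', Bd (c t') := by
    intro t'
    have : c t' = ∑ f ∈ F.filter (fun f => ell f = t'), (fun x => v (x - r0 • f)) := by
      funext x
      simp [c]
    rw [this]
    exact Bd.sum _ _ fun f _ => hv.shift _
  obtain ⟨N', hN'⟩ := hN
  set N1 := r0 * N with hN1
  -- the fiber decomposition
  have hfib : ∀ (j : ℕ) (x : G), ∑ f ∈ F, v (x - (r0 * (1 + j * N)) • f)
      = ∑ t' ∈ T, c t' (x - j • (N1 • g t')) := by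
    intro j x
    rw [← Finset.sum_fiberwise_of_maps_to (s := F) (t := T) (g := ell)
      (fun f hf => Finset.mem_image_of_mem ell hf)]
    apply Finset.sum_congr rfl
    intro t' ht'
    simp only [c]
    apply Finset.sum_congr rfl
    intro f hf
    have hf1 : f ∈ F := (Finset.mem_filter.mp hf).1
    have hf2 : ell f = t' := (Finset.mem_filter.mp hf).2
    have hz : ell (f - g t') = 0 := by
      rw [map_sub, hf2, hgl t' ht', sub_self]
    have hl : Kk • (f - g t') ∈ Lam := hKk _ hz
    let l : G := (j * r0 * N') • (Kk • (f - g t'))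
    have hlmem : -l ∈ Lam := Lam.neg_mem (nsmul_mem hl _)
    have hM : r0 * (1 + j * N) = r0 + j * N1 := by rw [hN1]; ring
    have hMl : (j * N1) • (f - g t') = Q • l := by
      simp only [l]
      rw [smul_smul, smul_smul]
      congr 1
      rw [hN1, hN']
      ring
    have he : x - (r0 * (1 + j * N)) • f = x - j • N1 • g t' - r0 • f + Q • (-l) := by
      rw [hM, add_smul, smul_neg, ← hMl, smul_sub, mul_smul j N1 (g t')]
      abel
    rw [he, hvinv _ hlmem]
  -- fix `y`
  let S := T.erase t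
  let hh : ℤ → G := fun t' => N1 • (g t - g t')
  have hN1pos : 0 < N1 := Nat.mul_pos hr0 hN0
  have halpha : ∀ t' ∈ S, ell (hh t') ≠ 0 := by
    intro t' ht'
    have h1 := Finset.mem_erase.mp ht'
    simp only [hh, map_nsmul, map_sub, hgl t htT, hgl t' h1.2]
    simp only [smul_eq_mul, ne_eq, mul_eq_zero, not_or, nsmul_eq_mul]
    refine ⟨by exact_mod_cast hN1pos.ne', ?_⟩
    intro h0
    apply h1.1
    linarith
  let A : ℤ := ∏ t' ∈ S, ell (hh t')
  have hA : A ≠ 0 := Finset.prod_ne_zero_iff.mpr halpha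
  let D : ℤ := (C : ℤ) * ((Q : ℤ) * (Kk : ℤ) * A)
  have hD : D ≠ 0 := by
    simp only [D]
    have h1 : (C : ℤ) ≠ 0 := by exact_mod_cast hC.ne'
    have h2 : (Q : ℤ) ≠ 0 := by exact_mod_cast hQ.ne'
    have h3 : (Kk : ℤ) ≠ 0 := by exact_mod_cast hKk0.ne'
    exact mul_ne_zero h1 (mul_ne_zero (mul_ne_zero h2 h3) hA)
  refine ⟨D.natAbs, Int.natAbs_pos.mpr hD, Per.of_zsmul D ?_⟩
  intro y x
  -- work with the annihilation
  let Y : G := ((Q : ℤ) * (Kk : ℤ) * A) • y
  let Z : G := C • y
  let w : ℤ → G → ℝ := fun t' => act (Dl ℝ Z) (c t')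
  let s : ℤ → AddMonoidAlgebra ℝ G := fun t' => single (N1 • g t') 1
  have hsum : ∀ j : ℕ, ∑ t' ∈ T, act (s t' ^ j) (w t') = 0 := by
    intro j
    funext x
    simp only [Finset.sum_apply, Pi.zero_apply, s, w, single_one_pow]
    simp only [act_single_one, act_Dl]
    rw [Finset.sum_sub_distrib]
    have h1 := hfib j (x - Z)
    have h2 := hfib j x
    have h3 := hper j (-y) x
    have e1 : x + C • (-y) = x - Z := by simp [Z, sub_eq_add_neg]
    rw [e1] at h3
    rw [h1, h2] at h3
    have h4 : ∀ t', c t' (x - j • N1 • g t' - Z) = c t' (x - Z - j • N1 • g t') := by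
      intro t'
      congr 1
      abel
    simp only [h4]
    rw [h3, sub_self]
  have hvan := vander T s w t htT hsum
  -- separate the units
  have hfact : ∏ t' ∈ S, (s t - s t') = (∏ t' ∈ S, s t') * ∏ t' ∈ S, Dl ℝ (hh t') := by
    rw [← Finset.prod_mul_distrib]
    apply Finset.prod_congr rfl
    intro t' _
    simp only [s, hh, Dl]
    have e : (single (N1 • g t) (1 : ℝ) : AddMonoidAlgebra ℝ G)
        = single (N1 • g t') 1 * single (N1 • (g t - g t')) 1 := by
      rw [← single_add_one, smul_sub]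
      congr 1
      abel
    rw [e]
    ring
  have hprod : ∏ t' ∈ S, s t' = single (∑ t' ∈ S, N1 • g t') 1 := prod_single_one S _
  rw [hfact, hprod] at hvan
  have hvan2 := act_eq_zero_of_single_mul _ _ _ hvan
  -- the reduction
  have hcinv : ∀ t' (l : G), l ∈ Lam → ∀ x, c t' (x - Q • l) = c t' x := by
    intro t' l hl x
    simp only [c]
    apply Finset.sum_congr rfl
    intro f _
    have e : x - Q • l - r0 • f = x - r0 • f + Q • (-l) := by
      simp only [smul_neg]; abel
    rw [e]
    exact hvinv _ (Lam.neg_mem hl) _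
  have hred := pow_Dl_ann (k := ℝ) (w t) S hh Y (by
    intro t' ht'
    have hz : ell ((ell (hh t')) • y - (ell y) • hh t') = 0 := by
      simp only [map_sub, map_zsmul, smul_eq_mul]
      ring
    have hl0 := hKk _ hz
    -- the cofactor
    let A' : ℤ := ∏ t'' ∈ S.erase t', ell (hh t'')
    have hAA : A = ell (hh t') * A' := (Finset.mul_prod_erase S _ ht').symm
    let l1 : G := A' • (Kk • ((ell (hh t')) • y - (ell y) • hh t'))
    have hl1 : l1 ∈ Lam := zsmul_mem hl0 _
    refine ⟨(Q : ℤ) * (Kk : ℤ) * A' * ell y, Q • l1, ?_, ?_⟩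
    · have key : ∀ (q k a' al be : ℤ) (y h : G), (q * k * (al * a')) • y
          = (q * k * a' * be) • h + q • a' • k • (al • y - be • h) := by
        intro q k a' al be y h
        simp only [smul_sub, smul_smul]
        rw [show q * (a' * (k * al)) = q * k * (al * a') by ring,
          show q * (a' * (k * be)) = q * k * a' * be by ring]
        abel
      have := key Q Kk A' (ell (hh t')) (ell y) y (hh t')
      simp only [Y, l1, hAA]
      simp only [natCast_zsmul] at this
      exact this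
    · intro x
      simp only [w]
      apply act_inv
      exact hcinv t l1 hl1) hvan2
  have hYd1 : ∃ e, Dl ℝ (D • y) = e * Dl ℝ Y := by
    have : D • y = (C : ℤ) • Y := by
      simp only [Y, D, smul_smul]
    rw [this]
    exact Dl_dvd_zsmul _ _
  have hYd2 : ∃ e, Dl ℝ (D • y) = e * Dl ℝ Z := by
    have : D • y = ((Q : ℤ) * (Kk : ℤ) * A) • Z := by
      simp only [Z, D, ← natCast_zsmul, smul_smul]
      congr 1
      ring
    rw [this]
    exact Dl_dvd_zsmul _ _
  obtain ⟨e1, he1⟩ := hYd1
  obtain ⟨e2, he2⟩ := hYd2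
  have hpow : act (Dl ℝ (D • y) ^ (S.card + 1)) (c t) = 0 := by
    have : Dl ℝ (D • y) ^ (S.card + 1) = (e1 ^ S.card * e2) * (Dl ℝ Y ^ S.card * Dl ℝ Z) := by
      rw [pow_succ]
      nth_rewrite 1 [he1]
      rw [he2, mul_pow]
      ring
    rw [this, act_mul _ (Dl ℝ Y ^ S.card * Dl ℝ Z), act_mul (Dl ℝ Y ^ S.card) (Dl ℝ Z),
      show act (Dl ℝ Z) (c t) = w t from rfl, hred, act_zero]
  have hfin := act_Dl_of_pow (D • y) (S.card + 1) (Nat.succ_pos _) (c t) (hcbd t) hpow
  have := (act_Dl_eq_zero_iff _ _).mp hfin (x + D • y)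
  rw [add_sub_cancel_right] at this
  exact this.symm

end level

end Vale.Agent.Lib.P043
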