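import Mathlib
import Vale.Agent.Lib.P043.Ridge1
import Vale.Agent.Lib.P043.Periodic

/-!
The digit functions of a ridge system, the relation modulo a prime, and the local structure:
every coset of a suitable `Q • G` carries a constant or a function invariant along one ridge.
-/

namespace Vale.Agent.Lib.P043

open AddMonoidAlgebra

variable {G : Type*} [AddCommGroup G]

section modpi
variable {ι : Type*} [DecidableEq ι] (sys : RidgeSys G ι)

/-- Relations modulo a prime between invariant functions force periodicity. -/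
theorem modpi_period (π : ℕ) [hπ : Fact π.Prime] (I : Finset ι) (i : ι) (hi : i ∈ I)
    (θ : ι → G → ZMod π) (c : ι → ZMod π) (hc : c i ≠ 0)
    (hrel : ∀ y, ∑ j ∈ I, c j * θ j y = 0)
    (hinv : ∀ j ∈ I, ∀ l ∈ sys.Lam j, ∀ y, θ j (y + l) = θ j y) :
    IsPer (θ i) := by
  classical
  set S := I.erase i with hS
  set K0 := ∏ j ∈ S, sys.Kp i j with hK0
  have hK0pos : 0 < K0 := Finset.prod_pos fun j _ => sys.Kp_pos i j
  have hπpos : 0 < π := hπ.out.pos
  refine ⟨π ^ S.card * K0, Nat.mul_pos (pow_pos hπpos _) hK0pos, ?_⟩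
  intro g x
  set Y := K0 • g with hY
  have hdec : ∀ j ∈ S, ∃ μ l, μ ∈ sys.Lam j ∧ l ∈ sys.Lam i ∧ Y = μ + l := by
    intro j hj
    have hji : i ≠ j := (Finset.ne_of_mem_erase hj).symm
    obtain ⟨l, hl, m, hm, he⟩ := sys.Kp_mem i j hji g
    have hK : K0 = sys.Kp i j * ∏ j' ∈ S.erase j, sys.Kp i j' := (Finset.mul_prod_erase S _ hj).symm
    set K' := ∏ j' ∈ S.erase j, sys.Kp i j'
    refine ⟨K' • m, K' • l, nsmul_mem hm _, nsmul_mem hl _, ?_⟩
    rw [hY, hK, mul_comm, mul_smul, he, smul_add]
    abel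
  choose! μ l hμ hl hYe using hdec
  have hinvi : ∀ j ∈ S, ∀ x, θ i (x - l j) = θ i x := by
    intro j hj x
    have := hinv i hi (-(l j)) (AddSubgroup.neg_mem _ (hl j hj)) x
    rwa [← sub_eq_add_neg] at this
  set E := ∏ j ∈ S, Dl (ZMod π) (μ j) with hE
  have hkill : ∀ j ∈ S, act E (θ j) = 0 := by
    intro j hj
    have hjI : j ∈ I := Finset.mem_of_mem_erase hj
    rw [hE, ← Finset.mul_prod_erase S _ hj, mul_comm, act_mul]
    have : act (Dl (ZMod π) (μ j)) (θ j) = 0 := by
      rw [act_Dl_eq_zero_iff]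
      intro x
      have := hinv j hjI (-(μ j)) (AddSubgroup.neg_mem _ (hμ j hj)) x
      rwa [← sub_eq_add_neg] at this
    rw [this, act_zero]
  have hz : act E (θ i) = 0 := by
    have h1 : (∑ j ∈ I, c j • θ j) = 0 := by
      funext y
      simpa using hrel y
    have h2 := congrArg (act E) h1
    rw [act_zero, act_fun_sum, ← Finset.add_sum_erase I _ hi] at h2
    have h3 : ∑ j ∈ S, act E (c j • θ j) = 0 := by
      apply Finset.sum_eq_zero
      intro j hj
      rw [act_fun_smul, hkill j hj, smul_zero]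
    rw [h3, add_zero, act_fun_smul] at h2
    have h4 := smul_eq_zero.mp h2
    rcases h4 with h4 | h4
    · exact absurd h4 hc
    · exact h4
  have hred : act (Dl (ZMod π) Y ^ S.card) (θ i) = 0 := by
    apply pow_Dl_ann (θ i) S μ Y _ hz
    intro j hj
    exact ⟨1, l j, by rw [one_smul]; exact hYe j hj, hinvi j hj⟩
  -- Frobenius
  have hchar : CharP (AddMonoidAlgebra (ZMod π) G) π :=
    charP_of_injective_algebraMap (algebraMap (ZMod π) (AddMonoidAlgebra (ZMod π) G)).injective π
  have hfrob : Dl (ZMod π) Y ^ (π ^ S.card) = Dl (ZMod π) ((π ^ S.card) • Y) := by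
    unfold Dl
    rw [sub_pow_char_pow, one_pow, single_one_pow]
  have hle : S.card ≤ π ^ S.card := (Nat.lt_pow_self hπ.out.one_lt).le
  have hfin : act (Dl (ZMod π) ((π ^ S.card) • Y)) (θ i) = 0 := by
    rw [← hfrob, ← Nat.sub_add_cancel hle, pow_add, act_mul, hred, act_zero]
  have := (act_Dl_eq_zero_iff _ _).mp hfin (x + (π ^ S.card * K0) • g)
  have e : x + (π ^ S.card * K0) • g - (π ^ S.card) • Y = x := by
    rw [hY, ← mul_smul]
    abel
  rw [e] at this
  exact this.symm

end modpi

section digit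
open Classical in
/-- the digit function of a subgroup and a function: `0` on `{u = 1} + Lam`, `1` elsewhere. -/
noncomputable def thetaZ (Lam : AddSubgroup G) (u : G → ℝ) (x : G) : ℤ :=
  if ∃ a l, u a = 1 ∧ l ∈ Lam ∧ x = a + l then 0 else 1

lemma thetaZ_01 (Lam : AddSubgroup G) (u : G → ℝ) (x : G) :
    thetaZ Lam u x = 0 ∨ thetaZ Lam u x = 1 := by
  unfold thetaZ
  split_ifs <;> simp

lemma thetaZ_eq_zero (Lam : AddSubgroup G) (u : G → ℝ) {a : G} (ha : u a = 1) :
    thetaZ Lam u a = 0 := by
  unfold thetaZ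
  rw [if_pos]
  exact ⟨a, 0, ha, Lam.zero_mem, by simp⟩

lemma thetaZ_inv (Lam : AddSubgroup G) (u : G → ℝ) (x : G) {l : G} (hl : l ∈ Lam) :
    thetaZ Lam u (x + l) = thetaZ Lam u x := by
  unfold thetaZ
  have : (∃ a l', u a = 1 ∧ l' ∈ Lam ∧ x + l = a + l') ↔ (∃ a l', u a = 1 ∧ l' ∈ Lam ∧ x = a + l') := by
    constructor
    · rintro ⟨a, l', ha, hl', he⟩
      refine ⟨a, l' - l, ha, Lam.sub_mem hl' hl, ?_⟩
      rw [add_sub_assoc', ← he]
      abel
    · rintro ⟨a, l', ha, hl', he⟩
      refine ⟨a, l' + l, ha, Lam.add_mem hl' hl, ?_⟩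
      rw [he]
      abel
  by_cases h : ∃ a l', u a = 1 ∧ l' ∈ Lam ∧ x = a + l'
  · rw [if_pos h, if_pos (this.mpr h)]
  · rw [if_neg h, if_neg (fun h' => h (this.mp h'))]

/-- The mean is the digit pattern times a function. -/
lemma mean_formula {Lam : AddSubgroup G} (m : InvMean Lam) (u : G → ℝ) (hu : ∀ x, u x = 0 ∨ u x = 1)
    (hbd : Bd u) (B : G → ℝ) (hBinv : ∀ l ∈ Lam, ∀ x, B (x + l) = B x)
    (hK : ∀ a, u a = 1 → m.M u a = B a) (x : G) :
    m.M u x = B x * (1 - (thetaZ Lam u x : ℝ)) := by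
  classical
  by_cases h : ∃ a l, u a = 1 ∧ l ∈ Lam ∧ x = a + l
  · obtain ⟨a, l, ha, hl, rfl⟩ := h
    rw [thetaZ_inv Lam u a hl, thetaZ_eq_zero Lam u ha, m.inv u hbd l hl, hK a ha, hBinv l hl]
    simp
  · have h1 : thetaZ Lam u x = 1 := by
      unfold thetaZ
      rw [if_neg h]
    rw [h1]
    simp only [Int.cast_one, sub_self, mul_zero]
    apply m.eq_zero u x hbd
    intro l hl
    rcases hu (x + l) with h0 | h0
    · exact h0
    · exfalso
      apply h
      refine ⟨x + l, -l, h0, Lam.neg_mem hl, ?_⟩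
      abel

end digit

section lsr

variable {ι : Type*}

/-- the local simple structure of a coset -/
def Simple (Lam : ι → AddSubgroup G) (u : G → ℝ) (Q : ℕ) (x : G) : Prop :=
  (∀ g, u (x + Q • g) = u x) ∨ ∃ i, ∀ g, ∀ l ∈ Lam i, u (x + Q • g + Q • l) = u (x + Q • g)

lemma Simple.mul_right {Lam : ι → AddSubgroup G} {u : G → ℝ} {Q : ℕ} {x : G}
    (h : Simple Lam u Q x) (c : ℕ) : Simple Lam u (Q * c) x := by
  rcases h with h | ⟨i, h⟩
  · left
    intro g
    rw [mul_smul]
    exact h _
  · right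
    refine ⟨i, fun g l hl => ?_⟩
    rw [mul_smul, mul_smul]
    exact h _ _ (nsmul_mem hl _)

lemma Simple.of_dvd {Lam : ι → AddSubgroup G} {u : G → ℝ} {Q Q' : ℕ} {x : G}
    (h : Simple Lam u Q x) (hd : Q ∣ Q') : Simple Lam u Q' x := by
  obtain ⟨c, rfl⟩ := hd
  exact h.mul_right c

/-- Combination over the finitely many cosets. -/
lemma combine {Lam : ι → AddSubgroup G} {u : G → ℝ} (Q2 : ℕ) (hfin : Finite (G ⧸ mulSub G Q2))
    (Φ : G → Prop)
    (hloc : ∀ x, Φ x → ∃ Q', 0 < Q' ∧ ∀ g, Simple Lam u Q' (x + Q2 • g)) :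
    ∃ Q'', 0 < Q'' ∧ ∀ x, Φ x → Simple Lam u Q'' x := by
  classical
  haveI := hfin
  letI : Fintype (G ⧸ mulSub G Q2) := Fintype.ofFinite _
  choose! q hq0 hq using hloc
  let P : (G ⧸ mulSub G Q2) → Prop := fun c => ∃ x : G, (x : G ⧸ mulSub G Q2) = c ∧ Φ x
  let qq : (G ⧸ mulSub G Q2) → ℕ := fun c => if h : P c then q h.choose else 1
  have hqq : ∀ c, 0 < qq c := by
    intro c
    simp only [qq]
    split_ifs with h
    · exact hq0 _ h.choose_spec.2
    · exact one_pos
  refine ⟨∏ c, qq c, Finset.prod_pos fun c _ => hqq c, ?_⟩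
  intro x hx
  let c : G ⧸ mulSub G Q2 := (x : G ⧸ mulSub G Q2)
  have hc : P c := ⟨x, rfl, hx⟩
  have hspec := hc.choose_spec
  have hqc : qq c = q hc.choose := by
    simp only [qq]
    rw [dif_pos hc]
  have hmem : -hc.choose + x ∈ mulSub G Q2 := QuotientAddGroup.eq.mp hspec.1
  obtain ⟨g, hg⟩ := (mem_mulSub _ _).mp hmem
  have hxe : x = hc.choose + Q2 • g := by rw [hg]; abel
  have hS := hq _ hspec.2 g
  rw [← hxe, ← hqc] at hS
  exact hS.of_dvd (Finset.dvd_prod_of_mem qq (Finset.mem_univ c))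

variable [Fintype ι] [DecidableEq ι]

/-- The local structure, by induction on the set of active ridges. -/
theorem lsr_aux [AddGroup.FG G] (sys : RidgeSys G ι) (u : G → ℝ) (hu : ∀ x, u x = 0 ∨ u x = 1)
    (B : ι → G → ℝ) (Q0 : ℕ) (hQ0 : 0 < Q0) (hBper : ∀ i, Per Q0 (B i))
    (hNF : ∀ a, u a = 1 → ∀ g, u (a + Q0 • g)
      = 1 - ∑ i, B i a * (thetaZ (sys.Lam i) u (a + Q0 • g) : ℝ))
    (hB0 : ∀ a, u a = 1 → ∀ i, 0 ≤ B i a) :
    ∀ (n : ℕ) (I : Finset ι), I.card = n → ∀ (Q : ℕ) (a : G), 0 < Q → Q0 ∣ Q → u a = 1 →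
      (∀ i, i ∉ I → B i a = 0 ∨ ∀ g, thetaZ (sys.Lam i) u (a + Q • g) = 0) →
      ∃ Q', 0 < Q' ∧ ∀ g, Simple sys.Lam u Q' (a + Q • g) := by
  intro n
  induction n using Nat.strong_induction_on with
  | _ n ih =>
  intro I hcard Q a hQ hdvd ha hI
  have hadd : ∀ g g' : G, a + Q • g + Q • g' = a + Q • (g + g') := by
    intro g g'
    rw [smul_add, add_assoc]
  -- the reduced formula
  have hform : ∀ g, u (a + Q • g) = 1 - ∑ i ∈ I, B i a * (thetaZ (sys.Lam i) u (a + Q • g) : ℝ) := by
    intro g
    obtain ⟨c, rfl⟩ := hdvd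
    have h1 := hNF a ha (c • g)
    rw [← mul_smul] at h1
    rw [h1]
    congr 1
    symm
    apply Finset.sum_subset (Finset.subset_univ I)
    intro i _ hi
    rcases hI i hi with h | h
    · rw [h, zero_mul]
    · rw [h g]
      simp
  by_cases h1 : ∃ i ∈ I, B i a = 0 ∨ ∀ g, thetaZ (sys.Lam i) u (a + Q • g) = 0
  · obtain ⟨i, hi, hi0⟩ := h1
    apply ih (I.erase i).card (by rw [← hcard]; exact Finset.card_erase_lt_of_mem hi) (I.erase i) rfl
      Q a hQ hdvd ha
    intro i' hi'
    by_cases hii : i' = i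
    · subst hii
      exact hi0
    · apply hI
      intro hmem
      exact hi' (Finset.mem_erase.mpr ⟨hii, hmem⟩)
  push Not at h1
  have hBpos : ∀ i ∈ I, 0 < B i a := fun i hi =>
    lt_of_le_of_ne (hB0 a ha i) (h1 i hi).1.symm
  have hθone : ∀ i ∈ I, ∃ g, thetaZ (sys.Lam i) u (a + Q • g) = 1 := by
    intro i hi
    obtain ⟨g, hg⟩ := (h1 i hi).2
    refine ⟨g, ?_⟩
    rcases thetaZ_01 (sys.Lam i) u (a + Q • g) with h | h
    · exact absurd h hg
    · exact h
  -- the invariance of the values of `B` on the coset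
  have hBy : ∀ i y, B i (a + Q • y) = B i a := by
    intro i y
    exact (hBper i).of_dvd hdvd y a
  by_cases hIe : I = ∅
  · subst hIe
    refine ⟨Q, hQ, fun g => Or.inl fun g' => ?_⟩
    rw [hadd, hform, hform]
    simp
  by_cases hsing : ∃ i ∈ I, B i a = 1 ∧ ∀ j ∈ I, j = i
  · obtain ⟨i, hi, hb, huniq⟩ := hsing
    have hIs : I = {i} := by
      ext j
      simp only [Finset.mem_singleton]
      exact ⟨huniq j, fun h => h ▸ hi⟩
    refine ⟨Q, hQ, fun g => Or.inr ⟨i, fun g' l hl => ?_⟩⟩
    have e : a + Q • g + Q • g' + Q • l = a + Q • (g + g' + l) := by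
      rw [smul_add, smul_add]; abel
    have e' : a + Q • g + Q • g' = a + Q • (g + g') := hadd g g'
    rw [e, e', hform, hform, hIs]
    simp only [Finset.sum_singleton, hb]
    have e2 : a + Q • (g + g' + l) = a + Q • (g + g') + Q • l := by
      rw [smul_add Q (g + g') l]; abel
    rw [e2, thetaZ_inv (sys.Lam i) u _ (nsmul_mem hl _)]
  -- one digit vanishes on the cosets of a finer lattice
  have hstar : ∃ Q2, 0 < Q2 ∧ Q ∣ Q2 ∧ ∀ y, u (a + Q • y) = 1 →
      ∃ i ∈ I, ∀ g, thetaZ (sys.Lam i) u (a + Q • y + Q2 • g) = 0 := by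
    by_cases h2 : ∃ i ∈ I, B i a = 1
    · obtain ⟨i, hi, hb⟩ := h2
      have hj : ∃ j ∈ I, j ≠ i := by
        by_contra hcon
        push Not at hcon
        exact hsing ⟨i, hi, hb, hcon⟩
      obtain ⟨j, hj, hji⟩ := hj
      have hij : i ≠ j := hji.symm
      refine ⟨Q * sys.Kp i j, Nat.mul_pos hQ (sys.Kp_pos i j), Dvd.intro _ rfl, fun y hy => ?_⟩
      -- not both digits are active
      by_cases hcase : ∀ g, thetaZ (sys.Lam i) u (a + Q • y + (Q * sys.Kp i j) • g) = 0
      · exact ⟨i, hi, hcase⟩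
      · refine ⟨j, hj, fun g' => ?_⟩
        push Not at hcase
        obtain ⟨g, hg⟩ := hcase
        by_contra hg'
        have hg1 : thetaZ (sys.Lam i) u (a + Q • y + (Q * sys.Kp i j) • g) = 1 :=
          (thetaZ_01 _ _ _).resolve_left hg
        have hg2 : thetaZ (sys.Lam j) u (a + Q • y + (Q * sys.Kp i j) • g') = 1 :=
          (thetaZ_01 _ _ _).resolve_left hg'
        obtain ⟨l, hl, m, hm, he⟩ := sys.Kp_mem i j hij (g - g')
        -- the common point
        let z : G := a + Q • y + (Q * sys.Kp i j) • g - Q • l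
        have hz1 : z = a + Q • (y + sys.Kp i j • g - l) := by
          simp only [z, smul_add, smul_sub, mul_smul]
          abel
        have hz2 : z = a + Q • y + (Q * sys.Kp i j) • g' + Q • m := by
          have : sys.Kp i j • g = sys.Kp i j • g' + (l + m) := by
            rw [← he, smul_sub]; abel
          simp only [z, mul_smul, this, smul_add]
          abel
        have hθi : thetaZ (sys.Lam i) u z = 1 := by
          have : z = a + Q • y + (Q * sys.Kp i j) • g + Q • (-l) := by
            simp only [z, smul_neg]; abel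
          rw [this, thetaZ_inv _ _ _ (nsmul_mem ((sys.Lam i).neg_mem hl) _), hg1]
        have hθj : thetaZ (sys.Lam j) u z = 1 := by
          rw [hz2, thetaZ_inv _ _ _ (nsmul_mem hm _), hg2]
        have hval := hform (y + sys.Kp i j • g - l)
        rw [← hz1] at hval
        have hsum : B i a + B j a ≤ ∑ i' ∈ I, B i' a * (thetaZ (sys.Lam i') u z : ℝ) := by
          have hsub : ({i, j} : Finset ι) ⊆ I := by
            intro x hx
            simp only [Finset.mem_insert, Finset.mem_singleton] at hx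
            rcases hx with rfl | rfl <;> assumption
          calc B i a + B j a = ∑ i' ∈ ({i, j} : Finset ι), B i' a * (thetaZ (sys.Lam i') u z : ℝ) := by
                rw [Finset.sum_pair hij, hθi, hθj]
                simp
            _ ≤ _ := by
                apply Finset.sum_le_sum_of_subset_of_nonneg hsub
                intro k hk _
                apply mul_nonneg (hBpos k hk).le
                rcases thetaZ_01 (sys.Lam k) u z with h | h <;> simp [h]
        have hjpos := hBpos j hj
        rcases hu z with h0 | h0 <;> rw [h0] at hval <;> linarith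
    · push Not at h2
      -- the relation modulo a prime
      have hIne : I.Nonempty := Finset.nonempty_iff_ne_empty.mpr hIe
      obtain ⟨i, hi, π, hπ, c, hc, hrel⟩ := exists_relation (X := G) I hIne (fun i => B i a)
        hBpos h2 (fun i y => thetaZ (sys.Lam i) u (a + Q • y))
        (fun i y => thetaZ_01 _ _ _)
        (by
          intro y
          have := hform y
          rcases hu (a + Q • y) with h0 | h0
          · right
            rw [h0] at this
            linarith
          · left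
            rw [h0] at this
            linarith)
        hθone
      haveI : Fact π.Prime := ⟨hπ⟩
      have hper : IsPer (fun y => ((thetaZ (sys.Lam i) u (a + Q • y) : ℤ) : ZMod π)) := by
        apply modpi_period sys π I i hi
          (fun j y => ((thetaZ (sys.Lam j) u (a + Q • y) : ℤ) : ZMod π))
          (fun j => ((c j : ℤ) : ZMod π))
        · intro h0
          exact hc ((ZMod.intCast_zmod_eq_zero_iff_dvd _ _).mp h0)
        · intro y
          have := (ZMod.intCast_zmod_eq_zero_iff_dvd _ _).mpr (hrel y)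
          push_cast at this
          exact this
        · intro j _ l hl y
          rw [smul_add, ← add_assoc, thetaZ_inv _ _ _ (nsmul_mem hl _)]
      obtain ⟨K, hK, hKper⟩ := hper
      refine ⟨Q * K, Nat.mul_pos hQ hK, Dvd.intro _ rfl, fun y hy => ⟨i, hi, fun g => ?_⟩⟩
      have h3 := hKper g y
      simp only at h3
      have e : a + Q • (y + K • g) = a + Q • y + (Q * K) • g := by
        rw [smul_add, mul_smul]; abel
      rw [e, thetaZ_eq_zero _ _ hy] at h3
      rcases thetaZ_01 (sys.Lam i) u (a + Q • y + (Q * K) • g) with h | h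
      · exact h
      · rw [h] at h3
        simp at h3
  obtain ⟨Q2, hQ2, hQQ2, hs⟩ := hstar
  obtain ⟨Q'', hQ'', hfinal⟩ := combine (Lam := sys.Lam) (u := u) Q2 (finite_quotient_mulSub Q2 hQ2)
    (fun x => ∃ y, x = a + Q • y) (by
      rintro x ⟨y, rfl⟩
      obtain ⟨c2, rfl⟩ := hQQ2
      by_cases hA : ∃ g, u (a + Q • y + (Q * c2) • g) = 1
      · obtain ⟨g1, hg1⟩ := hA
        have e1 : a + Q • y + (Q * c2) • g1 = a + Q • (y + c2 • g1) := by
          rw [smul_add, mul_smul]; abel
        rw [e1] at hg1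
        obtain ⟨i, hi, hi0⟩ := hs _ hg1
        have happly := ih (I.erase i).card (by rw [← hcard]; exact Finset.card_erase_lt_of_mem hi)
          (I.erase i) rfl (Q * c2) (a + Q • (y + c2 • g1)) hQ2 (hdvd.trans (Dvd.intro _ rfl)) hg1 (by
            intro i' hi'
            by_cases hii : i' = i
            · subst hii
              exact Or.inr hi0
            · have hnot : i' ∉ I := fun hmem => hi' (Finset.mem_erase.mpr ⟨hii, hmem⟩)
              rcases hI i' hnot with h | h
              · left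
                rw [hBy, h]
              · right
                intro g
                have e2 : a + Q • (y + c2 • g1) + (Q * c2) • g = a + Q • (y + c2 • g1 + c2 • g) := by
                  rw [smul_add Q (y + c2 • g1) (c2 • g), mul_smul]; abel
                rw [e2]
                exact h _)
        obtain ⟨Q', hQ', hsim⟩ := happly
        refine ⟨Q', hQ', fun g => ?_⟩
        have e3 : a + Q • y + (Q * c2) • g = a + Q • (y + c2 • g1) + (Q * c2) • (g - g1) := by
          simp only [smul_add, smul_sub, mul_smul]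
          abel
        rw [e3]
        exact hsim _
      · push Not at hA
        have hzero : ∀ g, u (a + Q • y + (Q * c2) • g) = 0 := fun g => (hu _).resolve_right (hA g)
        refine ⟨Q * c2, hQ2, fun g => Or.inl fun g' => ?_⟩
        have e4 : a + Q • y + (Q * c2) • g + (Q * c2) • g' = a + Q • y + (Q * c2) • (g + g') := by
          rw [smul_add (Q * c2) g g']; abel
        rw [e4, hzero, hzero])
  refine ⟨Q'', hQ'', fun g => hfinal _ ⟨g, rfl⟩⟩

end lsr

end Vale.Agent.Lib.P043
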