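import Mathlib
import Vale.Agent.Lib.P043.Ridge2

/-!
The core theorem on ridge systems: the two identities produce a periodic tiling.
-/

namespace Vale.Agent.Lib.P043

open AddMonoidAlgebra

variable {G : Type*} [AddCommGroup G] {ι : Type*} [Fintype ι] [DecidableEq ι]

/-- The sums over a dilate are periodic on the pieces of type `i`. -/
theorem piece_sum_periodic (sys : RidgeSys G ι) (F : Finset G) (r : ℕ)
    (u0 : G → ℝ) (v : ι → G → ℝ) (Q : ℕ) (hu0 : Bd u0) (hv : ∀ i, Bd (v i))
    (hu0per : Per Q u0) (hvinv : ∀ i, ∀ l ∈ sys.Lam i, ∀ x, v i (x + Q • l) = v i x)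
    (hsum : ∀ x, ∑ f ∈ F, u0 (x - r • f) + ∑ k, ∑ f ∈ F, v k (x - r • f) = 1) (i : ι) (y x : G) :
    ∑ f ∈ F, v i (x + (Q * ∏ k ∈ Finset.univ.erase i, sys.Kp i k) • y - r • f)
      = ∑ f ∈ F, v i (x - r • f) := by
  classical
  set S := Finset.univ.erase i with hS
  set C := Q * ∏ k ∈ S, sys.Kp i k with hC
  let V : ι → G → ℝ := fun k x => ∑ f ∈ F, v k (x - r • f)
  let U : G → ℝ := fun x => ∑ f ∈ F, u0 (x - r • f)
  have hVbd : ∀ k, Bd (V k) := by
    intro k
    have : V k = ∑ f ∈ F, (fun x => v k (x - r • f)) := by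
      funext x
      simp [V]
    rw [this]
    exact Bd.sum _ _ fun f _ => (hv k).shift _
  have hUV : U + ∑ k, V k = fun _ => 1 := by
    funext x
    have := hsum x
    simpa [U, V] using this
  -- a general element
  set Y := C • (-y) with hY
  have hdec : ∀ k ∈ S, ∃ m l, m ∈ sys.Lam k ∧ l ∈ sys.Lam i ∧ Y = Q • m + Q • l := by
    intro k hk
    have hik : i ≠ k := (Finset.ne_of_mem_erase hk).symm
    obtain ⟨l, hl, m, hm, he⟩ := sys.Kp_mem i k hik (-y)
    have hK : ∏ k' ∈ S, sys.Kp i k' = sys.Kp i k * ∏ k' ∈ S.erase k, sys.Kp i k' :=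
      (Finset.mul_prod_erase S _ hk).symm
    set K' := ∏ k' ∈ S.erase k, sys.Kp i k'
    refine ⟨K' • m, K' • l, nsmul_mem hm _, nsmul_mem hl _, ?_⟩
    rw [hY, hC, hK, mul_comm (sys.Kp i k) K', mul_smul, mul_smul, he, smul_add, smul_add]
    abel
  choose! m l hm hl hYe using hdec
  have hUinv : act (Dl ℝ Y) U = 0 := by
    rw [act_Dl_eq_zero_iff]
    intro x
    simp only [U]
    apply Finset.sum_congr rfl
    intro f _
    have e : x - Y - r • f = x - r • f + C • y := by
      rw [hY]
      simp only [smul_neg, sub_neg_eq_add]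
      abel
    rw [e, hC, mul_smul]
    exact hu0per _ _
  have hVinv : ∀ k (m' : G), m' ∈ sys.Lam k → ∀ x, V k (x - Q • m') = V k x := by
    intro k m' hm' x
    simp only [V]
    apply Finset.sum_congr rfl
    intro f _
    have e : x - Q • m' - r • f = x - r • f + Q • (-m') := by
      simp only [smul_neg]; abel
    rw [e]
    exact hvinv k _ ((sys.Lam k).neg_mem hm') _
  set E := ∏ k ∈ S, Dl ℝ (Q • m k) with hE
  have hz : act (Dl ℝ Y * E) (V i) = 0 := by
    have h1 := congrArg (act (Dl ℝ Y * E)) hUV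
    have h2 : act (Dl ℝ Y * E) (fun _ => (1 : ℝ)) = 0 := by
      rw [mul_comm, act_mul]
      have : act (Dl ℝ Y) (fun _ : G => (1 : ℝ)) = 0 := by
        rw [act_Dl_eq_zero_iff]
        intro _
        rfl
      rw [this, act_zero]
    rw [h2, act_fun_add, act_fun_sum, ← Finset.add_sum_erase _ _ (Finset.mem_univ i)] at h1
    have h3 : act (Dl ℝ Y * E) U = 0 := by
      rw [mul_comm, act_mul, hUinv, act_zero]
    have h4 : ∑ k ∈ Finset.univ.erase i, act (Dl ℝ Y * E) (V k) = 0 := by
      apply Finset.sum_eq_zero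
      intro k hk
      have : act (Dl ℝ (Q • m k)) (V k) = 0 := by
        rw [act_Dl_eq_zero_iff]
        exact hVinv k _ (hm k hk)
      have e : Dl ℝ Y * E = (Dl ℝ Y * ∏ k' ∈ S.erase k, Dl ℝ (Q • m k')) * Dl ℝ (Q • m k) := by
        rw [hE, ← Finset.mul_prod_erase S _ hk]
        ring
      rw [e, act_mul, this, act_zero]
    rw [h3, h4] at h1
    simpa using h1
  have hred : act (Dl ℝ Y ^ S.card) (act (Dl ℝ Y) (V i)) = 0 := by
    apply pow_Dl_ann (act (Dl ℝ Y) (V i)) S (fun k => Q • m k) Y
    · intro k hk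
      refine ⟨1, Q • l k, by rw [one_smul]; exact hYe k hk, ?_⟩
      apply act_inv
      exact hVinv i _ (hl k hk)
    · rw [← act_mul, mul_comm]
      exact hz
  have hfin : act (Dl ℝ Y) (V i) = 0 := by
    apply act_Dl_of_pow Y (S.card + 1) (Nat.succ_pos _) (V i) (hVbd i)
    rw [pow_succ, act_mul]
    exact hred
  have := (act_Dl_eq_zero_iff _ _).mp hfin x
  rw [hY] at this
  simp only [smul_neg, sub_neg_eq_add] at this
  exact this

/-- Assignment of a type to each coset. -/
theorem exists_type [AddGroup.FG G] (Lam : ι → AddSubgroup G) (u : G → ℝ) (Q : ℕ) (hQ : 0 < Q)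
    (hs : ∀ x, Simple Lam u Q x) :
    ∃ τ : G → Option ι, (∀ x g, τ (x + Q • g) = τ x) ∧ (∀ x, τ x = none → ∀ g, u (x + Q • g) = u x) ∧
      (∀ x i, τ x = some i → ∀ l ∈ Lam i, u (x + Q • l) = u x) := by
  classical
  let rep : G ⧸ mulSub G Q → G := fun c => Quotient.out c
  have hrep : ∀ x : G, ∃ g, x = rep (x : G ⧸ mulSub G Q) + Q • g := by
    intro x
    have h1 : ((rep (x : G ⧸ mulSub G Q) : G) : G ⧸ mulSub G Q) = (x : G ⧸ mulSub G Q) :=
      QuotientAddGroup.out_eq' _
    have h2 := QuotientAddGroup.eq.mp h1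
    obtain ⟨g, hg⟩ := (mem_mulSub _ _).mp h2
    exact ⟨g, by rw [hg]; abel⟩
  have hcl : ∀ c : G ⧸ mulSub G Q, ∃ t : Option ι,
      (t = none → ∀ g, u (rep c + Q • g) = u (rep c)) ∧
      (∀ i, t = some i → ∀ g, ∀ l ∈ Lam i, u (rep c + Q • g + Q • l) = u (rep c + Q • g)) := by
    intro c
    rcases hs (rep c) with h | ⟨i, h⟩
    · exact ⟨none, fun _ => h, fun i hi => absurd hi (by simp)⟩
    · refine ⟨some i, fun h0 => absurd h0 (by simp), fun j hj => ?_⟩
      have : j = i := (Option.some.inj hj).symm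
      subst this
      exact h
  choose t ht1 ht2 using hcl
  refine ⟨fun x => t (x : G ⧸ mulSub G Q), ?_, ?_, ?_⟩
  · intro x g
    show t _ = t _
    congr 1
    apply QuotientAddGroup.eq.mpr
    rw [mem_mulSub]
    refine ⟨-g, ?_⟩
    rw [smul_neg]
    abel
  · intro x hx g
    simp only at hx
    obtain ⟨g0, hg0⟩ := hrep x
    have h1 := ht1 _ hx
    have e : x + Q • g = rep (x : G ⧸ mulSub G Q) + Q • (g0 + g) := by
      rw [smul_add, ← add_assoc, ← hg0]
    rw [e, h1]
    nth_rewrite 2 [hg0]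
    rw [h1]
  · intro x i hx l hl
    simp only at hx
    obtain ⟨g0, hg0⟩ := hrep x
    have h1 := ht2 _ i hx g0 l hl
    rw [← hg0] at h1
    exact h1

/-- The core theorem. -/
theorem ridge_core' [AddGroup.FG G] (sys : RidgeSys G ι) (mm : ∀ i, InvMean (sys.Lam i)) (F : Finset G)
    (u : G → ℝ) (hu : ∀ x, u x = 0 ∨ u x = 1)
    (hP : ∀ r : ℕ, Nat.Coprime r F.card → ∀ x, ∑ f ∈ F, u (x - r • f) = 1)
    (hdecomp : IsPer (u - ∑ i, (mm i).M u))
    (B : ι → G → ℝ) (hBper : ∀ i, IsPer (B i)) (hBinv : ∀ i, ∀ l ∈ sys.Lam i, ∀ x, B i (x + l) = B i x)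
    (hK : ∀ i a, u a = 1 → (mm i).M u a = B i a) :
    ∃ u' : G → ℝ, (∀ x, u' x = 0 ∨ u' x = 1) ∧ (∀ x, ∑ f ∈ F, u' (x - f) = 1) ∧ IsPer u' := by
  classical
  have hbd : Bd u := ⟨1, fun x => by rcases hu x with h | h <;> simp [h]⟩
  have hFpos : 0 < F.card := by
    rcases Nat.eq_zero_or_pos F.card with h | h
    · have hF : F = ∅ := Finset.card_eq_zero.mp h
      have := hP 1 (by simp [h]) 0
      rw [hF] at this
      simp at this
    · exact h
  -- the normal form
  obtain ⟨K1, hK1, hR⟩ := hdecomp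
  obtain ⟨K2, hK2, hBc⟩ := exists_common_per Finset.univ B (fun i _ => hBper i)
  set Q0 := K1 * K2 with hQ0
  have hQ0pos : 0 < Q0 := Nat.mul_pos hK1 hK2
  have hBper0 : ∀ i, Per Q0 (B i) := fun i =>
    (hBc i (Finset.mem_univ i)).of_dvd (Dvd.intro_left K1 rfl)
  have hRper0 : Per Q0 (u - ∑ i, (mm i).M u) := hR.mul_right K2
  have hmean : ∀ i x, (mm i).M u x = B i x * (1 - (thetaZ (sys.Lam i) u x : ℝ)) := fun i x =>
    mean_formula (mm i) u hu hbd (B i) (hBinv i) (hK i) x
  have hNF : ∀ a, u a = 1 → ∀ g, u (a + Q0 • g)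
      = 1 - ∑ i, B i a * (thetaZ (sys.Lam i) u (a + Q0 • g) : ℝ) := by
    intro a ha g
    have h1 := hRper0 g a
    simp only [Pi.sub_apply, Finset.sum_apply] at h1
    have h2 : ∑ i, (mm i).M u (a + Q0 • g)
        = ∑ i, B i a * (1 - (thetaZ (sys.Lam i) u (a + Q0 • g) : ℝ)) := by
      apply Finset.sum_congr rfl
      intro i _
      rw [hmean, hBper0 i g a]
    have h3 : ∑ i, (mm i).M u a = ∑ i, B i a := by
      apply Finset.sum_congr rfl
      intro i _
      rw [hK i a ha]
    rw [h2, h3, ha] at h1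
    have h4 : ∑ i, B i a * (1 - (thetaZ (sys.Lam i) u (a + Q0 • g) : ℝ))
        = ∑ i, B i a - ∑ i, B i a * (thetaZ (sys.Lam i) u (a + Q0 • g) : ℝ) := by
      rw [← Finset.sum_sub_distrib]
      apply Finset.sum_congr rfl
      intro i _
      ring
    rw [h4] at h1
    linarith
  have hB0 : ∀ a, u a = 1 → ∀ i, 0 ≤ B i a := by
    intro a ha i
    rw [← hK i a ha]
    exact (mm i).nonneg u hbd (fun x => by rcases hu x with h | h <;> simp [h]) a
  -- the local structure
  obtain ⟨Q, hQ, hsimple⟩ : ∃ Q, 0 < Q ∧ ∀ x, Simple sys.Lam u Q x := by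
    obtain ⟨Q'', hQ'', h⟩ := combine (Lam := sys.Lam) (u := u) Q0 (finite_quotient_mulSub Q0 hQ0pos)
      (fun _ => True) (by
        intro x _
        by_cases hA : ∃ g, u (x + Q0 • g) = 1
        · obtain ⟨g1, hg1⟩ := hA
          obtain ⟨Q', hQ', hs⟩ := lsr_aux sys u hu B Q0 hQ0pos hBper0 hNF hB0 _ Finset.univ rfl Q0 _
            hQ0pos (dvd_refl _) hg1 (fun i hi => absurd (Finset.mem_univ i) hi)
          refine ⟨Q', hQ', fun g => ?_⟩
          have e : x + Q0 • g = x + Q0 • g1 + Q0 • (g - g1) := by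
            rw [smul_sub]; abel
          rw [e]
          exact hs _
        · push Not at hA
          have hzero : ∀ g, u (x + Q0 • g) = 0 := fun g => (hu _).resolve_right (hA g)
          refine ⟨Q0, hQ0pos, fun g => Or.inl fun g' => ?_⟩
          have e4 : x + Q0 • g + Q0 • g' = x + Q0 • (g + g') := by
            rw [smul_add Q0 g g']; abel
          rw [e4, hzero, hzero])
    exact ⟨Q'', hQ'', fun x => h x trivial⟩
  -- the types
  obtain ⟨τ, hτ, hτ0, hτi⟩ := exists_type sys.Lam u Q hQ hsimple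
  let v : ι → G → ℝ := fun i x => if τ x = some i then u x else 0
  let u0 : G → ℝ := fun x => if τ x = none then u x else 0
  have hdec : ∀ x, u x = u0 x + ∑ i, v i x := by
    intro x
    simp only [u0, v]
    cases hx : τ x with
    | none => simp
    | some j =>
      simp only [reduceCtorEq, if_false, zero_add, Option.some.injEq]
      rw [Finset.sum_eq_single j]
      · simp
      · intro b _ hb
        rw [if_neg (fun h => hb h.symm)]
      · intro h
        exact absurd (Finset.mem_univ j) h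
  have hu0bd : Bd u0 := ⟨1, fun x => by
    simp only [u0]
    split_ifs
    · rcases hu x with h | h <;> simp [h]
    · simp⟩
  have hvbd : ∀ i, Bd (v i) := fun i => ⟨1, fun x => by
    simp only [v]
    split_ifs
    · rcases hu x with h | h <;> simp [h]
    · simp⟩
  have hu0per : Per Q u0 := by
    intro g x
    simp only [u0]
    rw [hτ]
    split_ifs with h
    · exact hτ0 x h g
    · rfl
  have hvinv : ∀ i, ∀ l ∈ sys.Lam i, ∀ x, v i (x + Q • l) = v i x := by
    intro i l hl x
    simp only [v]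
    rw [hτ]
    split_ifs with h
    · exact hτi x i h l hl
    · rfl
  -- the level sums
  have hlevel : ∀ i (t : ℤ), IsPer (fun x => ∑ f ∈ F.filter (fun f => sys.ell i f = t), v i (x - f)) := by
    intro i t
    have := level_periodic (sys.ell i) (sys.Lam i) (sys.Kk i) (sys.Kk_mem i) F (v i) (hvbd i) Q hQ
      (sys.Kk_pos i) (hvinv i) 1 one_pos (Q * sys.Kk i * F.card)
      (Nat.mul_pos (Nat.mul_pos hQ (sys.Kk_pos i)) hFpos) (Dvd.intro _ rfl)
      (Q * ∏ k ∈ Finset.univ.erase i, sys.Kp i k)
      (Nat.mul_pos hQ (Finset.prod_pos fun k _ => sys.Kp_pos i k)) (by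
        intro j y x
        apply piece_sum_periodic sys F _ u0 v Q hu0bd hvbd hu0per hvinv
        intro x
        have hc : Nat.Coprime (1 * (1 + j * (Q * sys.Kk i * F.card))) F.card := by
          rw [one_mul]
          have : 1 + j * (Q * sys.Kk i * F.card) = 1 + (j * (Q * sys.Kk i)) * F.card := by ring
          rw [this]
          simp
        have h1 := hP _ hc x
        rw [← h1, ← Finset.sum_comm, ← Finset.sum_add_distrib]
        apply Finset.sum_congr rfl
        intro f _
        rw [hdec (x - _ • f)]) t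
    simpa only [one_smul] using this
  -- a common period of the level sums
  have hcommon : ∀ i, ∃ K, 0 < K ∧ ∀ t ∈ F.image (sys.ell i),
      Per K (fun x => ∑ f ∈ F.filter (fun f => sys.ell i f = t), v i (x - f)) := fun i =>
    exists_common_per (F.image (sys.ell i)) _ (fun t _ => hlevel i t)
  choose KL hKL hKLper using hcommon
  set Ks := Q * ∏ i, KL i with hKs
  have hKspos : 0 < Ks := Nat.mul_pos hQ (Finset.prod_pos fun i _ => hKL i)
  have hKLdvd : ∀ i, KL i ∣ Ks := fun i =>
    (Finset.dvd_prod_of_mem KL (Finset.mem_univ i)).trans (Dvd.intro_left Q rfl)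
  choose y hy using sys.ell_ne
  let μ : ι → G := fun i => Ks • y i
  let α : ι → ℤ := fun i => sys.ell i (μ i)
  have hα : ∀ i, α i ≠ 0 := by
    intro i
    simp only [α, μ, map_nsmul, nsmul_eq_mul]
    exact mul_ne_zero (by exact_mod_cast hKspos.ne') (hy i)
  let kk : ι → G → ℤ := fun i x => sys.ell i x / α i
  -- the shift stays in the coset
  have hτμ : ∀ i (k : ℤ) x, τ (x - k • μ i) = τ x := by
    intro i k x
    have e0 : k • μ i = Q • ((∏ i, KL i) • (k • y i)) := by
      simp only [μ, hKs]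
      rw [mul_smul, smul_comm k Q, smul_comm k (∏ i, KL i)]
    have e : x - k • μ i = x + Q • ((∏ i, KL i) • (-(k • y i))) := by
      rw [e0, smul_neg, smul_neg, sub_eq_add_neg]
    rw [e, hτ]
  let v' : ι → G → ℝ := fun i x => v i (x - kk i x • μ i)
  let u' : G → ℝ := fun x => u0 x + ∑ i, v' i x
  refine ⟨u', ?_, ?_, ?_⟩
  · -- values
    intro x
    simp only [u', v', v, u0, hτμ]
    cases hx : τ x with
    | none =>
      simp only [reduceCtorEq, if_false, if_true, Finset.sum_const_zero, add_zero]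
      exact hu x
    | some j =>
      simp only [reduceCtorEq, if_false, zero_add, Option.some.injEq]
      rw [Finset.sum_eq_single j]
      · simp only [if_true]
        exact hu _
      · intro b _ hb
        rw [if_neg (fun h => hb h.symm)]
      · intro h
        exact absurd (Finset.mem_univ j) h
  · -- the tile identity
    have hsum_i : ∀ i x, ∑ f ∈ F, v' i (x - f) = ∑ f ∈ F, v i (x - f) := by
      intro i x
      rw [← Finset.sum_fiberwise_of_maps_to (s := F) (t := F.image (sys.ell i)) (g := sys.ell i)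
        (fun f hf => Finset.mem_image_of_mem _ hf) (fun f => v' i (x - f)),
        ← Finset.sum_fiberwise_of_maps_to (s := F) (t := F.image (sys.ell i)) (g := sys.ell i)
        (fun f hf => Finset.mem_image_of_mem _ hf) (fun f => v i (x - f))]
      apply Finset.sum_congr rfl
      intro t ht
      set k : ℤ := (sys.ell i x - t) / α i with hk
      have h1 : ∀ f ∈ F.filter (fun f => sys.ell i f = t), v' i (x - f) = v i (x - k • μ i - f) := by
        intro f hf
        have hft := (Finset.mem_filter.mp hf).2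
        simp only [v', kk]
        rw [map_sub, hft]
        congr 1
        abel
      rw [Finset.sum_congr rfl h1]
      obtain ⟨c', hc'⟩ := hKLdvd i
      have h2 := hKLper i t ht (c' • (-(k • y i))) x
      simp only at h2
      have e : x + KL i • c' • (-(k • y i)) = x - k • μ i := by
        simp only [μ]
        rw [hc', mul_smul, smul_comm k (KL i), smul_comm k c', smul_neg, smul_neg, sub_eq_add_neg]
      rw [e] at h2
      exact h2
    intro x
    have h1 := hP 1 (by simp) x
    simp only [one_smul] at h1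
    rw [← h1]
    simp only [u']
    rw [Finset.sum_add_distrib, Finset.sum_comm, Finset.sum_congr rfl (fun i _ => hsum_i i x),
      Finset.sum_comm, ← Finset.sum_add_distrib]
    apply Finset.sum_congr rfl
    intro f _
    rw [hdec (x - f)]
  · -- periodicity
    have hv'1 : ∀ i, ∀ l ∈ sys.Lam i, ∀ x, v' i (x + Q • l) = v' i x := by
      intro i l hl x
      simp only [v', kk]
      have : sys.ell i (x + Q • l) = sys.ell i x := by
        rw [map_add, map_nsmul, sys.ell_Lam i l hl]
        simp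
      rw [this]
      have e : x + Q • l - (sys.ell i x / α i) • μ i = x - (sys.ell i x / α i) • μ i + Q • l := by abel
      rw [e, hvinv i l hl]
    have hv'2 : ∀ i (m : ℤ) x, v' i (x + m • μ i) = v' i x := by
      intro i m x
      simp only [v', kk]
      have : sys.ell i (x + m • μ i) = sys.ell i x + m * α i := by
        rw [map_add, map_zsmul, smul_eq_mul]
      rw [this, Int.add_mul_ediv_right _ _ (hα i), add_smul]
      congr 1
      abel
    have hper : ∀ i, IsPer (v' i) := by
      intro i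
      let D : ℤ := (Q : ℤ) * (sys.Kk i : ℤ) * α i
      have hD : D ≠ 0 := by
        have h1 : (Q : ℤ) ≠ 0 := by exact_mod_cast hQ.ne'
        have h2 : (sys.Kk i : ℤ) ≠ 0 := by exact_mod_cast (sys.Kk_pos i).ne'
        exact mul_ne_zero (mul_ne_zero h1 h2) (hα i)
      refine ⟨D.natAbs, Int.natAbs_pos.mpr hD, Per.of_zsmul D ?_⟩
      intro g x
      have hz : sys.ell i (α i • g - (sys.ell i g) • μ i) = 0 := by
        simp only [map_sub, map_zsmul, smul_eq_mul, α]
        ring
      have hl := sys.Kk_mem i _ hz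
      set l := sys.Kk i • (α i • g - (sys.ell i g) • μ i) with hldef
      have e : D • g = Q • l + ((Q : ℤ) * (sys.Kk i : ℤ) * sys.ell i g) • μ i := by
        simp only [hldef, D]
        have key : ∀ (q k al be : ℤ) (y h : G), (q * k * al) • y
            = q • k • (al • y - be • h) + (q * k * be) • h := by
          intro q k al be y h
          simp only [smul_sub, smul_smul]
          rw [show q * (k * al) = q * k * al by ring, show q * (k * be) = q * k * be by ring]
          abel
        have := key Q (sys.Kk i) (α i) (sys.ell i g) g (μ i)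
        simpa only [natCast_zsmul] using this
      have e2 : x + D • g = x + ((Q : ℤ) * (sys.Kk i : ℤ) * sys.ell i g) • μ i + Q • l := by
        rw [e]; abel
      rw [e2, hv'1 i l hl, hv'2]
    have h0 : IsPer u0 := ⟨Q, hQ, hu0per⟩
    have h1 : IsPer (∑ i, v' i) := IsPer.sum _ _ fun i _ => hper i
    have := h0.add h1
    have e : u' = u0 + ∑ i, v' i := by
      funext x
      simp [u']
    rw [e]
    exact this

/-- The core theorem, from the cube identity. -/
theorem ridge_core [AddGroup.FG G] (sys : RidgeSys G ι) (mm : ∀ i, InvMean (sys.Lam i)) (F : Finset G)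
    (u : G → ℝ) (hu : ∀ x, u x = 0 ∨ u x = 1)
    (hP : ∀ r : ℕ, Nat.Coprime r F.card → ∀ x, ∑ f ∈ F, u (x - r • f) = 1)
    (hcube : ∀ d : ι → G, (∀ i, d i ∈ sys.Lam i) → act (∏ i, Dl ℝ (d i)) u = 0)
    (B : ι → G → ℝ) (hBper : ∀ i, IsPer (B i)) (hBinv : ∀ i, ∀ l ∈ sys.Lam i, ∀ x, B i (x + l) = B i x)
    (hK : ∀ i a, u a = 1 → (mm i).M u a = B i a) :
    ∃ u' : G → ℝ, (∀ x, u' x = 0 ∨ u' x = 1) ∧ (∀ x, ∑ f ∈ F, u' (x - f) = 1) ∧ IsPer u' := by
  have hbd : Bd u := ⟨1, fun x => by rcases hu x with h | h <;> simp [h]⟩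
  exact ridge_core' sys mm F u hu hP (decomp sys mm Finset.univ u hbd hcube) B hBper hBinv hK

end Vale.Agent.Lib.P043
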