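import Mathlib
import Vale.Agent.Lib.P043.Ridge3

/-!
General lemmas for tilings with dilation identities: means of tilings, level sums, packing,
lines without points of the tiling, merging of differences.
-/

namespace Vale.Agent.Lib.P043

open AddMonoidAlgebra

variable {G : Type*} [AddCommGroup G]

section gen
set_option linter.unusedSectionVars false
variable (F : Finset G) (u : G → ℝ) (hu : ∀ x, u x = 0 ∨ u x = 1)
  (hP : ∀ r : ℕ, Nat.Coprime r F.card → ∀ x, ∑ f ∈ F, u (x - r • f) = 1)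

include hu in
lemma bd_of_01 : Bd u := ⟨1, fun x => by rcases hu x with h | h <;> simp [h]⟩

include hu hP in
/-- A mean of a tiling satisfies the dilation identities. -/
lemma mean_P {Lam : AddSubgroup G} (m : InvMean Lam) (r : ℕ) (hr : Nat.Coprime r F.card) (x : G) :
    ∑ f ∈ F, m.M u (x - r • f) = 1 := by
  have hbd : Bd u := bd_of_01 u hu
  have h1 : (∑ f ∈ F, fun y => u (y - r • f)) = fun _ => (1 : ℝ) := by
    funext y
    simpa using hP r hr y
  have h2 := congrArg m.M h1
  rw [m.map_sum _ _ (fun f _ => hbd.shift _), m.const] at h2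
  have h3 : ∀ f ∈ F, m.M (fun y => u (y - r • f)) = fun y => m.M u (y - r • f) :=
    fun f _ => m.map_shift _ _ hbd
  rw [Finset.sum_congr rfl h3] at h2
  have := congrFun h2 x
  simpa using this

include hu hP in
/-- The level sums of a mean are periodic. -/
theorem mean_level_per {Lam : AddSubgroup G} (m : InvMean Lam) (ell : G →+ ℤ) (Kk : ℕ) (hKk0 : 0 < Kk)
    (hKk : ∀ g, ell g = 0 → Kk • g ∈ Lam) (r0 : ℕ) (hr0 : 0 < r0) (hcop : Nat.Coprime r0 F.card)
    (t : ℤ) : IsPer (fun x => ∑ f ∈ F.filter (fun f => ell f = t), m.M u (x - r0 • f)) := by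
  have hbd : Bd u := bd_of_01 u hu
  have hFpos : 0 < F.card := by
    rcases Nat.eq_zero_or_pos F.card with h | h
    · have hF : F = ∅ := Finset.card_eq_zero.mp h
      have := hP 1 (by simp [h]) 0
      rw [hF] at this
      simp at this
    · exact h
  have hcr : ∀ j : ℕ, Nat.Coprime (r0 * (1 + j * (1 * Kk * F.card))) F.card := by
    intro j
    apply Nat.Coprime.mul_left hcop
    have : 1 + j * (1 * Kk * F.card) = 1 + (j * Kk) * F.card := by ring
    rw [this]
    simp
  apply level_periodic ell Lam Kk hKk F (m.M u) (m.bd hbd) 1 one_pos hKk0 _ r0 hr0 (1 * Kk * F.card)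
    (Nat.mul_pos (Nat.mul_pos one_pos hKk0) hFpos) (Dvd.intro _ rfl) 1 one_pos
  · intro j y x
    have h1 := mean_P F u hu hP m _ (hcr j) x
    have h2 := mean_P F u hu hP m _ (hcr j) (x + 1 • y)
    rw [h1, h2]
  · intro l hl x
    rw [one_smul]
    exact m.inv u hbd l hl x

include hu hP in
/-- Packing: translates of a dilate do not overlap. -/
lemma packing_nat {a f f0 : G} (ha : u a = 1) (hf : f ∈ F) (hf0 : f0 ∈ F) (hne : f ≠ f0)
    (r : ℕ) (hr : Nat.Coprime r F.card) : u (a + r • (f0 - f)) = 0 := by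
  classical
  have h1 := hP r hr (a + r • f0)
  have hnn : ∀ x, 0 ≤ u x := fun x => by rcases hu x with h | h <;> simp [h]
  have h2 : u (a + r • f0 - r • f0) + u (a + r • f0 - r • f) ≤ ∑ f' ∈ F, u (a + r • f0 - r • f') := by
    have hsub : ({f0, f} : Finset G) ⊆ F := by
      intro x hx
      simp only [Finset.mem_insert, Finset.mem_singleton] at hx
      rcases hx with rfl | rfl <;> assumption
    have := Finset.sum_le_sum_of_subset_of_nonneg (f := fun f' => u (a + r • f0 - r • f')) hsub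
      (fun i _ _ => hnn _)
    rwa [Finset.sum_pair (Ne.symm hne)] at this
  rw [h1] at h2
  have e1 : a + r • f0 - r • f0 = a := by abel
  have e2 : a + r • f0 - r • f = a + r • (f0 - f) := by rw [smul_sub]; abel
  rw [e1, e2, ha] at h2
  have h3 := hnn (a + r • (f0 - f))
  linarith

include hu hP in
/-- Packing with integer dilations. -/
lemma packing_int {a f f0 : G} (ha : u a = 1) (hf : f ∈ F) (hf0 : f0 ∈ F) (hne : f ≠ f0)
    (s : ℤ) (hs : IsCoprime s (F.card : ℤ)) : u (a + s • (f0 - f)) = 0 := by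
  obtain ⟨n, rfl | rfl⟩ := s.eq_nat_or_neg
  · have hc : Nat.Coprime n F.card := Nat.isCoprime_iff_coprime.mp hs
    simpa using packing_nat F u hu hP ha hf hf0 hne n hc
  · have hc : Nat.Coprime n F.card := Nat.isCoprime_iff_coprime.mp ((IsCoprime.neg_left_iff _ _).mp hs)
    have := packing_nat F u hu hP ha hf0 hf hne.symm n hc
    have e : -(n : ℤ) • (f0 - f) = n • (f - f0) := by
      rw [neg_smul, natCast_zsmul, ← smul_neg, neg_sub]
    rw [e]
    exact this

include hu hP in
/-- A mean vanishes on lines avoiding the tiling. -/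
lemma mean_dead {Lam : AddSubgroup G} (m : InvMean Lam) {a f f0 : G} (ha : u a = 1) (hf : f ∈ F)
    (hf0 : f0 ∈ F) (hne : f ≠ f0) (hl : ∀ l ∈ Lam, ∃ κ : ℤ, l = (κ * (F.card : ℤ)) • (f0 - f))
    (r : ℕ) (hr : Nat.Coprime r F.card) : m.M u (a + r • (f0 - f)) = 0 := by
  apply m.eq_zero u _ (bd_of_01 u hu)
  intro l hlm
  obtain ⟨κ, rfl⟩ := hl l hlm
  have e : a + r • (f0 - f) + (κ * (F.card : ℤ)) • (f0 - f)
      = a + ((r : ℤ) + κ * (F.card : ℤ)) • (f0 - f) := by
    rw [add_smul, natCast_zsmul, add_assoc]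
  rw [e]
  apply packing_int F u hu hP ha hf hf0 hne
  have hcop : IsCoprime (r : ℤ) (F.card : ℤ) := Nat.isCoprime_iff_coprime.mpr hr
  have := hcop.add_mul_right_left κ
  exact this

end gen

section merge

/-- Exponents of difference elements can be reduced on bounded functions. -/
theorem reduce_exponents {τ : Type*} [DecidableEq τ] (dd : τ → G) (R : Finset τ) (c : τ → ℕ) :
    ∀ u : G → ℝ, Bd u → act (∏ i ∈ R, Dl ℝ (dd i) ^ c i) u = 0 → act (∏ i ∈ R, Dl ℝ (dd i)) u = 0 := by
  induction R using Finset.induction_on with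
  | empty =>
    intro u _ hz
    simpa using hz
  | insert a R ha ih =>
    intro u hu hz
    rw [Finset.prod_insert ha] at hz ⊢
    rw [act_mul] at hz
    set e := ∏ i ∈ R, Dl ℝ (dd i) ^ c i with he
    have h1 : act (Dl ℝ (dd a)) (act e u) = 0 := by
      rcases Nat.eq_zero_or_pos (c a) with h0 | h0
      · rw [h0, pow_zero, act_one] at hz
        rw [hz, act_zero]
      · exact act_Dl_of_pow _ _ h0 _ (hu.act e) hz
    rw [act_comm] at h1
    have h2 := ih (act (Dl ℝ (dd a)) u) (hu.act _) h1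
    rw [mul_comm, act_mul]
    exact h2

/-- Merging of parallel differences. -/
theorem merge_diff {σ τ : Type*} [DecidableEq σ] [DecidableEq τ] (u : G → ℝ) (hu : Bd u) (W : Finset σ)
    (h : σ → G) (R : Finset τ) (dd : τ → G)
    (hmap : ∀ w ∈ W, ∃ i ∈ R, ∃ m : ℤ, dd i = m • h w)
    (hz : act (∏ w ∈ W, Dl ℝ (h w)) u = 0) : act (∏ i ∈ R, Dl ℝ (dd i)) u = 0 := by
  by_cases hW : W.Nonempty
  swap
  · rw [Finset.not_nonempty_iff_eq_empty] at hW
    subst hW
    simp only [Finset.prod_empty] at hz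
    rw [act_one] at hz
    rw [hz, act_zero]
  haveI : Nonempty τ := by
    obtain ⟨w, hw⟩ := hW
    obtain ⟨i, _, _⟩ := hmap w hw
    exact ⟨i⟩
  choose! φ hφ m hm using hmap
  -- divisibility of the product over `W`
  have hdvd : ∀ w ∈ W, ∃ e, Dl ℝ (dd (φ w)) = e * Dl ℝ (h w) := by
    intro w hw
    rw [hm w hw]
    exact Dl_dvd_zsmul _ _
  choose! e he using hdvd
  have h1 : act (∏ w ∈ W, Dl ℝ (dd (φ w))) u = 0 := by
    have : ∏ w ∈ W, Dl ℝ (dd (φ w)) = (∏ w ∈ W, e w) * ∏ w ∈ W, Dl ℝ (h w) := by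
      rw [← Finset.prod_mul_distrib]
      exact Finset.prod_congr rfl he
    rw [this, act_mul, hz, act_zero]
  have h2 : ∏ w ∈ W, Dl ℝ (dd (φ w)) = ∏ i ∈ R, Dl ℝ (dd i) ^ (W.filter (fun w => φ w = i)).card := by
    rw [← Finset.prod_fiberwise_of_maps_to (s := W) (t := R) (g := φ) hφ]
    apply Finset.prod_congr rfl
    intro i _
    rw [← Finset.prod_const]
    apply Finset.prod_congr rfl
    intro w hw
    rw [(Finset.mem_filter.mp hw).2]
  rw [h2] at h1
  exact reduce_exponents dd R _ u hu h1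

end merge

section vc
variable {k : Type*} [CommRing k]

/-- The Vandermonde elimination with a constant on the right. -/
theorem vander_const {τ : Type*} [DecidableEq τ] (T : Finset τ) (s : τ → AddMonoidAlgebra k G)
    (w : τ → G → k) (t0 t1 : τ) (ht0 : t0 ∈ T) (ht1 : t1 ∈ T) (hne : t1 ≠ t0) (c : G → k)
    (hc : ∀ t, act (s t) c = c)
    (hz : ∀ j : ℕ, ∑ t ∈ T, act (s t ^ j) (w t) = c) :
    act (∏ t ∈ T.erase t0, (s t0 - s t)) (w t0) = 0 := by
  let w' : τ → G → k := fun t => act (s t - s t1) (w t)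
  have hz' : ∀ j : ℕ, ∑ t ∈ T.erase t1, act (s t ^ j) (w' t) = 0 := by
    intro j
    have h1 : ∀ t, act (s t ^ j) (w' t) = act (s t ^ (j + 1)) (w t)
        - act (s t1) (act (s t ^ j) (w t)) := by
      intro t
      simp only [w']
      rw [← act_mul, ← act_mul]
      have e : s t ^ j * (s t - s t1) = s t ^ (j + 1) - s t1 * s t ^ j := by ring
      rw [e, map_sub]
      rfl
    have h2 : act (s t1 ^ j) (w' t1) = 0 := by
      simp only [w']
      rw [sub_self, map_zero]
      simp
    have h3 : ∑ t ∈ T.erase t1, act (s t ^ j) (w' t) = ∑ t ∈ T, act (s t ^ j) (w' t) := by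
      rw [← Finset.add_sum_erase T _ ht1, h2, zero_add]
    rw [h3]
    simp only [h1]
    rw [Finset.sum_sub_distrib, hz (j + 1), ← map_sum, hz j, hc, sub_self]
  have h0 : t0 ∈ T.erase t1 := Finset.mem_erase.mpr ⟨hne.symm, ht0⟩
  have := vander (T.erase t1) s w' t0 h0 hz'
  have e1 : T.erase t0 = insert t1 ((T.erase t1).erase t0) := by
    ext x
    simp only [Finset.mem_erase, Finset.mem_insert]
    constructor
    · rintro ⟨h1, h2⟩
      by_cases hx : x = t1
      · exact Or.inl hx
      · exact Or.inr ⟨h1, hx, h2⟩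
    · rintro (h1 | ⟨h1, h2, h3⟩)
      · subst h1; exact ⟨hne, ht1⟩
      · exact ⟨h1, h3⟩
  have hnot : t1 ∉ (T.erase t1).erase t0 := by simp
  rw [e1, Finset.prod_insert hnot, mul_comm, act_mul]
  exact this

end vc

end Vale.Agent.Lib.P043
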