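import Mathlib
import Vale.Agent.Lib.P043.Ridge1
import Vale.Agent.Lib.P043.Nice
import Vale.Agent.Lib.P043.Periodic

/-!
Translation between tilings `A ⊕ F = G` and `{0,1}`-valued functions with dilation identities.
-/

namespace Vale.Agent.Lib.P043

variable {G : Type*} [AddCommGroup G]

/-- From a `{0,1}`-valued solution to one with all dilation identities. -/
theorem exists_dilated_fun (F : Finset G) (u0 : G → ℝ) (hu0 : ∀ x, u0 x = 0 ∨ u0 x = 1)
    (hs : ∀ x, ∑ f ∈ F, u0 (x - f) = 1) :
    ∃ u : G → ℝ, (∀ x, u x = 0 ∨ u x = 1) ∧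
      (∀ r : ℕ, Nat.Coprime r F.card → ∀ x, ∑ f ∈ F, u (x - r • f) = 1) := by
  classical
  by_cases hcard : F.card = 1
  · refine ⟨fun _ => 1, fun _ => Or.inr rfl, fun r _ x => ?_⟩
    simp [hcard]
  have hFne : F.Nonempty := by
    by_contra hcon
    rw [Finset.not_nonempty_iff_eq_empty] at hcon
    have := hs 0
    rw [hcon] at this
    simp at this
  have hF2 : 2 ≤ F.card := by
    have := Finset.card_pos.mpr hFne
    omega
  let B0 : G → Bool := fun x => decide (u0 x = 1)
  have hind : ∀ x, ((ind B0 x : ℤ) : ℝ) = u0 x := by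
    intro x
    simp only [ind, B0, decide_eq_true_eq]
    rcases hu0 x with h | h
    · simp [h]
    · simp [h]
  have hB0 : ∀ x, P F 1 (ind B0) x = 1 := by
    intro x
    have : ((P F 1 (ind B0) x : ℤ) : ℝ) = 1 := by
      simp only [P, one_smul]
      push_cast
      simp only [hind]
      exact hs x
    exact_mod_cast this
  obtain ⟨X, hX0, hX⟩ := exists_minSys (tilings F) ⟨B0, hB0⟩ (tilings_closed F)
    (fun h B hB => tilings_inv F h B hB)
  obtain ⟨B, hB⟩ := hX.nonempty
  refine ⟨fun x => ((ind B x : ℤ) : ℝ), ?_, ?_⟩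
  · intro x
    rcases ind_zero_or_one B x with h | h
    · left; simp [h]
    · right; simp [h]
  · intro r hr x
    have := MinSys.dilation hX hX0 hF2 r hr B hB x
    have h2 : ((P F r (ind B) x : ℤ) : ℝ) = 1 := by rw [this]; simp
    rw [← h2]
    simp [P]

/-- From a tiling to a `{0,1}`-valued function with all dilation identities. -/
theorem exists_dilated (F : Finset G) (A : Set G)
    (hA : ∀ g : G, ∃! p : G × G, p.1 ∈ A ∧ p.2 ∈ F ∧ p.1 + p.2 = g) :
    ∃ u : G → ℝ, (∀ x, u x = 0 ∨ u x = 1) ∧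
      (∀ r : ℕ, Nat.Coprime r F.card → ∀ x, ∑ f ∈ F, u (x - r • f) = 1) := by
  classical
  apply exists_dilated_fun F (fun x => if x ∈ A then 1 else 0)
  · intro x
    split_ifs <;> simp
  · intro x
    obtain ⟨⟨a, f⟩, ⟨ha, hf, hs⟩, huniq⟩ := hA x
    simp only at ha hf hs
    rw [Finset.sum_eq_single f]
    · have : x - f = a := by rw [← hs]; simp
      simp [this, ha]
    · intro g hg hgf
      rw [if_neg]
      intro hm
      have := huniq (x - g, g) ⟨hm, hg, by simp⟩
      exact hgf (congrArg Prod.snd this)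
    · intro hnot
      exact absurd hf hnot

/-- From a `{0,1}`-valued periodic function to a periodic tiling. -/
theorem tiling_of_fun [AddGroup.FG G] (F : Finset G) (u : G → ℝ) (hu : ∀ x, u x = 0 ∨ u x = 1)
    (hs : ∀ x, ∑ f ∈ F, u (x - f) = 1) (hper : IsPer u) :
    ∃ (A' : Set G) (L : AddSubgroup G), L.FiniteIndex ∧ (∀ h ∈ L, ∀ a, a + h ∈ A' ↔ a ∈ A') ∧
      ∀ g : G, ∃! p : G × G, p.1 ∈ A' ∧ p.2 ∈ F ∧ p.1 + p.2 = g := by
  classical
  obtain ⟨K, hK, hK'⟩ := hper
  refine ⟨{x | u x = 1}, mulSub G K, mulSub_finiteIndex K hK, ?_, ?_⟩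
  · intro h hh a
    obtain ⟨g, rfl⟩ := (mem_mulSub _ _).mp hh
    show u (a + K • g) = 1 ↔ u a = 1
    rw [hK' g a]
  · intro g
    have hnn : ∀ x, 0 ≤ u x := fun x => by rcases hu x with h | h <;> simp [h]
    have hex : ∃ f ∈ F, u (g - f) = 1 := by
      by_contra hcon
      push Not at hcon
      have : ∑ f ∈ F, u (g - f) = 0 := by
        apply Finset.sum_eq_zero
        intro f hf
        exact (hu _).resolve_right (hcon f hf)
      rw [hs g] at this
      exact one_ne_zero this
    obtain ⟨f, hf, hfu⟩ := hex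
    refine ⟨(g - f, f), ⟨hfu, hf, by simp⟩, ?_⟩
    rintro ⟨a', f'⟩ ⟨ha', hf', hsum⟩
    simp only at ha' hf' hsum
    have hgf : g - f' = a' := by rw [← hsum]; simp
    have huf' : u (g - f') = 1 := by rw [hgf]; exact ha'
    have hff : f' = f := by
      by_contra hne
      have hsub : ({f, f'} : Finset G) ⊆ F := by
        intro x hx
        simp only [Finset.mem_insert, Finset.mem_singleton] at hx
        rcases hx with rfl | rfl <;> assumption
      have := Finset.sum_le_sum_of_subset_of_nonneg (f := fun f'' => u (g - f'')) hsub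
        (fun i _ _ => hnn _)
      rw [Finset.sum_pair (Ne.symm hne), hs g, hfu, huf'] at this
      norm_num at this
    subst hff
    rw [← hgf]

end Vale.Agent.Lib.P043
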