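import Mathlib
import Vale.Agent.Lib.P043.Plane1
import Vale.Agent.Lib.P043.Spectral
import Vale.Agent.Lib.P043.PowerSum
import Vale.Agent.Lib.P043.Struct
import Vale.Agent.Lib.P043.TileForm

/-!
Functionals on a finitely generated abelian group: independence, the trichotomy for subgroups,
and the ridge system of a finite family of pairwise independent functionals.
-/

namespace Vale.Agent.Lib.P043

open AddMonoidAlgebra

variable {G : Type*} [AddCommGroup G]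

/-- independence of two functionals -/
def Indep (ℓ₁ ℓ₂ : G →+ ℤ) : Prop := ∃ y₁ y₂ : G, ℓ₁ y₁ * ℓ₂ y₂ - ℓ₁ y₂ * ℓ₂ y₁ ≠ 0

lemma Indep.symm {ℓ₁ ℓ₂ : G →+ ℤ} (h : Indep ℓ₁ ℓ₂) : Indep ℓ₂ ℓ₁ := by
  obtain ⟨y₁, y₂, hy⟩ := h
  refine ⟨y₂, y₁, ?_⟩
  intro h0
  apply hy
  linarith

lemma not_indep_self (ℓ : G →+ ℤ) : ¬ Indep ℓ ℓ := by
  rintro ⟨y₁, y₂, hy⟩
  apply hy
  ring

/-- Functionals which are not independent have comparable kernels. -/
lemma ker_of_not_indep {ℓ₁ ℓ₂ : G →+ ℤ} (h : ¬ Indep ℓ₁ ℓ₂) (hne : ℓ₁ ≠ 0) (g : G) (hg : ℓ₁ g = 0) :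
    ℓ₂ g = 0 := by
  have hy : ∃ y, ℓ₁ y ≠ 0 := by
    by_contra hcon
    push Not at hcon
    exact hne (AddMonoidHom.ext hcon)
  obtain ⟨y, hy⟩ := hy
  by_contra hg2
  apply h
  refine ⟨y, g, ?_⟩
  rw [hg]
  simpa using ⟨hy, hg2⟩

/-- Independent functionals: a decomposition of multiples. -/
lemma Indep.decomp {ℓ₁ ℓ₂ : G →+ ℤ} (h : Indep ℓ₁ ℓ₂) :
    ∃ c : ℤ, c ≠ 0 ∧ ∀ g : G, ∃ l m : G, ℓ₁ l = 0 ∧ ℓ₂ m = 0 ∧ c • g = l + m := by
  obtain ⟨y₁, y₂, hy⟩ := h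
  refine ⟨_, hy, fun g => ?_⟩
  set c := ℓ₁ y₁ * ℓ₂ y₂ - ℓ₁ y₂ * ℓ₂ y₁ with hc
  let m0 : G := (ℓ₂ y₂) • y₁ - (ℓ₂ y₁) • y₂
  let l0 : G := (ℓ₁ y₂) • y₁ - (ℓ₁ y₁) • y₂
  have h1 : ℓ₁ m0 = c := by
    simp only [m0, map_sub, map_zsmul, smul_eq_mul, hc]
    ring
  have h2 : ℓ₂ m0 = 0 := by
    simp only [m0, map_sub, map_zsmul, smul_eq_mul]
    ring
  have h3 : ℓ₁ l0 = 0 := by
    simp only [l0, map_sub, map_zsmul, smul_eq_mul]
    ring
  have h4 : ℓ₂ l0 = -c := by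
    simp only [l0, map_sub, map_zsmul, smul_eq_mul, hc]
    ring
  refine ⟨c • g - (ℓ₁ g) • m0, (ℓ₁ g) • m0, ?_, ?_, by abel⟩
  · simp only [map_sub, map_zsmul, smul_eq_mul, h1]
    ring
  · simp only [map_zsmul, smul_eq_mul, h2]
    ring

/-- Coordinates on a finitely generated abelian group. -/
lemma fg_coords (Q : Type*) [AddCommGroup Q] [AddGroup.FG Q] :
    ∃ (r : ℕ) (c : Fin r → (Q →+ ℤ)) (y : Fin r → Q) (K : ℕ), 0 < K ∧
      (∀ i j, c i (y j) = if i = j then 1 else 0) ∧ ∀ x, (∀ i, c i x = 0) → K • x = 0 := by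
  classical
  obtain ⟨n, ι, _, p, hp, e, ⟨φ⟩⟩ := AddCommGroup.equiv_free_prod_directSum_zmod Q
  let pr : ((Fin n →₀ ℤ) × DirectSum ι fun i => ZMod (p i ^ e i)) →+ (Fin n →₀ ℤ) :=
    AddMonoidHom.fst _ _
  refine ⟨n, fun i => ((Finsupp.applyAddHom i).comp pr).comp φ.toAddMonoidHom,
    fun j => φ.symm (Finsupp.single j 1, 0), ∏ i, p i ^ e i,
    Finset.prod_pos fun i _ => pow_pos (hp i).pos _, ?_, ?_⟩
  · intro i j
    simp only [AddMonoidHom.comp_apply, AddEquiv.coe_toAddMonoidHom, AddEquiv.apply_symm_apply, pr,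
      AddMonoidHom.coe_fst, Finsupp.applyAddHom_apply, Finsupp.single_apply]
    by_cases h : i = j
    · simp [h]
    · simp [h, Ne.symm h]
  · intro x hx
    have h1 : (φ x).1 = 0 := by
      ext i
      have := hx i
      simpa [pr] using this
    have h2 : ∀ t : DirectSum ι fun i => ZMod (p i ^ e i), (∏ i, p i ^ e i) • t = 0 := by
      intro t
      induction t using DirectSum.induction_on with
      | zero => simp
      | of i a =>
        rw [← map_nsmul]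
        have : (∏ i, p i ^ e i) • a = 0 := by
          obtain ⟨c, hc⟩ := Finset.dvd_prod_of_mem (fun i => p i ^ e i) (Finset.mem_univ i)
          rw [hc, mul_comm, mul_smul]
          have : (p i ^ e i) • a = 0 := by
            rw [nsmul_eq_mul]
            simp
          rw [this, smul_zero]
        rw [this, map_zero]
      | add a b ha hb => rw [smul_add, ha, hb, add_zero]
    apply φ.injective
    rw [map_nsmul, map_zero]
    apply Prod.ext
    · simp [h1]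
    · simp [h2]

/-- The trichotomy for subgroups. -/
theorem subgroup_trichotomy [AddGroup.FG G] (D : AddSubgroup G) :
    ∃ (K : ℕ) (ℓ : G →+ ℤ), 0 < K ∧ ((∀ g, K • g ∈ D) ∨
      (ℓ ≠ 0 ∧ (∀ d ∈ D, ℓ d = 0) ∧ ∀ g, ℓ g = 0 → K • g ∈ D) ∨
      ∃ ℓ₁ ℓ₂ : G →+ ℤ, Indep ℓ₁ ℓ₂ ∧ (∀ d ∈ D, ℓ₁ d = 0) ∧ (∀ d ∈ D, ℓ₂ d = 0)) := by
  classical
  obtain ⟨r, c, y, K, hK, hcy, hcK⟩ := fg_coords (G ⧸ D)
  let π : G →+ G ⧸ D := QuotientAddGroup.mk' D
  have hπ : Function.Surjective π := QuotientAddGroup.mk'_surjective D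
  have hkill : ∀ (ℓ : (G ⧸ D) →+ ℤ), ∀ d ∈ D, (ℓ.comp π) d = 0 := by
    intro ℓ d hd
    have : π d = 0 := by simpa [π] using hd
    simp [this]
  have hmem : ∀ g, (∀ i, c i (π g) = 0) → K • g ∈ D := by
    intro g hg
    have := hcK (π g) hg
    rw [← map_nsmul] at this
    exact (QuotientAddGroup.eq_zero_iff _).mp this
  rcases r with _ | _ | r
  · refine ⟨K, 0, hK, Or.inl fun g => hmem g fun i => i.elim0⟩
  · let ℓ : G →+ ℤ := (c 0).comp π
    refine ⟨K, ℓ, hK, Or.inr (Or.inl ⟨?_, hkill _, ?_⟩)⟩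
    · intro h0
      obtain ⟨g, hg⟩ := hπ (y 0)
      have h1 : ℓ g = 1 := by
        simp only [ℓ, AddMonoidHom.comp_apply, hg, hcy]
        simp
      rw [h0] at h1
      simp at h1
    · intro g hg
      apply hmem g
      intro i
      have : i = 0 := Fin.eq_zero i
      rw [this]
      exact hg
  · obtain ⟨g0, hg0⟩ := hπ (y 0)
    obtain ⟨g1, hg1⟩ := hπ (y 1)
    refine ⟨1, 0, one_pos, Or.inr (Or.inr ⟨(c 0).comp π, (c 1).comp π, ⟨g0, g1, ?_⟩, hkill _, hkill _⟩)⟩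
    simp only [AddMonoidHom.comp_apply, hg0, hg1, hcy]
    simp

/-- A maximal pairwise independent subfamily. -/
lemma exists_indep_reps (Ω : Finset (G →+ ℤ)) : ∃ R ⊆ Ω, (∀ ℓ ∈ Ω, ∃ ρ ∈ R, ¬ Indep ρ ℓ) ∧
    ∀ ρ ∈ R, ∀ ρ' ∈ R, ρ ≠ ρ' → Indep ρ ρ' := by
  classical
  induction Ω using Finset.induction_on with
  | empty => exact ⟨∅, by simp, by simp, by simp⟩
  | insert v Ω hv ih =>
    obtain ⟨R, hR, h1, h2⟩ := ih
    by_cases hex : ∃ ρ ∈ R, ¬ Indep ρ v
    · refine ⟨R, hR.trans (Finset.subset_insert _ _), ?_, h2⟩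
      intro w hw
      rcases Finset.mem_insert.mp hw with rfl | hw
      · exact hex
      · exact h1 w hw
    · push Not at hex
      refine ⟨insert v R, Finset.insert_subset_insert _ hR, ?_, ?_⟩
      · intro w hw
        rcases Finset.mem_insert.mp hw with rfl | hw
        · exact ⟨w, Finset.mem_insert_self _ _, not_indep_self w⟩
        · obtain ⟨ρ, hρ, hc⟩ := h1 w hw
          exact ⟨ρ, Finset.mem_insert_of_mem hρ, hc⟩
      · intro ρ hρ ρ' hρ' hne
        rcases Finset.mem_insert.mp hρ with rfl | hρ2 <;>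
          rcases Finset.mem_insert.mp hρ' with rfl | hρ2'
        · exact absurd rfl hne
        · exact (hex ρ' hρ2').symm
        · exact hex ρ hρ2
        · exact h2 ρ hρ2 ρ' hρ2' hne

/-- the subgroup of multiples of the kernel of a functional -/
def hyperLam (ρ : G →+ ℤ) (L : ℕ) : AddSubgroup G := ρ.ker.map (nsmulAddMonoidHom L)

lemma mem_hyperLam (ρ : G →+ ℤ) (L : ℕ) (l : G) : l ∈ hyperLam ρ L ↔ ∃ g, ρ g = 0 ∧ L • g = l := by
  simp [hyperLam, AddSubgroup.mem_map, AddMonoidHom.mem_ker]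

/-- The ridge system of a finite family of functionals. -/
theorem exists_hyperSys (R : Finset (G →+ ℤ)) (hne : ∀ ρ ∈ R, ρ ≠ 0)
    (hind : ∀ ρ ∈ R, ∀ ρ' ∈ R, ρ ≠ ρ' → Indep ρ ρ') (L : ℕ) (hL : 0 < L) :
    ∃ sys : RidgeSys G R, (∀ i, sys.ell i = i.1) ∧ (∀ i, sys.Lam i = hyperLam i.1 L) := by
  classical
  have hdec : ∀ i j : R, ∃ c : ℤ, c ≠ 0 ∧ (i ≠ j → ∀ g : G, ∃ l m : G,
      i.1 l = 0 ∧ j.1 m = 0 ∧ c • g = l + m) := by
    intro i j
    by_cases h : i = j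
    · exact ⟨1, one_ne_zero, fun h' => absurd h h'⟩
    · obtain ⟨c, hc, hc'⟩ := (hind i.1 i.2 j.1 j.2 (fun h' => h (Subtype.ext h'))).decomp
      exact ⟨c, hc, fun _ => hc'⟩
  choose c hc hc' using hdec
  have hcast : ∀ i j : R, (((c i j * c i j).natAbs : ℕ) : ℤ) = c i j * c i j := fun i j =>
    Int.natAbs_of_nonneg (mul_self_nonneg _)
  refine ⟨{ ell := fun i => i.1
            Lam := fun i => hyperLam i.1 L
            ell_ne := ?_
            ell_Lam := ?_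
            Kk := fun _ => L
            Kk_pos := fun _ => hL
            Kk_mem := ?_
            Kp := fun i j => L * (c i j * c i j).natAbs
            Kp_pos := ?_
            Kp_mem := ?_ }, fun _ => rfl, fun _ => rfl⟩
  · intro i
    by_contra hcon
    push Not at hcon
    exact hne i.1 i.2 (AddMonoidHom.ext hcon)
  · intro i l hl
    obtain ⟨g, hg, rfl⟩ := (mem_hyperLam _ _ _).mp hl
    rw [map_nsmul, hg, smul_zero]
  · intro i g hg
    exact (mem_hyperLam _ _ _).mpr ⟨g, hg, rfl⟩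
  · intro i j
    exact Nat.mul_pos hL (Int.natAbs_pos.mpr (mul_ne_zero (hc i j) (hc i j)))
  · intro i j hij g
    obtain ⟨l, m, hl, hm, he⟩ := hc' i j hij g
    refine ⟨L • c i j • l, (mem_hyperLam _ _ _).mpr ⟨c i j • l, ?_, rfl⟩,
      L • c i j • m, (mem_hyperLam _ _ _).mpr ⟨c i j • m, ?_, rfl⟩, ?_⟩
    · rw [map_zsmul, hl, smul_zero]
    · rw [map_zsmul, hm, smul_zero]
    · have e : (L * (c i j * c i j).natAbs) • g = L • (((c i j * c i j).natAbs : ℤ) • g) := by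
        rw [mul_smul, natCast_zsmul]
      rw [e, hcast, ← smul_add, ← smul_add, ← he, smul_smul]

/-- invariant means exist for all subgroups -/
theorem exists_invMean_sub [AddGroup.FG G] (Λ : AddSubgroup G) : Nonempty (InvMean Λ) := by
  have h1 : Module.Finite ℤ G := Module.Finite.iff_addGroup_fg.mpr inferInstance
  have h2 : IsNoetherian ℤ G := inferInstance
  have h : (AddSubgroup.toIntSubmodule Λ).FG := IsNoetherian.noetherian _
  have hfg : Λ.FG := (Submodule.fg_iff_addSubgroup_fg _).mp h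
  obtain ⟨s, hs⟩ := hfg
  rw [← hs]
  exact exists_invMean s

end Vale.Agent.Lib.P043
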