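import Mathlib
import Vale.Agent.Lib.P043.Hyper1

/-!
The spectrum of a tiling: products of differences which annihilate it, via the Nullstellensatz,
for tiles without rank two fiberings.
-/

namespace Vale.Agent.Lib.P043

open AddMonoidAlgebra

variable {G : Type*} [AddCommGroup G]

/-- The Nullstellensatz for the annihilator of a function. -/
theorem rad_mem [AddGroup.FG G] (v : G → ℂ) (e : AddMonoidAlgebra ℂ G)
    (H : ∀ χ : AddChar G ℂ, InV χ v → evalChar χ e = 0) : ∃ K : ℕ, act (e ^ K) v = 0 := by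
  classical
  have hJac : IsJacobsonRing (AddMonoidAlgebra ℂ G) := isJacobsonRing_of_finiteType (A := ℂ)
  have hmem : e ∈ (annIdeal v).radical := by
    rw [Ideal.radical_eq_jacobson]
    simp only [Ideal.jacobson, Ideal.mem_sInf, Set.mem_ofPred_eq]
    rintro J ⟨hIJ, hJ⟩
    obtain ⟨χ, hχ⟩ := exists_char_of_maximal J hJ
    rw [hχ]
    exact H χ (fun e' he' => (hχ e').mp (hIJ he'))
  exact hmem

lemma act_cast_Dl (h : G) (v : G → ℝ) :
    act (Dl ℂ h) (fun x => (v x : ℂ)) = fun x => ((act (Dl ℝ h) v x : ℝ) : ℂ) := by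
  funext x
  rw [act_Dl, act_Dl]
  push_cast
  rfl

lemma act_cast_pow (h : G) (K : ℕ) (v : G → ℝ) :
    act (Dl ℂ h ^ K) (fun x => (v x : ℂ)) = fun x => ((act (Dl ℝ h ^ K) v x : ℝ) : ℂ) := by
  induction K generalizing v with
  | zero => funext x; simp
  | succ K ih => rw [pow_succ, pow_succ, act_mul, act_mul, act_cast_Dl, ih]

lemma act_cast_prod {τ : Type*} [DecidableEq τ] (S : Finset τ) (dd : τ → G) (K : ℕ) (v : G → ℝ) :
    act (∏ t ∈ S, Dl ℂ (dd t) ^ K) (fun x => (v x : ℂ))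
      = fun x => ((act (∏ t ∈ S, Dl ℝ (dd t) ^ K) v x : ℝ) : ℂ) := by
  induction S using Finset.induction_on generalizing v with
  | empty => funext x; simp
  | insert a S ha ih =>
    rw [Finset.prod_insert ha, Finset.prod_insert ha, act_mul, act_mul, ih, act_cast_pow]

/-- A product of differences annihilates a bounded function when each character of its spectrum
is trivial on one of the factors. -/
theorem spectral_cube [AddGroup.FG G] {τ : Type*} [DecidableEq τ] (S : Finset τ) (dd : τ → G)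
    (u : G → ℝ) (hu : Bd u)
    (H : ∀ χ : AddChar G ℂ, InV χ (fun x => (u x : ℂ)) → ∃ t ∈ S, χ (dd t) = 1) :
    act (∏ t ∈ S, Dl ℝ (dd t)) u = 0 := by
  classical
  set e : AddMonoidAlgebra ℂ G := ∏ t ∈ S, Dl ℂ (dd t) with he
  obtain ⟨K, hK⟩ := rad_mem (fun x => (u x : ℂ)) e (by
    intro χ hχ
    obtain ⟨t, ht, h1⟩ := H χ hχ
    rw [he, map_prod]
    apply Finset.prod_eq_zero ht
    simp [Dl, evalChar_single, h1])
  have h1 : e ^ K = ∏ t ∈ S, Dl ℂ (dd t) ^ K := by rw [he, Finset.prod_pow]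
  rw [h1, act_cast_prod] at hK
  have h2 : act (∏ t ∈ S, Dl ℝ (dd t) ^ K) u = 0 := by
    funext x
    have := congrFun hK x
    simpa using this
  exact reduce_exponents dd S (fun _ => K) u hu h2

/-- The blocks of a character in the spectrum have at least two points. -/
theorem blocks (F : Finset G) (u : G → ℝ)
    (hP : ∀ r : ℕ, Nat.Coprime r F.card → ∀ x, ∑ f ∈ F, u (x - r • f) = 1) (N : ℕ) (hN : F.card ∣ N)
    (χ : AddChar G ℂ) (hV : InV χ (fun x => (u x : ℂ))) (g : G) (hg : χ g ≠ 1) (f0 : G)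
    (hf0 : f0 ∈ F) : ∃ f ∈ F, f ≠ f0 ∧ χ f ^ N = χ f0 ^ N := by
  classical
  by_contra hcon
  push Not at hcon
  have hsum : ∀ r : ℕ, 1 ≤ r → ∑ f ∈ F, χ f * (χ f ^ N) ^ r = 0 := by
    intro r _
    have hc : Nat.Coprime (1 + N * r) F.card := by
      obtain ⟨c, rfl⟩ := hN
      have : 1 + F.card * c * r = 1 + (c * r) * F.card := by ring
      rw [this]
      simp
    have := hV.power_sum F (1 + N * r) 1 (by
      intro x
      simp only [P]
      have := hP _ hc x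
      exact_mod_cast this) g hg
    rw [← this]
    apply Finset.sum_congr rfl
    intro f _
    rw [pow_add, pow_one, pow_mul]
  have hMu := Mu_eq_zero_of_power_sums F (fun f => χ f) (fun f => χ f ^ N)
    (fun f _ => pow_ne_zero _ (char_ne_zero χ f)) hsum (χ f0 ^ N)
  simp only [Mu] at hMu
  rw [Finset.sum_eq_single f0] at hMu
  · simp only [if_true] at hMu
    exact char_ne_zero χ f0 hMu
  · intro f hf hne
    rw [if_neg (hcon f hf hne)]
  · exact fun h => absurd hf0 h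

/-- On each union of blocks of a character of the spectrum the sum of the character vanishes. -/
theorem blocks_sum (F : Finset G) (u : G → ℝ)
    (hP : ∀ r : ℕ, Nat.Coprime r F.card → ∀ x, ∑ f ∈ F, u (x - r • f) = 1) (N : ℕ) (hN : F.card ∣ N)
    (χ : AddChar G ℂ) (hV : InV χ (fun x => (u x : ℂ))) (g : G) (hg : χ g ≠ 1) {β : Type*}
    [DecidableEq β] (c : G → β)
    (hc : ∀ f ∈ F, ∀ f' ∈ F, χ f ^ N = χ f' ^ N → c f = c f') (b : β) :
    ∑ f ∈ F.filter (fun f => c f = b), χ f = 0 := by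
  classical
  have hsum : ∀ r : ℕ, 1 ≤ r → ∑ f ∈ F, χ f * (χ f ^ N) ^ r = 0 := by
    intro r _
    have hcop : Nat.Coprime (1 + N * r) F.card := by
      obtain ⟨c', rfl⟩ := hN
      have : 1 + F.card * c' * r = 1 + (c' * r) * F.card := by ring
      rw [this]
      simp
    have := hV.power_sum F (1 + N * r) 1 (by
      intro x
      simp only [P]
      have := hP _ hcop x
      exact_mod_cast this) g hg
    rw [← this]
    apply Finset.sum_congr rfl
    intro f _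
    rw [pow_add, pow_one, pow_mul]
  have hMu := Mu_eq_zero_of_power_sums F (fun f => χ f) (fun f => χ f ^ N)
    (fun f _ => pow_ne_zero _ (char_ne_zero χ f)) hsum
  set S := F.filter (fun f => c f = b) with hS
  rw [← Finset.sum_fiberwise_of_maps_to (s := S) (t := S.image (fun f => χ f ^ N))
    (g := fun f => χ f ^ N) (fun f hf => Finset.mem_image_of_mem _ hf)]
  apply Finset.sum_eq_zero
  intro v hv
  obtain ⟨f1, hf1, rfl⟩ := Finset.mem_image.mp hv
  have h1 := hMu (χ f1 ^ N)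
  simp only [Mu] at h1
  rw [← Finset.sum_filter] at h1
  have h2 : S.filter (fun f => χ f ^ N = χ f1 ^ N) = F.filter (fun f => χ f ^ N = χ f1 ^ N) := by
    ext f
    simp only [Finset.mem_filter, hS]
    constructor
    · rintro ⟨⟨h3, _⟩, h5⟩
      exact ⟨h3, h5⟩
    · rintro ⟨h3, h5⟩
      have hf1' := Finset.mem_filter.mp hf1
      exact ⟨⟨h3, (hc f h3 f1 hf1'.1 h5).trans hf1'.2⟩, h5⟩
  rw [h2]
  exact h1

/-- a nonzero functional for which, for some character, the sum over each level set of `F` vanishes -/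
def IsFibering (F : Finset G) (ℓ : G →+ ℤ) : Prop :=
  ℓ ≠ 0 ∧ ∃ χ : AddChar G ℂ, ∀ f0 ∈ F, ∑ f ∈ F.filter (fun f => ℓ f = ℓ f0), χ f = 0

/-- the subgroup generated by the differences of a set of pairs -/
def Dsub (E : Finset (G × G)) : AddSubgroup G := AddSubgroup.closure {x | ∃ p ∈ E, x = p.1 - p.2}

/-- The alternative for a character in the spectrum. -/
theorem spectrum_alt (F : Finset G) (u : G → ℝ)
    (hP : ∀ r : ℕ, Nat.Coprime r F.card → ∀ x, ∑ f ∈ F, u (x - r • f) = 1)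
    (ha : ∀ ℓ₁ ℓ₂ : G →+ ℤ, Indep ℓ₁ ℓ₂ → ∀ χ : AddChar G ℂ, ∃ f0 ∈ F,
      ∑ f ∈ F.filter (fun f => ℓ₁ f = ℓ₁ f0 ∧ ℓ₂ f = ℓ₂ f0), χ f ≠ 0)
    (N : ℕ) (hN : F.card ∣ N) (K : Finset (G × G) → ℕ) (ell : Finset (G × G) → (G →+ ℤ))
    (hcase : ∀ E, (∀ g, K E • g ∈ Dsub E) ∨
      (ell E ≠ 0 ∧ (∀ d ∈ Dsub E, ell E d = 0) ∧ ∀ g, ell E g = 0 → K E • g ∈ Dsub E) ∨
      ∃ ℓ₁ ℓ₂ : G →+ ℤ, Indep ℓ₁ ℓ₂ ∧ (∀ d ∈ Dsub E, ℓ₁ d = 0) ∧ (∀ d ∈ Dsub E, ℓ₂ d = 0))
    (R : Finset (G →+ ℤ)) (hRne : ∀ ρ ∈ R, ρ ≠ 0)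
    (hcover : ∀ E ∈ (F ×ˢ F).powerset, IsFibering F (ell E) → ∃ ρ ∈ R, ¬ Indep ρ (ell E))
    (L : ℕ) (hL : ∀ E ∈ (F ×ˢ F).powerset, N * K E ∣ L)
    (χ : AddChar G ℂ) (hχ : InV χ (fun x => (u x : ℂ))) (y : G) (d : R → G)
    (hd : ∀ i, d i ∈ hyperLam i.1 L) : χ (L • y) = 1 ∨ ∃ i, χ (d i) = 1 := by
  classical
  by_cases htriv : ∀ g, χ g = 1
  · exact Or.inl (htriv _)
  push Not at htriv
  obtain ⟨g0, hg0⟩ := htriv
  set E := (F ×ˢ F).filter (fun p => χ p.1 ^ N = χ p.2 ^ N) with hE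
  have hEmem : E ∈ (F ×ˢ F).powerset := Finset.mem_powerset.mpr (Finset.filter_subset _ _)
  have hDk : ∀ x ∈ Dsub E, χ x ^ N = 1 := by
    have hle : Dsub E ≤ charKerPow χ N := by
      apply (AddSubgroup.closure_le _).mpr
      rintro _ ⟨p, hp, rfl⟩
      have hp2 := (Finset.mem_filter.mp hp).2
      show χ (p.1 - p.2) ^ N = 1
      rw [AddChar.map_sub_eq_div, div_pow, hp2, div_self (pow_ne_zero _ (char_ne_zero χ _))]
    exact fun x hx => hle hx
  have hpair : ∀ f ∈ F, ∀ f' ∈ F, χ f ^ N = χ f' ^ N → f - f' ∈ Dsub E := by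
    intro f hf f' hf' he
    refine AddSubgroup.subset_closure ⟨(f, f'), ?_, rfl⟩
    exact Finset.mem_filter.mpr ⟨Finset.mem_product.mpr ⟨hf, hf'⟩, he⟩
  have hL' : ∀ g, K E • g ∈ Dsub E → χ (L • g) = 1 := by
    intro g hg
    obtain ⟨c, hc⟩ := hL E hEmem
    have e : L • g = c • (N • (K E • g)) := by
      rw [hc, smul_smul, smul_smul]
      congr 1
      ring
    rw [e, AddChar.map_nsmul_eq_pow, AddChar.map_nsmul_eq_pow, hDk _ hg, one_pow]
  rcases hcase E with h | ⟨hne, hkill, hker⟩ | ⟨ℓ₁, ℓ₂, hI, h1, h2⟩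
  · left
    exact hL' y (h y)
  · right
    have hfib : IsFibering F (ell E) := ⟨hne, χ, fun f0 _ => by
      apply blocks_sum F u hP N hN χ hχ g0 hg0 (fun f => ell E f)
      intro f hf f' hf' he
      have := hkill _ (hpair f hf f' hf' he)
      rw [map_sub, sub_eq_zero] at this
      exact this⟩
    obtain ⟨ρ, hρ, hni⟩ := hcover E hEmem hfib
    let i : R := ⟨ρ, hρ⟩
    obtain ⟨g, hg, hgd⟩ := (mem_hyperLam _ _ _).mp (hd i)
    refine ⟨i, ?_⟩
    rw [← hgd]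
    exact hL' g (hker g (ker_of_not_indep hni (hRne ρ hρ) g hg))
  · exfalso
    obtain ⟨f0, hf0, hs⟩ := ha ℓ₁ ℓ₂ hI χ
    apply hs
    have h3 := blocks_sum F u hP N hN χ hχ g0 hg0 (fun f => (ℓ₁ f, ℓ₂ f)) (by
      intro f hf f' hf' he
      have e1 := h1 _ (hpair f hf f' hf' he)
      have e2 := h2 _ (hpair f hf f' hf' he)
      rw [map_sub, sub_eq_zero] at e1 e2
      exact Prod.ext e1 e2) (ℓ₁ f0, ℓ₂ f0)
    rw [← h3]
    apply Finset.sum_congr _ (fun _ _ => rfl)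
    ext f
    simp [Prod.ext_iff]

/-- The family of functionals of a tile and its cube identity. -/
theorem exists_hyper_cube [AddGroup.FG G] (F : Finset G) (u : G → ℝ) (hbd : Bd u)
    (hP : ∀ r : ℕ, Nat.Coprime r F.card → ∀ x, ∑ f ∈ F, u (x - r • f) = 1)
    (ha : ∀ ℓ₁ ℓ₂ : G →+ ℤ, Indep ℓ₁ ℓ₂ → ∀ χ : AddChar G ℂ, ∃ f0 ∈ F,
      ∑ f ∈ F.filter (fun f => ℓ₁ f = ℓ₁ f0 ∧ ℓ₂ f = ℓ₂ f0), χ f ≠ 0) :
    ∃ (R : Finset (G →+ ℤ)) (L : ℕ), 0 < L ∧ (∀ ρ ∈ R, IsFibering F ρ) ∧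
      (∀ ρ ∈ R, ∀ ρ' ∈ R, ρ ≠ ρ' → Indep ρ ρ') ∧
      ∀ (y : G) (d : R → G), (∀ i, d i ∈ hyperLam i.1 L) →
        act (Dl ℝ (L • y) * ∏ i, Dl ℝ (d i)) u = 0 := by
  classical
  have hFpos : 0 < F.card := by
    rcases Nat.eq_zero_or_pos F.card with h | h
    · have hF : F = ∅ := Finset.card_eq_zero.mp h
      have := hP 1 (by simp [h]) 0
      rw [hF] at this
      simp at this
    · exact h
  choose K ell hK0 hcase using fun E : Finset (G × G) => subgroup_trichotomy (Dsub E)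
  set PS := (F ×ˢ F).powerset with hPS
  let Ω : Finset (G →+ ℤ) := (PS.image ell).filter (IsFibering F)
  obtain ⟨R, hRΩ, hcov, hind⟩ := exists_indep_reps Ω
  have hRfib : ∀ ρ ∈ R, IsFibering F ρ := fun ρ hρ => (Finset.mem_filter.mp (hRΩ hρ)).2
  let L : ℕ := F.card * ∏ E ∈ PS, K E
  have hLpos : 0 < L := Nat.mul_pos hFpos (Finset.prod_pos fun E _ => hK0 E)
  refine ⟨R, L, hLpos, hRfib, hind, ?_⟩
  intro y d hd
  have hprod : Dl ℝ (L • y) * ∏ i, Dl ℝ (d i)
      = ∏ t ∈ (Finset.univ : Finset (Option R)), Dl ℝ (Option.elim t (L • y) d) := by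
    rw [Fintype.prod_option]
    rfl
  rw [hprod]
  apply spectral_cube Finset.univ _ u hbd
  intro χ hχ
  rcases spectrum_alt F u hP ha F.card (dvd_refl _) K ell hcase R
    (fun ρ hρ => (hRfib ρ hρ).1)
    (fun E hE hfib => hcov _ (Finset.mem_filter.mpr ⟨Finset.mem_image_of_mem _ hE, hfib⟩))
    L (fun E hE => Nat.mul_dvd_mul_left _ (Finset.dvd_prod_of_mem K hE)) χ hχ y d hd with h | ⟨i, h⟩
  · exact ⟨none, Finset.mem_univ _, h⟩
  · exact ⟨some i, Finset.mem_univ _, h⟩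

/-- The uniform decomposition from the cube identity. -/
theorem hdecomp_of_cube {ι : Type*} [Fintype ι] [DecidableEq ι] (sys : RidgeSys G ι)
    (mm : ∀ i, InvMean (sys.Lam i)) (u : G → ℝ) (hbd : Bd u) (L : ℕ) (hL : 0 < L)
    (hcube : ∀ (y : G) (d : ι → G), (∀ i, d i ∈ sys.Lam i) →
      act (Dl ℝ (L • y) * ∏ i, Dl ℝ (d i)) u = 0) :
    IsPer (u - ∑ i, (mm i).M u) := by
  obtain ⟨K1, hK1, hdec⟩ := decomp_unif sys mm Finset.univ
  refine ⟨K1 * L, Nat.mul_pos hK1 hL, ?_⟩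
  set v := u - ∑ i, (mm i).M u with hv
  have hvbd : Bd v := hbd.sub (Bd.sum _ _ fun i _ => (mm i).bd hbd)
  have hw : ∀ y, Per K1 (act (Dl ℝ (L • y)) v) := by
    intro y
    have h1 := hdec (act (Dl ℝ (L • y)) u) (hbd.act _) (by
      intro d hd
      rw [← act_mul, mul_comm]
      exact hcube y d hd)
    have e : act (Dl ℝ (L • y)) u - ∑ i, (mm i).M (act (Dl ℝ (L • y)) u) = act (Dl ℝ (L • y)) v := by
      rw [hv, act_fun_sub, act_fun_sum]
      congr 1
      apply Finset.sum_congr rfl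
      intro i _
      exact (mm i).map_act _ hbd
    rwa [e] at h1
  intro g x
  set Z := (K1 * L) • g with hZ
  have hZ' : Z = L • (K1 • g) := by
    rw [hZ, smul_smul, mul_comm]
  have h1 : act (Dl ℝ Z) (act (Dl ℝ Z) v) = 0 := by
    rw [act_Dl_eq_zero_iff]
    intro x'
    have hp := hw (K1 • g) (-(L • g)) x'
    have e : x' + K1 • (-(L • g)) = x' - Z := by
      rw [hZ, smul_neg, mul_smul, sub_eq_add_neg]
    rw [e, ← hZ'] at hp
    exact hp
  have h2 := act_Dl_of_Dl_Dl Z v hvbd h1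
  have := (act_Dl_eq_zero_iff _ _).mp h2 (x + Z)
  rw [add_sub_cancel_right] at this
  exact this.symm

end Vale.Agent.Lib.P043
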