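import Mathlib
import Vale.Agent.Lib.P043.Hyper2

/-!
The values of the means on the tiling, by line means and a minimum principle, and the theorem on
tiles without rank two fiberings.
-/

namespace Vale.Agent.Lib.P043

open AddMonoidAlgebra

variable {G : Type*} [AddCommGroup G]

lemma InvMean.per_of_per {Λ : AddSubgroup G} (m : InvMean Λ) {w : G → ℝ} (hw : Bd w) {K : ℕ}
    (h : Per K w) : Per K (m.M w) := by
  intro g x
  have h1 := congrFun (m.map_shift (-(K • g)) w hw) x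
  have e : (fun y => w (y - -(K • g))) = w := by
    funext y
    rw [sub_neg_eq_add]
    exact h g y
  rw [e, sub_neg_eq_add] at h1
  exact h1.symm

lemma InvMean.inv_of_inv {Λ : AddSubgroup G} (m : InvMean Λ) {w : G → ℝ} (hw : Bd w) (l : G)
    (h : ∀ x, w (x + l) = w x) : ∀ x, m.M w (x + l) = m.M w x := by
  intro x
  have h1 := congrFun (m.map_shift (-l) w hw) x
  have e : (fun y => w (y - -l)) = w := by
    funext y
    rw [sub_neg_eq_add]
    exact h y
  rw [e, sub_neg_eq_add] at h1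
  exact h1.symm

section
set_option linter.unusedSectionVars false
variable {ι : Type*} [Fintype ι] [DecidableEq ι] (sys : RidgeSys G ι) (mm : ∀ i, InvMean (sys.Lam i))

/-- A line mean of an invariant function transverse to the line is periodic. -/
lemma double_line_per (j : ι) {w : G → ℝ} (hw : Bd w) (hinv : ∀ l ∈ sys.Lam j, ∀ x, w (x + l) = w x)
    (h : G) (NL : ℕ) (hNL : 0 < NL) (hne : sys.ell j h ≠ 0) {Λ : AddSubgroup G} (hs : NL • h ∈ Λ)
    (m : InvMean Λ) : IsPer (m.M w) := by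
  set α : ℤ := sys.ell j (NL • h) with hα
  have hα0 : α ≠ 0 := by
    rw [hα, map_nsmul]
    simp only [nsmul_eq_mul]
    exact mul_ne_zero (by exact_mod_cast hNL.ne') hne
  let D : ℤ := (sys.Kk j : ℤ) * α
  have hD : D ≠ 0 := mul_ne_zero (by exact_mod_cast (sys.Kk_pos j).ne') hα0
  refine ⟨D.natAbs, Int.natAbs_pos.mpr hD, Per.of_zsmul D ?_⟩
  intro g x
  have hz : sys.ell j (α • g - (sys.ell j g) • (NL • h)) = 0 := by
    simp only [map_sub, map_zsmul, smul_eq_mul, hα]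
    ring
  have hl := sys.Kk_mem j _ hz
  set l := sys.Kk j • (α • g - (sys.ell j g) • (NL • h)) with hldef
  set c : ℤ := (sys.Kk j : ℤ) * sys.ell j g with hc
  have e : D • g = l + c • (NL • h) := by
    have key : ∀ (k al be : ℤ) (y t : G), (k * al) • y = k • (al • y - be • t) + (k * be) • t := by
      intro k al be y t
      simp only [smul_sub, smul_smul]
      abel
    have := key (sys.Kk j) α (sys.ell j g) g (NL • h)
    simpa only [natCast_zsmul] using this
  rw [e, ← add_assoc]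
  rw [add_right_comm]
  rw [m.inv_of_inv hw l (fun y => hinv l hl y)]
  exact m.inv w hw _ (zsmul_mem hs c) x

/-- The line mean of a function which is a sum of means and a periodic function. -/
theorem line_decomp (u : G → ℝ) (hbd : Bd u) (hdec : IsPer (u - ∑ i, (mm i).M u)) (h : G) (NL : ℕ)
    (hNL : 0 < NL) {Λ : AddSubgroup G} (hs : NL • h ∈ Λ)
    (hle : ∀ j, sys.ell j h = 0 → Λ ≤ sys.Lam j) (m : InvMean Λ) :
    IsPer (m.M u - ∑ j ∈ Finset.univ.filter (fun j => sys.ell j h = 0), (mm j).M u) := by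
  classical
  set v := u - ∑ i, (mm i).M u with hv
  have hMbd : ∀ j, Bd ((mm j).M u) := fun j => (mm j).bd hbd
  have hvbd : Bd v := hbd.sub (Bd.sum _ _ fun i _ => hMbd i)
  have h1 : m.M u = m.M v + ∑ i, m.M ((mm i).M u) := by
    rw [← m.map_sum _ _ (fun i _ => hMbd i), ← m.map_add _ _ hvbd (Bd.sum _ _ fun i _ => hMbd i), hv]
    congr 1
    abel
  have h2 : ∀ j ∈ Finset.univ.filter (fun j => sys.ell j h = 0), m.M ((mm j).M u) = (mm j).M u := by
    intro j hj
    have hj' := (Finset.mem_filter.mp hj).2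
    apply m.fix _ (hMbd j)
    intro l hl x
    exact (mm j).inv u hbd l (hle j hj' hl) x
  have h3 : m.M u - ∑ j ∈ Finset.univ.filter (fun j => sys.ell j h = 0), (mm j).M u
      = m.M v + ∑ j ∈ Finset.univ.filter (fun j => ¬ sys.ell j h = 0), m.M ((mm j).M u) := by
    rw [h1, ← Finset.sum_filter_add_sum_filter_not Finset.univ (fun j => sys.ell j h = 0),
      Finset.sum_congr rfl h2]
    abel
  rw [h3]
  apply IsPer.add
  · obtain ⟨K, hK, hper⟩ := hdec
    exact ⟨K, hK, m.per_of_per hvbd hper⟩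
  · apply IsPer.sum
    intro j hj
    have hj' := (Finset.mem_filter.mp hj).2
    exact double_line_per sys j (hMbd j) (fun l hl x => (mm j).inv u hbd l hl x) h NL hNL hj' hs m

/-- The value of a mean on the tiling is periodic. -/
theorem value_hyper [AddGroup.FG G] (F : Finset G) (u : G → ℝ) (hu : ∀ x, u x = 0 ∨ u x = 1)
    (hP : ∀ r : ℕ, Nat.Coprime r F.card → ∀ x, ∑ f ∈ F, u (x - r • f) = 1)
    (hdec : IsPer (u - ∑ i, (mm i).M u)) (i : ι) (f0 : G) (hf0 : f0 ∈ F)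
    (hQ : ∀ f ∈ F, f ≠ f0 → sys.ell i f = sys.ell i f0 → ∀ j k, sys.ell j (f0 - f) = 0 →
      sys.ell k (f0 - f) = 0 → j ≠ i → k ≠ i → j = k) :
    ∃ B : G → ℝ, IsPer B ∧ (∀ l ∈ sys.Lam i, ∀ x, B (x + l) = B x) ∧
      ∀ a, u a = 1 → (mm i).M u a = B a := by
  classical
  have hbd : Bd u := bd_of_01 u hu
  set n := F.card with hn
  have hnpos : 0 < n := Finset.card_pos.mpr ⟨f0, hf0⟩
  set PK := ∏ j, sys.Kk j with hPK
  have hPKpos : 0 < PK := Finset.prod_pos fun j _ => sys.Kk_pos j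
  set NL := n * PK with hNL
  have hNLpos : 0 < NL := Nat.mul_pos hnpos hPKpos
  set t := sys.ell i f0 with ht
  set Ft := F.filter (fun f => sys.ell i f = t) with hFt
  have hf0t : f0 ∈ Ft := Finset.mem_filter.mpr ⟨hf0, rfl⟩
  set S := Ft.erase f0 with hS
  have hSmem : ∀ f ∈ S, f ∈ F ∧ f ≠ f0 ∧ sys.ell i f = t := by
    intro f hf
    have h1 := Finset.mem_erase.mp hf
    have h2 := Finset.mem_filter.mp h1.2
    exact ⟨h2.1, h1.1, h2.2⟩
  -- the line means
  let Λf : G → AddSubgroup G := fun f => AddSubgroup.closure (({NL • (f0 - f)} : Finset G) : Set G)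
  let mf : ∀ f, InvMean (Λf f) := fun f => Classical.choice (exists_invMean {NL • (f0 - f)})
  have hmemΛ : ∀ f l, l ∈ Λf f ↔ ∃ c : ℤ, c • (NL • (f0 - f)) = l := by
    intro f l
    simp only [Λf, Finset.coe_singleton, AddSubgroup.mem_closure_singleton]
  have hgenΛ : ∀ f, NL • (f0 - f) ∈ Λf f := fun f => (hmemΛ f _).mpr ⟨1, one_smul _ _⟩
  have hNLLam : ∀ f j, sys.ell j (f0 - f) = 0 → NL • (f0 - f) ∈ sys.Lam j := by
    intro f j hj
    have h1 := sys.Kk_mem j _ hj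
    have h2 : PK = sys.Kk j * ∏ j' ∈ Finset.univ.erase j, sys.Kk j' :=
      (Finset.mul_prod_erase Finset.univ _ (Finset.mem_univ j)).symm
    have e : NL • (f0 - f) = (n * ∏ j' ∈ Finset.univ.erase j, sys.Kk j') • (sys.Kk j • (f0 - f)) := by
      rw [hNL, h2, smul_smul]
      congr 1
      ring
    rw [e]
    exact nsmul_mem h1 _
  let Qf : G → Finset ι := fun f => Finset.univ.filter (fun j => sys.ell j (f0 - f) = 0)
  let Rf : G → G → ℝ := fun f => (mf f).M u - ∑ j ∈ Qf f, (mm j).M u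
  have hRf : ∀ f, IsPer (Rf f) := by
    intro f
    apply line_decomp sys mm u hbd hdec (f0 - f) NL hNLpos (hgenΛ f)
    intro j hj
    apply (AddSubgroup.closure_le _).mpr
    intro x hx
    have : x = NL • (f0 - f) := by simpa using hx
    rw [this]
    exact hNLLam f j hj
  obtain ⟨K0, hK0, hK0per⟩ := exists_common_per S Rf (fun f _ => hRf f)
  set PP := ∏ j ∈ Finset.univ.erase i, sys.Kp i j with hPP
  have hPPpos : 0 < PP := Finset.prod_pos fun j _ => sys.Kp_pos i j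
  set K := K0 * PP with hK
  have hKpos : 0 < K := Nat.mul_pos hK0 hPPpos
  set Mi := (mm i).M u with hMi
  have hMibd : Bd Mi := (mm i).bd hbd
  have hMiinv : ∀ l ∈ sys.Lam i, ∀ x, Mi (x + l) = Mi x := fun l hl x => (mm i).inv u hbd l hl x
  -- the minimum principle
  have hmin : ∀ f ∈ S, ∀ a, u a = 1 → ∀ g, Mi (a + (f0 - f)) ≤ Mi (a + (f0 - f) + K • g) := by
    intro f hf a ha g
    obtain ⟨hfF, hfne, hft⟩ := hSmem f hf
    set z := a + (f0 - f) with hz
    have hiQ : sys.ell i (f0 - f) = 0 := by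
      rw [map_sub, hft, sub_self]
    have hiQf : i ∈ Qf f := Finset.mem_filter.mpr ⟨Finset.mem_univ _, hiQ⟩
    have hΦz : (mf f).M u z = 0 := by
      have := mean_dead F u hu hP (mf f) ha hfF hf0 hfne (by
        intro l hl
        obtain ⟨c, rfl⟩ := (hmemΛ f l).mp hl
        refine ⟨c * PK, ?_⟩
        rw [hNL, ← natCast_zsmul, smul_smul]
        congr 1
        push_cast
        ring) 1 (by simp)
      simpa [hz] using this
    have hΦnn : ∀ y, 0 ≤ (mf f).M u y := (mf f).nonneg u hbd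
      (fun x => by rcases hu x with h | h <;> simp [h])
    have hsplit : ∀ y, (mf f).M u y = Rf f y + ∑ j ∈ Qf f, (mm j).M u y := by
      intro y
      simp only [Rf, Pi.sub_apply, Finset.sum_apply]
      ring
    have hRper := hK0per f hf
    -- the general step
    have hstep : ∀ (l μ : G), l ∈ sys.Lam i → K • g = K0 • l + K0 • μ →
        (∀ j ∈ Qf f, j ≠ i → (mm j).M u (z + K0 • μ) = (mm j).M u z) → Mi z ≤ Mi (z + K • g) := by
      intro l μ hl he hother
      have e1 : z + K • g = z + K0 • μ + K0 • l := by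
        rw [he]
        abel
      rw [e1, hMiinv _ (nsmul_mem hl _)]
      have h1 := hΦnn (z + K0 • μ)
      rw [hsplit, hRper μ z, ← Finset.add_sum_erase _ _ hiQf] at h1
      have h2 := hsplit z
      rw [hΦz, ← Finset.add_sum_erase _ _ hiQf] at h2
      have h3 : ∑ j ∈ (Qf f).erase i, (mm j).M u (z + K0 • μ) = ∑ j ∈ (Qf f).erase i, (mm j).M u z := by
        apply Finset.sum_congr rfl
        intro j hj
        have hj' := Finset.mem_erase.mp hj
        exact hother j hj'.2 hj'.1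
      rw [h3] at h1
      simp only [hMi] at *
      linarith
    by_cases hex : ∃ j ∈ Qf f, j ≠ i
    · obtain ⟨j, hj, hji⟩ := hex
      have hij : i ≠ j := hji.symm
      have hjS : j ∈ Finset.univ.erase i := Finset.mem_erase.mpr ⟨hji, Finset.mem_univ _⟩
      have hP2 : PP = sys.Kp i j * ∏ j' ∈ (Finset.univ.erase i).erase j, sys.Kp i j' :=
        (Finset.mul_prod_erase _ _ hjS).symm
      set c := ∏ j' ∈ (Finset.univ.erase i).erase j, sys.Kp i j' with hc
      obtain ⟨l, hl, m', hm', he⟩ := sys.Kp_mem i j hij (c • g)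
      apply hstep l m' hl
      · rw [hK, hP2, ← smul_add, ← he, smul_smul, smul_smul]
        congr 1
        ring
      · intro j' hj' hj'i
        have hj'' := (Finset.mem_filter.mp hj').2
        have hjj := (Finset.mem_filter.mp hj).2
        have : j' = j := hQ f hfF hfne hft j' j hj'' hjj hj'i hji
        subst this
        exact (mm j').inv u hbd _ (nsmul_mem hm' _) z
    · push Not at hex
      apply hstep 0 (PP • g) (AddSubgroup.zero_mem _)
      · rw [hK, smul_zero, zero_add, mul_smul]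
      · intro j hj hji
        exact absurd (hex j hj) hji
  -- the infimum
  obtain ⟨C, hC⟩ := hMibd
  have hbdd : ∀ x, BddBelow (Set.range fun g : G => Mi (x + K • g)) := by
    intro x
    refine ⟨-C, ?_⟩
    rintro _ ⟨g, rfl⟩
    exact (abs_le.mp (hC _)).1
  let I : G → ℝ := fun x => ⨅ g : G, Mi (x + K • g)
  have hIper : Per K I := by
    intro g x
    simp only [I]
    apply Equiv.iInf_congr (Equiv.addLeft g)
    intro g'
    simp only [Equiv.coe_addLeft, smul_add]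
    rw [add_assoc]
  have hIinv : ∀ l ∈ sys.Lam i, ∀ x, I (x + l) = I x := by
    intro l hl x
    simp only [I]
    congr 1
    funext g
    have e : x + l + K • g = x + K • g + l := by abel
    rw [e, hMiinv l hl]
  have hIval : ∀ f ∈ S, ∀ a, u a = 1 → Mi (a + (f0 - f)) = I (a + (f0 - f)) := by
    intro f hf a ha
    apply le_antisymm
    · exact le_ciInf (hmin f hf a ha)
    · have := ciInf_le (hbdd (a + (f0 - f))) 0
      simpa using this
  -- the function
  refine ⟨fun x => ∑ f ∈ Ft, Mi (x + f0 - 1 • f) - ∑ f ∈ S, I (x + (f0 - f)), ?_, ?_, ?_⟩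
  · have h1 : IsPer (fun x => ∑ f ∈ Ft, Mi (x + f0 - 1 • f)) :=
      (mean_level_per F u hu hP (mm i) (sys.ell i) (sys.Kk i) (sys.Kk_pos i) (sys.Kk_mem i) 1 one_pos
        (by simp) t).shift f0
    have h2 : IsPer (∑ f ∈ S, fun x => I (x + (f0 - f))) :=
      IsPer.sum _ _ fun f _ => IsPer.shift ⟨K, hKpos, hIper⟩ _
    have h3 := h1.sub h2
    convert h3 using 1
    funext x
    simp
  · intro l hl x
    have h1 : ∑ f ∈ Ft, Mi (x + l + f0 - 1 • f) = ∑ f ∈ Ft, Mi (x + f0 - 1 • f) := by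
      apply Finset.sum_congr rfl
      intro f _
      have e : x + l + f0 - 1 • f = x + f0 - 1 • f + l := by abel
      rw [e, hMiinv l hl]
    have h2 : ∑ f ∈ S, I (x + l + (f0 - f)) = ∑ f ∈ S, I (x + (f0 - f)) := by
      apply Finset.sum_congr rfl
      intro f _
      have e : x + l + (f0 - f) = x + (f0 - f) + l := by abel
      rw [e, hIinv l hl]
    simp only
    rw [h1, h2]
  · intro a ha
    simp only
    rw [← Finset.add_sum_erase Ft _ hf0t]
    have h1 : ∑ f ∈ Ft.erase f0, Mi (a + f0 - 1 • f) = ∑ f ∈ S, I (a + (f0 - f)) := by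
      apply Finset.sum_congr rfl
      intro f hf
      rw [← hIval f hf a ha]
      congr 1
      rw [one_smul]
      abel
    rw [h1]
    have e : a + f0 - 1 • f0 = a := by
      rw [one_smul]
      abel
    rw [e]
    ring

end

/-- The theorem for `{0,1}`-valued functions with all dilation identities. -/
theorem fibered_hyperplanes_fun [AddGroup.FG G] (F : Finset G) (u : G → ℝ) (hu : ∀ x, u x = 0 ∨ u x = 1)
    (hP : ∀ r : ℕ, Nat.Coprime r F.card → ∀ x, ∑ f ∈ F, u (x - r • f) = 1)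
    (ha : ∀ ℓ₁ ℓ₂ : G →+ ℤ, Indep ℓ₁ ℓ₂ → ∀ χ : AddChar G ℂ, ∃ f0 ∈ F,
      ∑ f ∈ F.filter (fun f => ℓ₁ f = ℓ₁ f0 ∧ ℓ₂ f = ℓ₂ f0), χ f ≠ 0)
    (hb : ∀ ℓ : G →+ ℤ, IsFibering F ℓ → ∃ f0 ∈ F, ∀ f ∈ F, f ≠ f0 → ℓ f = ℓ f0 →
      ¬ ∃ ℓ₁ ℓ₂ ℓ₃ : G →+ ℤ, IsFibering F ℓ₁ ∧ IsFibering F ℓ₂ ∧ IsFibering F ℓ₃ ∧
        Indep ℓ₁ ℓ₂ ∧ Indep ℓ₁ ℓ₃ ∧ Indep ℓ₂ ℓ₃ ∧ ℓ₁ (f - f0) = 0 ∧ ℓ₂ (f - f0) = 0 ∧ ℓ₃ (f - f0) = 0) :
    ∃ u' : G → ℝ, (∀ x, u' x = 0 ∨ u' x = 1) ∧ (∀ x, ∑ f ∈ F, u' (x - f) = 1) ∧ IsPer u' := by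
  classical
  have hbd : Bd u := bd_of_01 u hu
  obtain ⟨R, L, hL, hRfib, hind, hcube⟩ := exists_hyper_cube F u hbd hP ha
  obtain ⟨sys, hell, hLam⟩ := exists_hyperSys R (fun ρ hρ => (hRfib ρ hρ).1) hind L hL
  let mm : ∀ i, InvMean (sys.Lam i) := fun i => Classical.choice (exists_invMean_sub (sys.Lam i))
  have hdec : IsPer (u - ∑ i, (mm i).M u) :=
    hdecomp_of_cube sys mm u hbd L hL (fun y d hd => hcube y d (fun i => by
      rw [← hLam]
      exact hd i))
  have hval : ∀ i : R, ∃ B : G → ℝ, IsPer B ∧ (∀ l ∈ sys.Lam i, ∀ x, B (x + l) = B x) ∧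
      ∀ a, u a = 1 → (mm i).M u a = B a := by
    intro i
    obtain ⟨f0, hf0, hf0b⟩ := hb i.1 (hRfib i.1 i.2)
    apply value_hyper sys mm F u hu hP hdec i f0 hf0
    intro f hf hne hlev j k hj hk hji hki
    by_contra hjk
    apply hf0b f hf hne (by rw [← hell i]; exact hlev)
    have hvan : ∀ j' : R, sys.ell j' (f0 - f) = 0 → j'.1 (f - f0) = 0 := by
      intro j' hj'
      rw [hell j', map_sub, sub_eq_zero] at hj'
      rw [map_sub, sub_eq_zero]
      exact hj'.symm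
    have hi0 : sys.ell i (f0 - f) = 0 := by
      rw [map_sub, hlev, sub_self]
    have hne' : ∀ a b : R, a ≠ b → Indep a.1 b.1 := fun a b hab =>
      hind a.1 a.2 b.1 b.2 (fun h => hab (Subtype.ext h))
    exact ⟨i.1, j.1, k.1, hRfib _ i.2, hRfib _ j.2, hRfib _ k.2, hne' _ _ (Ne.symm hji),
      hne' _ _ (Ne.symm hki), hne' _ _ hjk, hvan i hi0, hvan j hj, hvan k hk⟩
  choose B hBper hBinv hK using hval
  exact ridge_core' sys mm F u hu hP hdec B hBper hBinv hK

/-- The theorem on tiles: periodic tilings for tiles without rank two fiberings and with few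
fibering hyperplanes through the differences of a base point. -/
theorem fibered_hyperplanes [AddGroup.FG G] (F : Finset G) (A : Set G)
    (hA : ∀ g : G, ∃! p : G × G, p.1 ∈ A ∧ p.2 ∈ F ∧ p.1 + p.2 = g)
    (ha : ∀ ℓ₁ ℓ₂ : G →+ ℤ, Indep ℓ₁ ℓ₂ → ∀ χ : AddChar G ℂ, ∃ f0 ∈ F,
      ∑ f ∈ F.filter (fun f => ℓ₁ f = ℓ₁ f0 ∧ ℓ₂ f = ℓ₂ f0), χ f ≠ 0)
    (hb : ∀ ℓ : G →+ ℤ, IsFibering F ℓ → ∃ f0 ∈ F, ∀ f ∈ F, f ≠ f0 → ℓ f = ℓ f0 →
      ¬ ∃ ℓ₁ ℓ₂ ℓ₃ : G →+ ℤ, IsFibering F ℓ₁ ∧ IsFibering F ℓ₂ ∧ IsFibering F ℓ₃ ∧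
        Indep ℓ₁ ℓ₂ ∧ Indep ℓ₁ ℓ₃ ∧ Indep ℓ₂ ℓ₃ ∧ ℓ₁ (f - f0) = 0 ∧ ℓ₂ (f - f0) = 0 ∧ ℓ₃ (f - f0) = 0) :
    ∃ (A' : Set G) (L : AddSubgroup G), L.FiniteIndex ∧ (∀ h ∈ L, ∀ a, a + h ∈ A' ↔ a ∈ A') ∧
      ∀ g : G, ∃! p : G × G, p.1 ∈ A' ∧ p.2 ∈ F ∧ p.1 + p.2 = g := by
  obtain ⟨u, hu, hP⟩ := exists_dilated F A hA
  obtain ⟨u', hu', hs, hper⟩ := fibered_hyperplanes_fun F u hu hP ha hb
  exact tiling_of_fun F u' hu' hs hper

end Vale.Agent.Lib.P043
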