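import Mathlib
import Vale.Agent.Lib.P043.Core4

/-!
Every translational tile of size `2 q` (`q` an odd prime) of a finitely generated abelian group
admits a periodic tiling.
-/

namespace Vale.Agent.Lib.P043

variable {G : Type*} [AddCommGroup G]

/-- The case of a generating set containing `0`. -/
theorem main_gen [AddGroup.FG G] (F : Finset G) (h0 : (0 : G) ∈ F)
    (hgen : AddSubgroup.closure (F : Set G) = ⊤) {q : ℕ} (hq : q.Prime) (hq2 : q ≠ 2)
    (hcard : F.card = 2 * q) (A : Set G) (hA : ∀ y, ∃! f, f ∈ F ∧ y - f ∈ A) :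
    ∃ (A' : Set G) (L : AddSubgroup G), L.FiniteIndex ∧ (∀ x ∈ A', ∀ l ∈ L, x + l ∈ A') ∧
      ∀ y, ∃! f, f ∈ F ∧ y - f ∈ A' := by
  classical
  by_cases hL : LStruct F q
  · exact tiling_of_LStruct F hq.pos hL
  let B0 : G → Bool := fun x => decide (x ∈ A)
  have hB0 : ∀ x, P F 1 (ind B0) x = 1 := by
    intro x
    obtain ⟨f, ⟨hf, hfA⟩, huniq⟩ := hA x
    simp only [P, one_smul]
    rw [Finset.sum_eq_single f]
    · simp [ind, B0, hfA]
    · intro g hg hgf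
      have : x - g ∉ A := fun h => hgf (huniq g ⟨hg, h⟩)
      simp [ind, B0, this]
    · exact fun h => absurd hf h
  obtain ⟨B, hB1, hB2, hB3, hB4⟩ := exists_nice F Nat.prime_two hq (Ne.symm hq2) hcard B0 hB0
  have hN : NiceA F q (ind B) :=
    { h01 := ind_zero_or_one B
      h1 := hB1
      h2 := hB2
      d1 := hB3
      d2 := hB4 }
  have hqodd : Odd q := hq.odd_of_ne_two hq2
  have hMo : Odd (MOf F q) := MOf_odd F hqodd
  have hqM : q ∣ MOf F q := dvd_MOf F q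
  have hM2 : ¬ 2 ∣ MOf F q := by
    rw [← even_iff_two_dvd]
    exact Nat.not_even_iff_odd.mpr hMo
  have hd : ∀ x, (q : ℤ) ∣ P F (MOf F q) (ind B) x := hN.d2 _ hqM hM2
  choose t ht using hd
  have ht' : ∀ x, (q : ℤ) * t x = P F (MOf F q) (ind B) x := fun x => (ht x).symm
  have hper := core_level_periodic h0 hgen hq hq2 hcard hN hL ht'
  have D : LevelData F q (ind B) (MOf F q) t :=
    { hq := hq
      hq2 := hq2
      hcard := hcard
      h0 := h0
      hN := hN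
      hMo := hMo
      hqM := hqM
      ht := ht'
      hper := hper }
  exact tiling_of_level D hgen hL

/-- The case of a set containing `0`. -/
theorem main_zero [AddGroup.FG G] (F : Finset G) (h0 : (0 : G) ∈ F) {q : ℕ} (hq : q.Prime)
    (hq2 : q ≠ 2) (hcard : F.card = 2 * q) (A : Set G) (hA : ∀ y, ∃! f, f ∈ F ∧ y - f ∈ A) :
    ∃ (A' : Set G) (L : AddSubgroup G), L.FiniteIndex ∧ (∀ x ∈ A', ∀ l ∈ L, x + l ∈ A') ∧
      ∀ y, ∃! f, f ∈ F ∧ y - f ∈ A' := by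
  classical
  set E : AddSubgroup G := AddSubgroup.closure (F : Set G) with hE
  have hFE : ∀ f ∈ F, f ∈ E := fun f hf => AddSubgroup.subset_closure hf
  have hfgE : AddGroup.FG E := by
    rw [AddGroup.fg_iff_addSubgroup_fg]
    exact ⟨F, rfl⟩
  let FE : Finset E := F.subtype (· ∈ E)
  have hFEmem : ∀ x : E, x ∈ FE ↔ (x : G) ∈ F := fun x => by simp [FE]
  have hFEcard : FE.card = 2 * q := by
    rw [Finset.card_subtype, Finset.filter_true_of_mem hFE, hcard]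
  have hgenE : AddSubgroup.closure (FE : Set E) = ⊤ := by
    have h1 : (FE : Set E) = ((↑) : E → G) ⁻¹' (F : Set G) := by
      ext x
      simp [hFEmem]
    rw [h1]
    exact AddSubgroup.closure_closure_coe_preimage
  let AE : Set E := {x | (x : G) ∈ A}
  have hAE : ∀ y : E, ∃! f, f ∈ FE ∧ y - f ∈ AE := by
    intro y
    obtain ⟨f, ⟨hf, hfA⟩, huniq⟩ := hA y
    refine ⟨⟨f, hFE f hf⟩, ⟨(hFEmem _).mpr hf, hfA⟩, ?_⟩
    rintro ⟨g, hgE⟩ ⟨hg, hgA⟩
    have := huniq g ⟨(hFEmem _).mp hg, hgA⟩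
    exact Subtype.ext this
  obtain ⟨A3, L3, hL3, hper3, htile3⟩ := main_gen FE ((hFEmem 0).mpr h0) hgenE hq hq2 hFEcard AE hAE
  obtain ⟨Λ, S', hΛ, hper, -, hkey⟩ := lift_set (⊤ : AddSubgroup G) E (L3.map E.subtype) le_top
    inferInstance
    (by
      intro e he
      refine ⟨L3.index, Nat.pos_of_ne_zero hL3.index_ne_zero, ?_⟩
      refine ⟨L3.index • (⟨e, he⟩ : E), AddSubgroup.nsmul_index_mem L3 _, ?_⟩
      simp)
    (Subtype.val '' A3)
    (by
      rintro s ⟨a', _, rfl⟩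
      exact a'.2)
    (by
      rintro s ⟨a', ha', rfl⟩ e' ⟨l, hl, rfl⟩
      exact ⟨a' + l, hper3 a' ha' l hl, rfl⟩)
  refine ⟨S', Λ, hΛ, hper, ?_⟩
  intro y
  obtain ⟨e0, he0, hk⟩ := hkey y (AddSubgroup.mem_top y)
  obtain ⟨f, ⟨hf, hfA⟩, huniq⟩ := htile3 ⟨e0, he0⟩
  refine ⟨f, ⟨(hFEmem f).mp hf, ?_⟩, ?_⟩
  · rw [hk f f.2]
    exact ⟨_, hfA, rfl⟩
  · rintro g ⟨hg, hgS⟩
    have hgE := hFE g hg
    rw [hk g hgE] at hgS
    obtain ⟨a', ha', hav⟩ := hgS
    have h1 : a' = (⟨e0, he0⟩ : E) - ⟨g, hgE⟩ := Subtype.ext hav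
    have := huniq ⟨g, hgE⟩ ⟨(hFEmem _).mpr hg, h1 ▸ ha'⟩
    exact congrArg Subtype.val this

/-- The general case, for tilings written as unique differences. -/
theorem main_all [AddGroup.FG G] (F : Finset G) {q : ℕ} (hq : q.Prime)
    (hq2 : q ≠ 2) (hcard : F.card = 2 * q) (A : Set G) (hA : ∀ y, ∃! f, f ∈ F ∧ y - f ∈ A) :
    ∃ (A' : Set G) (L : AddSubgroup G), L.FiniteIndex ∧ (∀ x ∈ A', ∀ l ∈ L, x + l ∈ A') ∧
      ∀ y, ∃! f, f ∈ F ∧ y - f ∈ A' := by
  classical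
  have hne : F.Nonempty := by
    rw [← Finset.card_pos, hcard]
    have := hq.pos
    omega
  obtain ⟨f0, hf0⟩ := hne
  let F1 : Finset G := F.image (fun f => f - f0)
  have hmem1 : ∀ g, g ∈ F1 ↔ g + f0 ∈ F := by
    intro g
    simp only [F1, Finset.mem_image]
    constructor
    · rintro ⟨f, hf, rfl⟩
      simpa using hf
    · intro h
      exact ⟨g + f0, h, by abel⟩
  have hcard1 : F1.card = 2 * q := by
    rw [Finset.card_image_of_injective _ (sub_left_injective), hcard]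
  have h01 : (0 : G) ∈ F1 := (hmem1 0).mpr (by simpa using hf0)
  let A1 : Set G := {x | x - f0 ∈ A}
  have hA1 : ∀ y, ∃! f, f ∈ F1 ∧ y - f ∈ A1 := by
    intro y
    obtain ⟨f, ⟨hf, hfA⟩, huniq⟩ := hA y
    refine ⟨f - f0, ⟨(hmem1 _).mpr (by simpa using hf), ?_⟩, ?_⟩
    · show y - (f - f0) - f0 ∈ A
      have : y - (f - f0) - f0 = y - f := by abel
      rwa [this]
    · rintro g ⟨hg, hgA⟩
      have h1 : y - g - f0 ∈ A := hgA
      have h2 : y - (g + f0) ∈ A := by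
        have : y - (g + f0) = y - g - f0 := by abel
        rwa [this]
      have := huniq (g + f0) ⟨(hmem1 g).mp hg, h2⟩
      rw [← this]
      abel
  obtain ⟨A2, L, hL, hper, htile⟩ := main_zero F1 h01 hq hq2 hcard1 A1 hA1
  refine ⟨{x | x + f0 ∈ A2}, L, hL, ?_, ?_⟩
  · intro x hx l hl
    show x + l + f0 ∈ A2
    have : x + l + f0 = x + f0 + l := by abel
    rw [this]
    exact hper _ hx l hl
  · intro y
    obtain ⟨f, ⟨hf, hfA⟩, huniq⟩ := htile y
    refine ⟨f + f0, ⟨(hmem1 f).mp hf, ?_⟩, ?_⟩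
    · show y - (f + f0) + f0 ∈ A2
      have : y - (f + f0) + f0 = y - f := by abel
      rwa [this]
    · rintro g ⟨hg, hgA⟩
      have h1 : y - g + f0 ∈ A2 := hgA
      have h2 : g - f0 ∈ F1 := (hmem1 _).mpr (by simpa using hg)
      have h3 : y - (g - f0) ∈ A2 := by
        have : y - (g - f0) = y - g + f0 := by abel
        rwa [this]
      have := huniq (g - f0) ⟨h2, h3⟩
      rw [← this]
      abel

/-- The final form: `A ⊕ F = G` in terms of unique expressions `g = a + f`. -/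
theorem main_final [AddGroup.FG G] (F : Finset G) {q : ℕ} (hq : q.Prime) (hq2 : q ≠ 2)
    (hcard : F.card = 2 * q) (A : Set G)
    (hA : ∀ g : G, ∃! p : G × G, p.1 ∈ A ∧ p.2 ∈ F ∧ p.1 + p.2 = g) :
    ∃ (A' : Set G) (L : AddSubgroup G), L.FiniteIndex ∧ (∀ h ∈ L, ∀ a, a + h ∈ A' ↔ a ∈ A') ∧
      ∀ g : G, ∃! p : G × G, p.1 ∈ A' ∧ p.2 ∈ F ∧ p.1 + p.2 = g := by
  have hA' : ∀ y, ∃! f, f ∈ F ∧ y - f ∈ A := by
    intro y
    obtain ⟨⟨a', f⟩, ⟨ha', hf, hsum⟩, huniq⟩ := hA y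
    simp only at ha' hf hsum
    refine ⟨f, ⟨hf, by rw [← hsum]; simpa using ha'⟩, ?_⟩
    rintro g ⟨hg, hgA⟩
    have := huniq (y - g, g) ⟨hgA, hg, by simp⟩
    exact (congrArg Prod.snd this)
  obtain ⟨A2, L, hL, hper, htile⟩ := main_all F hq hq2 hcard A hA'
  refine ⟨A2, L, hL, ?_, ?_⟩
  · intro h hh a'
    constructor
    · intro ha'
      have := hper _ ha' (-h) (L.neg_mem hh)
      simpa using this
    · intro ha'
      exact hper _ ha' h hh
  · intro g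
    obtain ⟨f, ⟨hf, hfA⟩, huniq⟩ := htile g
    refine ⟨(g - f, f), ⟨hfA, hf, by simp⟩, ?_⟩
    rintro ⟨a', f'⟩ ⟨ha', hf', hsum⟩
    simp only at ha' hf' hsum
    have h1 : g - f' = a' := by rw [← hsum]; simp
    have h2 := huniq f' ⟨hf', by rw [h1]; exact ha'⟩
    subst h2
    rw [← h1]

end Vale.Agent.Lib.P043
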