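import Mathlib
import Vale.Agent.Lib.P043.Plane1

/-!
The ridge system of a finite set of directions in `ℤ × ℤ × E`, and the elimination along fibers.
-/

namespace Vale.Agent.Lib.P043

open AddMonoidAlgebra

variable {E : Type*} [AddCommGroup E]

/-- projection to the plane -/
def prH : (ℤ × ℤ × E) →+ ℤ × ℤ where
  toFun g := (g.1, g.2.1)
  map_zero' := rfl
  map_add' _ _ := rfl

/-- inclusion of the plane -/
def embH : ℤ × ℤ →+ (ℤ × ℤ × E) where
  toFun w := (w.1, w.2, 0)
  map_zero' := rfl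
  map_add' x y := by
    ext <;> simp

/-- the cross product with a direction -/
def crossH (ρ : ℤ × ℤ) : (ℤ × ℤ) →+ ℤ where
  toFun w := ρ.2 * w.1 - ρ.1 * w.2
  map_zero' := by simp
  map_add' x y := by
    simp only [Prod.fst_add, Prod.snd_add]
    ring

lemma crossH_apply (ρ w : ℤ × ℤ) : crossH ρ w = ρ.2 * w.1 - ρ.1 * w.2 := rfl

/-- the squared norm of a vector of the plane -/
def normSq (v : ℤ × ℤ) : ℕ := (v.1 * v.1 + v.2 * v.2).natAbs

lemma normSq_cast (v : ℤ × ℤ) : ((normSq v : ℕ) : ℤ) = v.1 * v.1 + v.2 * v.2 := by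
  unfold normSq
  rw [Int.natAbs_of_nonneg]
  nlinarith [mul_self_nonneg v.1, mul_self_nonneg v.2]

lemma normSq_pos {v : ℤ × ℤ} (hv : v ≠ 0) : 0 < normSq v := by
  have h : v.1 * v.1 + v.2 * v.2 ≠ 0 := by
    intro h0
    apply hv
    have h1 : v.1 = 0 := by nlinarith [mul_self_nonneg v.1, mul_self_nonneg v.2]
    have h2 : v.2 = 0 := by nlinarith [mul_self_nonneg v.1, mul_self_nonneg v.2]
    exact Prod.ext h1 h2
  unfold normSq
  exact Int.natAbs_pos.mpr h

/-- The parallel identity. -/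
lemma parallel_identity {ρ v : ℤ × ℤ} (h : crossH ρ v = 0) :
    (normSq v : ℤ) • ρ = (ρ.1 * v.1 + ρ.2 * v.2) • v := by
  rw [crossH_apply] at h
  rw [normSq_cast]
  ext
  · simp only [Prod.smul_fst, smul_eq_mul]
    linear_combination (-v.2) * h
  · simp only [Prod.smul_snd, smul_eq_mul]
    linear_combination (v.1) * h

/-- A maximal set of pairwise non-parallel vectors. -/
lemma exists_reps (Δ : Finset (ℤ × ℤ)) : ∃ R ⊆ Δ, (∀ v ∈ Δ, ∃ ρ ∈ R, crossH ρ v = 0) ∧
    (∀ ρ ∈ R, ∀ ρ' ∈ R, ρ ≠ ρ' → crossH ρ ρ' ≠ 0) := by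
  classical
  induction Δ using Finset.induction_on with
  | empty => exact ⟨∅, by simp, by simp, by simp⟩
  | insert v Δ hv ih =>
    obtain ⟨R, hR, h1, h2⟩ := ih
    by_cases hex : ∃ ρ ∈ R, crossH ρ v = 0
    · refine ⟨R, hR.trans (Finset.subset_insert _ _), ?_, h2⟩
      intro w hw
      rcases Finset.mem_insert.mp hw with rfl | hw
      · exact hex
      · exact h1 w hw
    · push Not at hex
      refine ⟨insert v R, Finset.insert_subset_insert _ hR, ?_, ?_⟩
      · intro w hw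
        rcases Finset.mem_insert.mp hw with rfl | hw
        · refine ⟨w, Finset.mem_insert_self _ _, ?_⟩
          rw [crossH_apply]
          ring
        · obtain ⟨ρ, hρ, hc⟩ := h1 w hw
          exact ⟨ρ, Finset.mem_insert_of_mem hρ, hc⟩
      · intro ρ hρ ρ' hρ' hne
        rcases Finset.mem_insert.mp hρ with rfl | hρ2 <;>
          rcases Finset.mem_insert.mp hρ' with rfl | hρ2'
        · exact absurd rfl hne
        · have := hex ρ' hρ2'
          intro h0
          apply this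
          rw [crossH_apply] at h0 ⊢
          linarith
        · exact hex ρ hρ2
        · exact h2 ρ hρ2 ρ' hρ2' hne

lemma prH_apply (g : ℤ × ℤ × E) : prH g = (g.1, g.2.1) := rfl
lemma prH_embH (w : ℤ × ℤ) : prH (embH w : ℤ × ℤ × E) = w := rfl
lemma crossH_self (ρ : ℤ × ℤ) : crossH ρ ρ = 0 := by
  rw [crossH_apply]; ring
lemma embH_apply (w : ℤ × ℤ) : (embH w : ℤ × ℤ × E) = (w.1, w.2, 0) := rfl

/-- Multiples by multiples of the exponent lie in the plane. -/
lemma zsmul_eq_emb (c : ℤ) (hc : (Nat.card E : ℤ) ∣ c) [Finite E] (g : ℤ × ℤ × E) :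
    c • g = embH (c • prH g) := by
  obtain ⟨d, rfl⟩ := hc
  have hk : ((Nat.card E : ℤ) * d) • g.2.2 = 0 := by
    rw [mul_comm, mul_smul, natCast_zsmul, smul_comm, card_nsmul_eq_zero']
  ext
  · simp [embH_apply, prH_apply]
  · simp [embH_apply, prH_apply]
  · simp only [embH_apply, Prod.smul_snd]
    exact hk

lemma nsmul_eq_emb (c : ℕ) (hc : Nat.card E ∣ c) [Finite E] (g : ℤ × ℤ × E) :
    c • g = embH (c • prH g) := by
  have := zsmul_eq_emb (E := E) (c : ℤ) (by exact_mod_cast hc) g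
  simpa only [natCast_zsmul] using this

variable [Finite E]
set_option linter.unusedSectionVars false

lemma card_E_pos : 0 < Nat.card E := Nat.card_pos

/-- The level function of a direction. -/
def ellH (ρ : ℤ × ℤ) : (ℤ × ℤ × E) →+ ℤ := (crossH ρ).comp prH

lemma ellH_apply (ρ : ℤ × ℤ) (g : ℤ × ℤ × E) : ellH ρ g = crossH ρ (prH g) := rfl

/-- The subgroup generated by a multiple of a direction. -/
def lamH (ρ : ℤ × ℤ) (L : ℕ) : AddSubgroup (ℤ × ℤ × E) :=
  AddSubgroup.closure ((({embH (L • ρ)} : Finset (ℤ × ℤ × E))) : Set (ℤ × ℤ × E))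

lemma mem_lamH (ρ : ℤ × ℤ) (L : ℕ) (l : ℤ × ℤ × E) :
    l ∈ lamH ρ L ↔ ∃ n : ℤ, n • embH (L • ρ) = l := by
  unfold lamH
  rw [Finset.coe_singleton, AddSubgroup.mem_closure_singleton]

/-- The ridge system. -/
noncomputable def planeSys (R : Finset (ℤ × ℤ)) (hne : ∀ ρ ∈ R, ρ ≠ 0)
    (hpar : ∀ ρ ∈ R, ∀ ρ' ∈ R, ρ ≠ ρ' → crossH ρ ρ' ≠ 0) (L : ℕ) (hL : 0 < L) :
    RidgeSys (ℤ × ℤ × E) R where
  ell i := ellH i.1
  Lam i := lamH i.1 L
  ell_ne i := by
    refine ⟨embH (i.1.2, -i.1.1), ?_⟩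
    rw [ellH_apply, crossH_apply]
    have h := normSq_pos (hne i.1 i.2)
    have hc := normSq_cast i.1
    simp only [prH_apply, embH_apply]
    intro h0
    have : ((normSq i.1 : ℕ) : ℤ) = 0 := by
      rw [hc]
      linarith
    omega
  ell_Lam i l hl := by
    obtain ⟨n, rfl⟩ := (mem_lamH _ _ _).mp hl
    rw [map_zsmul, ellH_apply, prH_embH, map_nsmul, crossH_self]
    simp
  Kk i := Nat.card E * L * normSq i.1
  Kk_pos i := Nat.mul_pos (Nat.mul_pos card_E_pos hL) (normSq_pos (hne i.1 i.2))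
  Kk_mem i g hg := by
    rw [ellH_apply] at hg
    rw [mem_lamH]
    refine ⟨(Nat.card E : ℤ) * ((prH g).1 * i.1.1 + (prH g).2 * i.1.2), ?_⟩
    have hc := nsmul_eq_emb (Nat.card E * L * normSq i.1)
      (Dvd.dvd.mul_right (Dvd.intro _ rfl) _) g
    rw [hc]
    have hp := parallel_identity (ρ := prH g) (v := i.1) (by
      rw [crossH_apply] at hg ⊢
      linarith)
    have key : ∀ (c L s : ℤ) (ρ : ℤ × ℤ), (c * L) • (s • ρ) = (c * s) • (L • ρ) := by
      intro c L s ρ
      simp only [smul_smul]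
      congr 1
      ring
    have hp2 : (Nat.card E * L * normSq i.1) • prH g
        = ((Nat.card E : ℤ) * ((prH g).1 * i.1.1 + (prH g).2 * i.1.2)) • (L • i.1) := by
      have e1 : (Nat.card E * L * normSq i.1) • prH g
          = ((Nat.card E : ℤ) * (L : ℤ)) • ((normSq i.1 : ℤ) • prH g) := by
        rw [smul_smul, ← natCast_zsmul]
        push_cast
        rfl
      rw [e1, hp, key, natCast_zsmul]
    rw [hp2, map_zsmul]
  Kp i j := if i = j then 1 else Nat.card E * L * (crossH i.1 j.1 * crossH i.1 j.1).natAbs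
  Kp_pos i j := by
    split_ifs with h
    · exact one_pos
    · have : crossH i.1 j.1 ≠ 0 := hpar i.1 i.2 j.1 j.2 (fun h' => h (Subtype.ext h'))
      exact Nat.mul_pos (Nat.mul_pos card_E_pos hL) (Int.natAbs_pos.mpr (mul_ne_zero this this))
  Kp_mem i j hij g := by
    have hc0 : crossH i.1 j.1 ≠ 0 := hpar i.1 i.2 j.1 j.2 (fun h' => hij (Subtype.ext h'))
    rw [if_neg hij]
    set c := crossH i.1 j.1 with hc
    have hcast : (((c * c).natAbs : ℕ) : ℤ) = c * c :=
      Int.natAbs_of_nonneg (mul_self_nonneg c)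
    refine ⟨((Nat.card E : ℤ) * c * (-crossH j.1 (prH g))) • embH (L • i.1),
      (mem_lamH _ _ _).mpr ⟨_, rfl⟩, ((Nat.card E : ℤ) * c * crossH i.1 (prH g)) • embH (L • j.1),
      (mem_lamH _ _ _).mpr ⟨_, rfl⟩, ?_⟩
    have h1 := nsmul_eq_emb (Nat.card E * L * (c * c).natAbs)
      (Dvd.dvd.mul_right (Dvd.intro _ rfl) _) g
    rw [h1, ← map_zsmul, ← map_zsmul, ← map_add]
    congr 1
    have hx : ((Nat.card E : ℤ) * (L : ℤ) * (c * c)) • prH g
        = ((Nat.card E : ℤ) * c * (-crossH j.1 (prH g))) • ((L : ℤ) • i.1)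
          + ((Nat.card E : ℤ) * c * crossH i.1 (prH g)) • ((L : ℤ) • j.1) := by
      rw [hc]
      simp only [crossH_apply]
      ext <;> simp only [Prod.smul_fst, Prod.smul_snd, Prod.fst_add, Prod.snd_add, smul_eq_mul] <;> ring
    simp only [natCast_zsmul] at hx
    have e : ((Nat.card E * L * (c * c).natAbs : ℕ) : ℤ) = (Nat.card E : ℤ) * L * (c * c) := by
      rw [Nat.cast_mul, Nat.cast_mul, hcast]
    rw [← hx, ← natCast_zsmul, e]

end Vale.Agent.Lib.P043
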