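import Mathlib
import Vale.Agent.Lib.P043.Plane2

/-!
The elimination along fibers in `ℤ × ℤ × E`, and the theorem for tiles with a singleton fiber.
-/

namespace Vale.Agent.Lib.P043

open AddMonoidAlgebra

variable {E : Type*} [AddCommGroup E] [Finite E]

/-- The fiber of `F` over a point of the plane. -/
def fib (F : Finset (ℤ × ℤ × E)) (w : ℤ × ℤ) : Finset (ℤ × ℤ × E) := F.filter (fun f => prH f = w)

lemma sum_fib (F : Finset (ℤ × ℤ × E)) (φ : ℤ × ℤ × E → ℝ) :
    ∑ f ∈ F, φ f = ∑ w ∈ F.image prH, ∑ f ∈ fib F w, φ f := by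
  classical
  rw [← Finset.sum_fiberwise_of_maps_to (s := F) (t := F.image prH) (g := prH)
    (fun f hf => Finset.mem_image_of_mem _ hf)]
  rfl

/-- The elimination on a fiber. -/
theorem cube_fiber (F : Finset (ℤ × ℤ × E)) (u : ℤ × ℤ × E → ℝ)
    (hP : ∀ r : ℕ, Nat.Coprime r F.card → ∀ x, ∑ f ∈ F, u (x - r • f) = 1) (r0 : ℕ)
    (hr0 : Nat.Coprime r0 F.card) (c : ℕ) (w0 w1 : ℤ × ℤ) (h0 : w0 ∈ F.image prH)
    (h1 : w1 ∈ F.image prH) (hne : w1 ≠ w0) (x : ℤ × ℤ × E) :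
    ∑ f ∈ fib F w0, act (∏ t ∈ (F.image prH).erase w0,
      Dl ℝ (embH ((r0 * (Nat.card E * F.card) * c) • (w0 - t)))) u (x - r0 • f) = 0 := by
  classical
  set T := F.image prH with hT
  set N := Nat.card E * F.card with hN
  let k : ℤ × ℤ → ℤ × ℤ × E := fun t => embH ((r0 * N) • t)
  let s : ℤ × ℤ → AddMonoidAlgebra ℝ (ℤ × ℤ × E) := fun t => single (k t) 1
  let b : ℤ × ℤ → (ℤ × ℤ × E) → ℝ := fun w x => ∑ f ∈ fib F w, u (x - r0 • f)
  have hsum : ∀ j : ℕ, ∑ t ∈ T, act (s t ^ j) (b t) = fun _ => (1 : ℝ) := by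
    intro j
    funext x
    simp only [Finset.sum_apply, s, single_one_pow, act_single_one, b]
    have hcop : Nat.Coprime (r0 * (1 + j * N)) F.card := by
      apply Nat.Coprime.mul_left hr0
      have : 1 + j * N = 1 + (j * Nat.card E) * F.card := by rw [hN]; ring
      rw [this]
      simp
    rw [← hP _ hcop x, sum_fib F (fun f => u (x - (r0 * (1 + j * N)) • f))]
    apply Finset.sum_congr rfl
    intro t _
    apply Finset.sum_congr rfl
    intro f hf
    have hft : prH f = t := (Finset.mem_filter.mp hf).2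
    congr 1
    have h2 : (r0 * N) • f = embH ((r0 * N) • t) := by
      rw [nsmul_eq_emb _ (Dvd.dvd.mul_left (Dvd.intro _ rfl) r0) f, hft]
    have h3 : (r0 * (1 + j * N)) • f = r0 • f + j • ((r0 * N) • f) := by
      rw [smul_smul, ← add_smul]
      congr 1
      ring
    rw [h3, h2]
    abel
  have hc : ∀ t, act (s t) (fun _ : ℤ × ℤ × E => (1 : ℝ)) = fun _ => 1 := by
    intro t
    funext x
    simp only [s]
    rw [act_single_one]
  have hv := vander_const T s b w0 w1 h0 h1 hne _ hc hsum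
  have hfact : ∏ t ∈ T.erase w0, (s w0 - s t)
      = (∏ t ∈ T.erase w0, s t) * ∏ t ∈ T.erase w0, Dl ℝ (embH ((r0 * N) • (w0 - t))) := by
    rw [← Finset.prod_mul_distrib]
    apply Finset.prod_congr rfl
    intro t _
    simp only [s, Dl]
    have e : (single (k w0) (1 : ℝ) : AddMonoidAlgebra ℝ (ℤ × ℤ × E))
        = single (k t) 1 * single (embH ((r0 * N) • (w0 - t))) 1 := by
      rw [← single_add_one]
      congr 1
      simp only [k]
      rw [← map_add, smul_sub]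
      congr 1
      abel
    rw [e]
    ring
  have hprod : ∏ t ∈ T.erase w0, s t = single (∑ t ∈ T.erase w0, k t) 1 := prod_single_one _ _
  rw [hfact, hprod] at hv
  have hv2 := act_eq_zero_of_single_mul _ _ _ hv
  -- pass to the multiple
  have hdvd : ∀ t, ∃ e, Dl ℝ (embH ((r0 * N * c) • (w0 - t)))
      = e * Dl ℝ (embH ((r0 * N) • (w0 - t)) : ℤ × ℤ × E) := by
    intro t
    have : (embH ((r0 * N * c) • (w0 - t)) : ℤ × ℤ × E) = c • embH ((r0 * N) • (w0 - t)) := by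
      rw [← map_nsmul, smul_smul, mul_comm c]
    rw [this]
    exact Dl_dvd_nsmul _ _
  choose e he using hdvd
  set EE := ∏ t ∈ T.erase w0, Dl ℝ (embH ((r0 * N * c) • (w0 - t)) : ℤ × ℤ × E) with hEE
  have hv3 : act EE (b w0) = 0 := by
    have : EE = (∏ t ∈ T.erase w0, e t) * ∏ t ∈ T.erase w0, Dl ℝ (embH ((r0 * N) • (w0 - t))) := by
      rw [← Finset.prod_mul_distrib, hEE]
      exact Finset.prod_congr rfl fun t _ => he t
    rw [this, act_mul, hv2, act_zero]
  have hb : b w0 = ∑ f ∈ fib F w0, act (single (r0 • f) (1 : ℝ)) u := by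
    funext x
    simp only [b, Finset.sum_apply, act_single_one]
  rw [hb, act_fun_sum] at hv3
  have := congrFun hv3 x
  simp only [Finset.sum_apply, Pi.zero_apply] at this
  rw [← this]
  apply Finset.sum_congr rfl
  intro f _
  rw [act_comm, act_single_one]

/-- The elements of the subgroup of a direction are multiples of a parallel difference. -/
lemma lam_multiple (ρ : ℤ × ℤ) (L n : ℕ) (f f0 : ℤ × ℤ × E) (hc : crossH ρ (prH f0 - prH f) = 0)
    (hL : normSq (prH f0 - prH f) * n * Nat.card E ∣ L) :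
    ∀ l ∈ lamH ρ L, ∃ κ : ℤ, l = (κ * (n : ℤ)) • (f0 - f) := by
  intro l hl
  obtain ⟨z, rfl⟩ := (mem_lamH _ _ _).mp hl
  obtain ⟨c, rfl⟩ := hL
  set v := prH f0 - prH f with hv
  have hp := parallel_identity hc
  set s := ρ.1 * v.1 + ρ.2 * v.2 with hs
  refine ⟨z * (Nat.card E : ℤ) * c * s, ?_⟩
  have hdiv : (Nat.card E : ℤ) ∣ z * (Nat.card E : ℤ) * c * s * (n : ℤ) :=
    ⟨z * c * s * n, by ring⟩
  have h1 := zsmul_eq_emb (E := E) (z * (Nat.card E : ℤ) * c * s * (n : ℤ)) hdiv (f0 - f)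
  rw [h1, map_sub, ← hv, ← map_zsmul]
  congr 1
  have e1 : (normSq v * n * Nat.card E * c) • ρ
      = ((n : ℤ) * (Nat.card E : ℤ) * c) • ((normSq v : ℤ) • ρ) := by
    rw [smul_smul, ← natCast_zsmul]
    congr 1
    push_cast
    ring
  rw [e1, hp, smul_smul, smul_smul]
  congr 1
  ring

/-- From the cube identity over a base point and the values on the tiling to a periodic tiling. -/
theorem plane_from_cube (F : Finset (ℤ × ℤ × E)) (u : ℤ × ℤ × E → ℝ) (hu : ∀ x, u x = 0 ∨ u x = 1)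
    (hP : ∀ r : ℕ, Nat.Coprime r F.card → ∀ x, ∑ f ∈ F, u (x - r • f) = 1)
    (w0 : ℤ × ℤ) (hw0T : w0 ∈ F.image prH) (N' : ℕ) (hN' : 0 < N')
    (hV : act (∏ t ∈ (F.image prH).erase w0, Dl ℝ (embH (N' • (w0 - t)))) u = 0)
    (hval : ∀ (Lam : AddSubgroup (ℤ × ℤ × E)) (m : InvMean Lam) (ρ : ℤ × ℤ) (Kk : ℕ), 0 < Kk →
      (∀ g, ellH ρ g = 0 → Kk • g ∈ Lam) →
      (∀ f ∈ F, ∀ f0 ∈ F, prH f ≠ prH f0 → ellH ρ f = ellH ρ f0 →
        ∀ l ∈ Lam, ∃ κ : ℤ, l = (κ * (F.card : ℤ)) • (f0 - f)) →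
      ∃ B : ℤ × ℤ × E → ℝ, IsPer B ∧ (∀ l ∈ Lam, ∀ x, B (x + l) = B x) ∧ ∀ a, u a = 1 → m.M u a = B a) :
    ∃ u' : ℤ × ℤ × E → ℝ, (∀ x, u' x = 0 ∨ u' x = 1) ∧ (∀ x, ∑ f ∈ F, u' (x - f) = 1) ∧ IsPer u' := by
  classical
  set T := F.image prH with hT
  set n := F.card with hn
  have hnpos : 0 < n := by
    obtain ⟨f, hf, _⟩ := Finset.mem_image.mp hw0T
    exact Finset.card_pos.mpr ⟨f, hf⟩
  set e := Nat.card E with he
  have hepos : 0 < e := card_E_pos
  -- the directions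
  let Δ := (T.erase w0).image (fun t => w0 - t)
  obtain ⟨R, hRΔ, hRcov, hRpar⟩ := exists_reps Δ
  have hRne : ∀ ρ ∈ R, ρ ≠ 0 := by
    intro ρ hρ
    obtain ⟨t, ht, rfl⟩ := Finset.mem_image.mp (hRΔ hρ)
    have := (Finset.mem_erase.mp ht).1
    exact sub_ne_zero.mpr (Ne.symm this)
  let Qd : ℕ := ∏ p ∈ T ×ˢ T, (if p.1 = p.2 then 1 else normSq (p.1 - p.2))
  have hQdpos : 0 < Qd := by
    apply Finset.prod_pos
    intro p _
    split_ifs with h
    · exact one_pos
    · exact normSq_pos (sub_ne_zero.mpr h)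
  have hQdvd : ∀ a ∈ T, ∀ b ∈ T, a ≠ b → normSq (a - b) ∣ Qd := by
    intro a ha b hb hab
    have := Finset.dvd_prod_of_mem (fun p : (ℤ × ℤ) × (ℤ × ℤ) => if p.1 = p.2 then 1 else normSq (p.1 - p.2))
      (Finset.mem_product.mpr ⟨ha, hb⟩ : (a, b) ∈ T ×ˢ T)
    simpa [hab] using this
  let L : ℕ := N' * (e * n * Qd)
  have hLpos : 0 < L := Nat.mul_pos hN' (Nat.mul_pos (Nat.mul_pos hepos hnpos) hQdpos)
  let sys : RidgeSys (ℤ × ℤ × E) R := planeSys R hRne hRpar L hLpos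
  let mm : ∀ i, InvMean (sys.Lam i) := fun i => Classical.choice (exists_invMean {embH (L • i.1)})
  have hbd : Bd u := bd_of_01 u hu
  have hcube0 : act (∏ i : R, Dl ℝ (embH (L • i.1) : ℤ × ℤ × E)) u = 0 := by
    apply merge_diff u hbd (T.erase w0) (fun t => (embH (N' • (w0 - t)) : ℤ × ℤ × E)) Finset.univ
      (fun i : R => (embH (L • i.1) : ℤ × ℤ × E)) _ hV
    intro t ht
    have hv : w0 - t ∈ Δ := Finset.mem_image_of_mem _ ht
    obtain ⟨ρ, hρ, hc⟩ := hRcov _ hv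
    refine ⟨⟨ρ, hρ⟩, Finset.mem_univ _, ?_⟩
    have htT := (Finset.mem_erase.mp ht).2
    have htne := (Finset.mem_erase.mp ht).1
    obtain ⟨c, hc'⟩ := hQdvd w0 hw0T t htT (Ne.symm htne)
    have hp := parallel_identity hc
    refine ⟨((e * n * c : ℕ) : ℤ) * (ρ.1 * (w0 - t).1 + ρ.2 * (w0 - t).2), ?_⟩
    simp only
    rw [← map_zsmul]
    congr 1
    have e1 : L • ρ = ((N' : ℤ) * ((e * n * c : ℕ) : ℤ)) • ((normSq (w0 - t) : ℤ) • ρ) := by
      simp only [L]
      rw [hc', smul_smul, ← natCast_zsmul]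
      congr 1
      push_cast
      ring
    rw [e1, hp, smul_smul, ← natCast_zsmul, smul_smul]
    congr 1
    ring
  have hcube : ∀ d : R → ℤ × ℤ × E, (∀ i, d i ∈ sys.Lam i) → act (∏ i, Dl ℝ (d i)) u = 0 := by
    intro d hd
    have h1 : ∀ i, ∃ e', Dl ℝ (d i) = e' * Dl ℝ (embH (L • i.1) : ℤ × ℤ × E) := by
      intro i
      obtain ⟨z, hz⟩ := (mem_lamH _ _ _).mp (hd i)
      rw [← hz]
      exact Dl_dvd_zsmul _ _
    choose e' he' using h1
    have : ∏ i, Dl ℝ (d i) = (∏ i, e' i) * ∏ i : R, Dl ℝ (embH (L • i.1) : ℤ × ℤ × E) := by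
      rw [← Finset.prod_mul_distrib]
      exact Finset.prod_congr rfl fun i _ => he' i
    rw [this, act_mul, hcube0, act_zero]
  -- the values on the tiling
  have hvalues := fun (i : R) => hval (sys.Lam i) (mm i) i.1 (sys.Kk i) (sys.Kk_pos i) (sys.Kk_mem i) (by
    intro f hf f0 hf0 hpr hlev
    apply lam_multiple i.1 L n f f0
    · rw [map_sub, sub_eq_zero]
      exact hlev.symm
    · obtain ⟨c, hc⟩ := hQdvd (prH f0) (Finset.mem_image_of_mem _ hf0) (prH f)
        (Finset.mem_image_of_mem _ hf) hpr.symm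
      refine ⟨N' * c, ?_⟩
      simp only [L]
      rw [hc]
      ring)
  choose B hBper hBinv hK using hvalues
  exact ridge_core sys mm F u hu hP hcube B hBper hBinv hK

/-- A tile with a singleton fiber has a periodic tiling, once the dilation identities hold. -/
theorem plane_singleton_fiber (F : Finset (ℤ × ℤ × E)) (u : ℤ × ℤ × E → ℝ) (hu : ∀ x, u x = 0 ∨ u x = 1)
    (hP : ∀ r : ℕ, Nat.Coprime r F.card → ∀ x, ∑ f ∈ F, u (x - r • f) = 1)
    (fs : ℤ × ℤ × E) (hfs : fs ∈ F) (hfu : ∀ f ∈ F, prH f = prH fs → f = fs) :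
    ∃ u' : ℤ × ℤ × E → ℝ, (∀ x, u' x = 0 ∨ u' x = 1) ∧ (∀ x, ∑ f ∈ F, u' (x - f) = 1) ∧ IsPer u' := by
  classical
  set T := F.image prH with hT
  set w0 := prH fs with hw0
  have hw0T : w0 ∈ T := Finset.mem_image_of_mem _ hfs
  have hFb : fib F w0 = {fs} := by
    ext f
    simp only [fib, Finset.mem_filter, Finset.mem_singleton]
    constructor
    · rintro ⟨h1, h2⟩
      exact hfu f h1 h2
    · rintro rfl
      exact ⟨hfs, rfl⟩
  by_cases hex : ∃ w1 ∈ T, w1 ≠ w0
  swap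
  · -- a single point
    push Not at hex
    have hF : F = {fs} := by
      ext f
      simp only [Finset.mem_singleton]
      constructor
      · intro hf
        exact hfu f hf (hex _ (Finset.mem_image_of_mem _ hf))
      · rintro rfl
        exact hfs
    refine ⟨fun _ => 1, fun _ => Or.inr rfl, ?_, IsPer.const 1⟩
    intro x
    rw [hF]
    simp
  obtain ⟨w1, hw1, hne⟩ := hex
  have hnpos : 0 < F.card := Finset.card_pos.mpr ⟨fs, hfs⟩
  have hepos : 0 < Nat.card E := card_E_pos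
  -- the cube identity
  have hV : act (∏ t ∈ T.erase w0, Dl ℝ (embH ((Nat.card E * F.card) • (w0 - t)))) u = 0 := by
    funext x
    have h1 := cube_fiber F u hP 1 (by simp) 1 w0 w1 hw0T hw1 hne (x + fs)
    rw [hFb, Finset.sum_singleton] at h1
    simp only [one_smul, add_sub_cancel_right, one_mul, mul_one] at h1
    exact h1
  refine plane_from_cube F u hu hP w0 hw0T _ (Nat.mul_pos hepos hnpos) hV ?_
  intro Lam m ρ Kk hKk0 hKk hdead
  have hlevel := mean_level_per F u hu hP m (ellH ρ) Kk hKk0 hKk 1 one_pos (by simp) (ellH ρ fs)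
  refine ⟨fun x => ∑ f ∈ F.filter (fun f => ellH ρ f = ellH ρ fs), m.M u (x + fs - 1 • f),
    hlevel.shift fs, ?_, ?_⟩
  · intro l hl x
    apply Finset.sum_congr rfl
    intro f _
    have e1 : x + l + fs - 1 • f = x + fs - 1 • f + l := by abel
    rw [e1, m.inv u (bd_of_01 u hu) l hl]
  · intro a ha
    show m.M u a = ∑ f ∈ F.filter (fun f => ellH ρ f = ellH ρ fs), m.M u (a + fs - 1 • f)
    rw [Finset.sum_eq_single fs]
    · congr 1
      simp
    · intro f hf hne'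
      have hfF := (Finset.mem_filter.mp hf).1
      have hlev := (Finset.mem_filter.mp hf).2
      have e1 : a + fs - 1 • f = a + 1 • (fs - f) := by
        simp only [one_smul]
        abel
      rw [e1]
      have hpr : prH f ≠ prH fs := fun h => hne' (hfu f hfF h)
      exact mean_dead F u hu hP m ha hfF hfs hne' (hdead f hfF fs hfs hpr hlev) 1 (by simp)
    · intro hnot
      exact absurd (Finset.mem_filter.mpr (⟨hfs, rfl⟩ : fs ∈ F ∧ ellH ρ fs = ellH ρ fs)) hnot

end Vale.Agent.Lib.P043
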