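import Mathlib
import Vale.Agent.Lib.P043.Plane3
import Vale.Agent.Lib.P043.TileForm

/-!
Tiles of `ℤ × ℤ × ZMod p`.
-/

namespace Vale.Agent.Lib.P043

open AddMonoidAlgebra

set_option linter.unusedSectionVars false

variable {p : ℕ} [hp : Fact p.Prime]

/-- Sum along a line of `ZMod p` without its origin. -/
lemma sum_mul_units (v : ZMod p → ℝ) (c δ : ZMod p) (hδ : δ ≠ 0) :
    ∑ j ∈ Finset.univ.erase (0 : ZMod p), v (c + j * δ) = ∑ e, v e - v c := by
  have h1 : ∑ j, v (c + j * δ) = ∑ e, v e := by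
    apply Fintype.sum_equiv ((Equiv.mulRight₀ δ hδ).trans (Equiv.addLeft c))
    intro j
    simp
  rw [← h1, ← Finset.add_sum_erase Finset.univ _ (Finset.mem_univ (0 : ZMod p))]
  simp

lemma card_units_erase : ((Finset.univ.erase (0 : ZMod p)).card : ℝ) = p - 1 := by
  rw [Finset.card_erase_of_mem (Finset.mem_univ _), Finset.card_univ, ZMod.card]
  have := hp.out.one_lt
  push_cast [Nat.cast_sub this.le]
  simp

/-- A function on `ZMod p` annihilated by all dilates of a proper subset vanishes. -/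
theorem vanish_Zp (D : Finset (ZMod p)) (hD : D.Nonempty) (hDp : D.card < p) (v : ZMod p → ℝ)
    (h : ∀ c j, j ≠ 0 → ∑ e ∈ D, v (c - j * e) = 0) : ∀ c, v c = 0 := by
  classical
  have hS : ∑ c, v c = 0 := by
    have h1 : ∑ c : ZMod p, ∑ e ∈ D, v (c - 1 * e) = 0 :=
      Finset.sum_eq_zero fun c _ => h c 1 one_ne_zero
    rw [Finset.sum_comm] at h1
    have h2 : ∀ e ∈ D, ∑ c : ZMod p, v (c - 1 * e) = ∑ c, v c := by
      intro e _
      apply Fintype.sum_equiv (Equiv.subRight (1 * e))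
      intro c
      rfl
    rw [Finset.sum_congr rfl h2] at h1
    simp only [Finset.sum_const, nsmul_eq_mul] at h1
    have hc : (D.card : ℝ) ≠ 0 := by
      exact_mod_cast (Finset.card_pos.mpr hD).ne'
    exact (mul_eq_zero.mp h1).resolve_left hc
  obtain ⟨e0, he0⟩ := hD
  intro c
  have h3 : ∑ j ∈ Finset.univ.erase (0 : ZMod p), ∑ e ∈ D, v (c + j * (e0 - e)) = 0 := by
    apply Finset.sum_eq_zero
    intro j hj
    have hj0 : j ≠ 0 := (Finset.mem_erase.mp hj).1
    have := h (c + j * e0) j hj0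
    rw [← this]
    apply Finset.sum_congr rfl
    intro e _
    congr 1
    ring
  rw [Finset.sum_comm, ← Finset.add_sum_erase D _ he0] at h3
  have h4 : ∑ j ∈ Finset.univ.erase (0 : ZMod p), v (c + j * (e0 - e0)) = (p - 1) * v c := by
    simp only [sub_self, mul_zero, add_zero, Finset.sum_const, nsmul_eq_mul]
    rw [card_units_erase]
  have h5 : ∑ e ∈ D.erase e0, ∑ j ∈ Finset.univ.erase (0 : ZMod p), v (c + j * (e0 - e))
      = ∑ e ∈ D.erase e0, (- v c) := by
    apply Finset.sum_congr rfl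
    intro e he
    have hne : e0 - e ≠ 0 := sub_ne_zero.mpr (Finset.mem_erase.mp he).1.symm
    rw [sum_mul_units v c _ hne, hS]
    ring
  rw [h4, h5, Finset.sum_const, Finset.card_erase_of_mem he0, nsmul_eq_mul] at h3
  have hcard : 1 ≤ D.card := Finset.card_pos.mpr ⟨e0, he0⟩
  have h6 : ((D.card - 1 : ℕ) : ℝ) = (D.card : ℝ) - 1 := by
    push_cast [Nat.cast_sub hcard]
    simp
  rw [h6] at h3
  have h7 : ((p : ℝ) - D.card) * v c = 0 := by linarith
  have h8 : (p : ℝ) - D.card ≠ 0 := by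
    have : (D.card : ℝ) < p := by exact_mod_cast hDp
    linarith
  exact (mul_eq_zero.mp h7).resolve_left h8

include hp in
/-- Integers coprime to `n` in every nonzero class modulo `p`. -/
lemma exists_mult (n : ℕ) (hn : 0 < n) (j : ZMod p) (hj : j ≠ 0) :
    ∃ r : ℕ, Nat.Coprime r n ∧ ((r : ℕ) : ZMod p) = j := by
  obtain ⟨a, n', hne, hn'⟩ := Nat.exists_eq_pow_mul_and_not_dvd hn.ne' p hp.out.ne_one
  have hcop : Nat.Coprime p n' := (Nat.Prime.coprime_iff_not_dvd hp.out).mpr hne
  let k := Nat.chineseRemainder hcop j.val 1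
  have hk1 : (k : ℕ) ≡ j.val [MOD p] := k.2.1
  have hk2 : (k : ℕ) ≡ 1 [MOD n'] := k.2.2
  have hcast : (((k : ℕ)) : ZMod p) = j := by
    have := (ZMod.natCast_eq_natCast_iff _ _ _).mpr hk1
    rw [this]
    simp
  refine ⟨k, ?_, hcast⟩
  rw [hn']
  apply Nat.Coprime.mul_right
  · apply Nat.Coprime.pow_right
    rw [Nat.coprime_comm, Nat.Prime.coprime_iff_not_dvd hp.out]
    intro hd
    apply hj
    rw [← hcast]
    exact (ZMod.natCast_eq_zero_iff _ _).mpr hd
  · have := hk2.gcd_eq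
    rw [Nat.coprime_iff_gcd_eq_one]
    simpa using this

/-- the inclusion of the fiber group -/
def injH : ZMod p →+ (ℤ × ℤ × ZMod p) where
  toFun e := (0, 0, e)
  map_zero' := rfl
  map_add' x y := by
    ext <;> simp

lemma injH_apply (e : ZMod p) : injH e = ((0 : ℤ), (0 : ℤ), e) := rfl

lemma card_zmod_eq : Nat.card (ZMod p) = p := Nat.card_zmod p

/-- Dilation in coordinates. -/
lemma nsmul_split (r : ℕ) (f : ℤ × ℤ × ZMod p) :
    r • f = embH (r • prH f) + injH ((r : ZMod p) * f.2.2) := by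
  ext
  · simp [embH_apply, prH_apply, injH_apply]
  · simp [embH_apply, prH_apply, injH_apply]
  · simp [embH_apply, prH_apply, injH_apply]

lemma fib_sub {F : Finset (ℤ × ℤ × ZMod p)} {w : ℤ × ℤ} {f f' : ℤ × ℤ × ZMod p}
    (hf : f ∈ fib F w) (hf' : f' ∈ fib F w) : f - f' = injH (f.2.2 - f'.2.2) := by
  have h1 : prH f = w := (Finset.mem_filter.mp hf).2
  have h2 : prH f' = w := (Finset.mem_filter.mp hf').2
  have h3 := Prod.ext_iff.mp (h1.trans h2.symm)
  have e1 : f.1 = f'.1 := h3.1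
  have e2 : f.2.1 = f'.2.1 := h3.2
  ext
  · simp [injH_apply, e1]
  · simp [injH_apply, e2]
  · simp [injH_apply]

lemma fib_inj {F : Finset (ℤ × ℤ × ZMod p)} {w : ℤ × ℤ} :
    Set.InjOn (fun f : ℤ × ℤ × ZMod p => f.2.2) (fib F w : Set (ℤ × ℤ × ZMod p)) := by
  intro f hf f' hf' he
  have := fib_sub hf hf'
  simp only at he
  rw [he, sub_self, map_zero] at this
  exact sub_eq_zero.mp this

lemma fib_card_le (F : Finset (ℤ × ℤ × ZMod p)) (w : ℤ × ℤ) : (fib F w).card ≤ p := by
  have h := Finset.card_le_univ ((fib F w).image (fun f : ℤ × ℤ × ZMod p => f.2.2))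
  rw [Finset.card_image_of_injOn fib_inj, ZMod.card] at h
  exact h

section
variable (F : Finset (ℤ × ℤ × ZMod p)) (u : ℤ × ℤ × ZMod p → ℝ)
  (hu : ∀ x, u x = 0 ∨ u x = 1)
  (hP : ∀ r : ℕ, Nat.Coprime r F.card → ∀ x, ∑ f ∈ F, u (x - r • f) = 1)

include hP in
/-- The cube identity over a base fiber that is not full. -/
theorem cube_Zp (w0 w1 : ℤ × ℤ) (h0 : w0 ∈ F.image prH) (h1 : w1 ∈ F.image prH) (hne : w1 ≠ w0)
    (hs : (fib F w0).card < p) :
    ∃ c : ℕ, 0 < c ∧ act (∏ t ∈ (F.image prH).erase w0,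
      Dl ℝ (embH ((c * (p * F.card)) • (w0 - t)))) u = 0 := by
  classical
  have hFpos : 0 < F.card := by
    obtain ⟨f, hf, _⟩ := Finset.mem_image.mp h0
    exact Finset.card_pos.mpr ⟨f, hf⟩
  have hmult : ∀ j : ZMod p, ∃ r : ℕ, 0 < r ∧ Nat.Coprime r F.card ∧ (j ≠ 0 → ((r : ℕ) : ZMod p) = j) := by
    intro j
    by_cases hj : j = 0
    · exact ⟨1, one_pos, by simp, fun h => absurd hj h⟩
    · obtain ⟨r, hr, hc⟩ := exists_mult F.card hFpos j hj
      refine ⟨r, ?_, hr, fun _ => hc⟩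
      rcases Nat.eq_zero_or_pos r with h | h
      · subst h
        apply absurd _ hj
        rw [← hc]
        simp
      · exact h
  choose r hr0 hrc hrj using hmult
  set U := Finset.univ.erase (0 : ZMod p) with hU
  set M := ∏ j ∈ U, r j with hM
  have hMpos : 0 < M := Finset.prod_pos fun j _ => hr0 j
  refine ⟨M, hMpos, ?_⟩
  set V := act (∏ t ∈ (F.image prH).erase w0,
      Dl ℝ (embH ((M * (p * F.card)) • (w0 - t)))) u with hV
  -- the sums over dilates of the base fiber
  have hfib : ∀ j ∈ U, ∀ x, ∑ f ∈ fib F w0, V (x - r j • f) = 0 := by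
    intro j hj x
    have hMj : M = r j * ∏ j' ∈ U.erase j, r j' := (Finset.mul_prod_erase U _ hj).symm
    have h2 := cube_fiber F u hP (r j) (hrc j) (∏ j' ∈ U.erase j, r j') w0 w1 h0 h1 hne x
    rw [card_zmod_eq] at h2
    have e : r j * (p * F.card) * ∏ j' ∈ U.erase j, r j' = M * (p * F.card) := by
      rw [hMj]
      ring
    rw [e] at h2
    exact h2
  set D := (fib F w0).image (fun f : ℤ × ℤ × ZMod p => f.2.2) with hD
  have hDcard : D.card = (fib F w0).card := Finset.card_image_of_injOn fib_inj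
  have hDne : D.Nonempty := by
    obtain ⟨f, hf, hfw⟩ := Finset.mem_image.mp h0
    exact ⟨f.2.2, Finset.mem_image.mpr ⟨f, Finset.mem_filter.mpr ⟨hf, hfw⟩, rfl⟩⟩
  funext y
  have hvan := vanish_Zp D hDne (by rw [hDcard]; exact hs) (fun e => V (y + injH e)) (by
    intro c j hj
    have hjU : j ∈ U := Finset.mem_erase.mpr ⟨hj, Finset.mem_univ _⟩
    rw [hD, Finset.sum_image fib_inj]
    have h3 := hfib j hjU (y + injH c + embH (r j • w0))
    rw [← h3]
    apply Finset.sum_congr rfl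
    intro f hf
    have hfw : prH f = w0 := (Finset.mem_filter.mp hf).2
    congr 1
    rw [nsmul_split, hfw, hrj j hj, map_sub]
    abel) 0
  simpa using hvan

include hu hP in
/-- A periodic function computing a combination of values of a mean on the tiling. -/
theorem value_Zp {Lam : AddSubgroup (ℤ × ℤ × ZMod p)} (m : InvMean Lam) (ρ : ℤ × ℤ) (Kk : ℕ) (hKk0 : 0 < Kk)
    (hKk : ∀ g, ellH ρ g = 0 → Kk • g ∈ Lam)
    (hdead : ∀ f ∈ F, ∀ f0 ∈ F, prH f ≠ prH f0 → ellH ρ f = ellH ρ f0 →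
      ∀ l ∈ Lam, ∃ κ : ℤ, l = (κ * (F.card : ℤ)) • (f0 - f))
    (f0 : ℤ × ℤ × ZMod p) (hf0 : f0 ∈ F) :
    ∃ G0 : ℤ × ℤ × ZMod p → ℝ, IsPer G0 ∧ (∀ l ∈ Lam, ∀ x, G0 (x + l) = G0 x) ∧
      ∀ a, u a = 1 → G0 a = ((p : ℝ) - (fib F (prH f0)).card) * m.M u a
        + (((fib F (prH f0)).card : ℝ) - 1) * ∑ e, m.M u (a + injH e) := by
  classical
  have hbd : Bd u := bd_of_01 u hu
  have hFpos : 0 < F.card := Finset.card_pos.mpr ⟨f0, hf0⟩
  have hmult : ∀ j : ZMod p, ∃ r : ℕ, 0 < r ∧ Nat.Coprime r F.card ∧ (j ≠ 0 → ((r : ℕ) : ZMod p) = j) := by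
    intro j
    by_cases hj : j = 0
    · exact ⟨1, one_pos, by simp, fun h => absurd hj h⟩
    · obtain ⟨r, hr, hc⟩ := exists_mult F.card hFpos j hj
      refine ⟨r, ?_, hr, fun _ => hc⟩
      rcases Nat.eq_zero_or_pos r with h | h
      · subst h
        apply absurd _ hj
        rw [← hc]
        simp
      · exact h
  choose r hr0 hrc hrj using hmult
  set U := Finset.univ.erase (0 : ZMod p) with hU
  set t := ellH ρ f0 with ht
  let C : ZMod p → ℤ × ℤ × ZMod p → ℝ := fun j x =>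
    ∑ f ∈ F.filter (fun f => ellH ρ f = t), m.M u (x - r j • f)
  have hC : ∀ j, IsPer (C j) := fun j =>
    mean_level_per F u hu hP m (ellH ρ) Kk hKk0 hKk (r j) (hr0 j) (hrc j) t
  let G0 : ℤ × ℤ × ZMod p → ℝ := fun x => ∑ j ∈ U, C j (x + r j • f0)
  refine ⟨G0, ?_, ?_, ?_⟩
  · have : G0 = ∑ j ∈ U, fun x => C j (x + r j • f0) := by
      funext x
      simp [G0]
    rw [this]
    exact IsPer.sum _ _ fun j _ => (hC j).shift _
  · intro l hl x
    simp only [G0, C]
    apply Finset.sum_congr rfl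
    intro j _
    apply Finset.sum_congr rfl
    intro f _
    have e : x + l + r j • f0 - r j • f = x + r j • f0 - r j • f + l := by abel
    rw [e, m.inv u hbd l hl]
  · intro a ha
    set w := prH f0 with hw
    have hf0w : f0 ∈ fib F w := Finset.mem_filter.mpr ⟨hf0, rfl⟩
    -- each dilate
    have h1 : ∀ j ∈ U, C j (a + r j • f0)
        = ∑ f ∈ fib F w, m.M u (a + injH (j * (f0.2.2 - f.2.2))) := by
      intro j hj
      have hj0 : j ≠ 0 := (Finset.mem_erase.mp hj).1
      have hsub : fib F w ⊆ F.filter (fun f => ellH ρ f = t) := by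
        intro f hf
        have hfw : prH f = w := (Finset.mem_filter.mp hf).2
        refine Finset.mem_filter.mpr ⟨(Finset.mem_filter.mp hf).1, ?_⟩
        rw [ellH_apply, hfw, ht, ellH_apply]
      simp only [C]
      rw [← Finset.sum_subset hsub]
      · apply Finset.sum_congr rfl
        intro f hf
        congr 1
        have e : a + r j • f0 - r j • f = a + r j • (f0 - f) := by rw [smul_sub]; abel
        rw [e, fib_sub hf0w hf, ← map_nsmul, nsmul_eq_mul, hrj j hj0]
      · intro f hf hnot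
        have hfF := (Finset.mem_filter.mp hf).1
        have hfl := (Finset.mem_filter.mp hf).2
        have hpr : prH f ≠ prH f0 := by
          intro h
          exact hnot (Finset.mem_filter.mpr ⟨hfF, h⟩)
        have hne : f ≠ f0 := fun h => hpr (by rw [h])
        have e : a + r j • f0 - r j • f = a + r j • (f0 - f) := by rw [smul_sub]; abel
        rw [e]
        exact mean_dead F u hu hP m ha hfF hf0 hne (hdead f hfF f0 hf0 hpr hfl) (r j) (hrc j)
    simp only [G0]
    rw [Finset.sum_congr rfl h1, Finset.sum_comm, ← Finset.add_sum_erase _ _ hf0w]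
    set Y : ZMod p → ℝ := fun e => m.M u (a + injH e) with hY
    have h2 : ∑ j ∈ U, m.M u (a + injH (j * (f0.2.2 - f0.2.2))) = (p - 1) * m.M u a := by
      simp only [sub_self, mul_zero, map_zero, add_zero, Finset.sum_const, nsmul_eq_mul]
      rw [hU, card_units_erase]
    have h3 : ∑ f ∈ (fib F w).erase f0, ∑ j ∈ U, m.M u (a + injH (j * (f0.2.2 - f.2.2)))
        = ∑ f ∈ (fib F w).erase f0, (∑ e, Y e - m.M u a) := by
      apply Finset.sum_congr rfl
      intro f hf
      have hfne := (Finset.mem_erase.mp hf).1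
      have hfw := (Finset.mem_erase.mp hf).2
      have hδ : f0.2.2 - f.2.2 ≠ 0 := by
        intro h0
        apply hfne
        exact fib_inj hfw hf0w (sub_eq_zero.mp h0).symm
      have := sum_mul_units Y 0 (f0.2.2 - f.2.2) hδ
      simp only [zero_add] at this
      rw [this]
      simp [hY]
    rw [h2, h3, Finset.sum_const, Finset.card_erase_of_mem hf0w, nsmul_eq_mul]
    have hcard : 1 ≤ (fib F w).card := Finset.card_pos.mpr ⟨f0, hf0w⟩
    have h6 : (((fib F w).card - 1 : ℕ) : ℝ) = ((fib F w).card : ℝ) - 1 := by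
      push_cast [Nat.cast_sub hcard]
      simp
    rw [h6]
    ring

end

end Vale.Agent.Lib.P043
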