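import Mathlib
import Vale.Agent.Lib.P043.Plane4

/-!
Periodic tiling in `ℤ × ℤ × ZMod p`.
-/

namespace Vale.Agent.Lib.P043

open AddMonoidAlgebra

set_option linter.unusedSectionVars false

variable {p : ℕ} [hp : Fact p.Prime]

/-- Two fibers of different sizes: periodic tiling. -/
theorem plane_two_sizes (F : Finset (ℤ × ℤ × ZMod p)) (u : ℤ × ℤ × ZMod p → ℝ)
    (hu : ∀ x, u x = 0 ∨ u x = 1)
    (hP : ∀ r : ℕ, Nat.Coprime r F.card → ∀ x, ∑ f ∈ F, u (x - r • f) = 1)
    (f1 f2 : ℤ × ℤ × ZMod p) (hf1 : f1 ∈ F) (hf2 : f2 ∈ F)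
    (hne : (fib F (prH f1)).card ≠ (fib F (prH f2)).card) :
    ∃ u' : ℤ × ℤ × ZMod p → ℝ, (∀ x, u' x = 0 ∨ u' x = 1) ∧ (∀ x, ∑ f ∈ F, u' (x - f) = 1) ∧ IsPer u' := by
  classical
  have hnpos : 0 < F.card := Finset.card_pos.mpr ⟨f1, hf1⟩
  have hpos := hp.out.pos
  have hmem1 : prH f1 ∈ F.image prH := Finset.mem_image_of_mem _ hf1
  have hmem2 : prH f2 ∈ F.image prH := Finset.mem_image_of_mem _ hf2
  have hwne : prH f1 ≠ prH f2 := fun h => hne (by rw [h])
  -- a base fiber which is not full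
  obtain ⟨w0, h0, c, hc, hV⟩ : ∃ w0, w0 ∈ F.image prH ∧ ∃ c : ℕ, 0 < c ∧
      act (∏ t ∈ (F.image prH).erase w0, Dl ℝ (embH ((c * (p * F.card)) • (w0 - t)))) u = 0 := by
    have hle1 := fib_card_le F (prH f1)
    have hle2 := fib_card_le F (prH f2)
    by_cases hlt : (fib F (prH f1)).card < p
    · exact ⟨_, hmem1, cube_Zp F u hP _ _ hmem1 hmem2 hwne.symm hlt⟩
    · have hlt2 : (fib F (prH f2)).card < p := by omega
      exact ⟨_, hmem2, cube_Zp F u hP _ _ hmem2 hmem1 hwne hlt2⟩
  refine plane_from_cube F u hu hP w0 h0 _ (Nat.mul_pos hc (Nat.mul_pos hpos hnpos)) hV ?_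
  intro Lam m ρ Kk hKk0 hKk hdead
  obtain ⟨G1, hG1per, hG1inv, hG1⟩ := value_Zp F u hu hP m ρ Kk hKk0 hKk hdead f1 hf1
  obtain ⟨G2, hG2per, hG2inv, hG2⟩ := value_Zp F u hu hP m ρ Kk hKk0 hKk hdead f2 hf2
  set s1 : ℝ := ((fib F (prH f1)).card : ℝ) with hs1
  set s2 : ℝ := ((fib F (prH f2)).card : ℝ) with hs2
  have hsne : s2 - s1 ≠ 0 := by
    intro h0
    apply hne
    have : s1 = s2 := by linarith
    exact Nat.cast_injective (R := ℝ) this
  have hp1 : (p : ℝ) - 1 ≠ 0 := by
    have : (1 : ℝ) < p := by exact_mod_cast hp.out.one_lt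
    linarith
  set dd : ℝ := ((p : ℝ) - 1) * (s2 - s1) with hdd
  have hdd0 : dd ≠ 0 := mul_ne_zero hp1 hsne
  refine ⟨dd⁻¹ • ((s2 - 1) • G1 - (s1 - 1) • G2), ?_, ?_, ?_⟩
  · exact ((hG1per.smul _).sub (hG2per.smul _)).smul _
  · intro l hl x
    simp only [Pi.smul_apply, Pi.sub_apply]
    rw [hG1inv l hl, hG2inv l hl]
  · intro a ha
    simp only [Pi.smul_apply, Pi.sub_apply, smul_eq_mul]
    rw [hG1 a ha, hG2 a ha]
    have key : (s2 - 1) * (((p : ℝ) - s1) * m.M u a + (s1 - 1) * ∑ e, m.M u (a + injH e))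
        - (s1 - 1) * (((p : ℝ) - s2) * m.M u a + (s2 - 1) * ∑ e, m.M u (a + injH e)) = dd * m.M u a := by
      rw [hdd]
      ring
    rw [key, inv_mul_cancel_left₀ hdd0]

/-- the number of points of a fiber of the function -/
noncomputable def fibCount (u : ℤ × ℤ × ZMod p → ℝ) (y : ℤ × ℤ × ZMod p) : ℕ :=
  by classical exact (Finset.univ.filter (fun e : ZMod p => u (y + injH e) = 1)).card

lemma fibCount_cast (u : ℤ × ℤ × ZMod p → ℝ) (hu : ∀ x, u x = 0 ∨ u x = 1) (y : ℤ × ℤ × ZMod p) :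
    ((fibCount u y : ℕ) : ℝ) = ∑ e : ZMod p, u (y + injH e) := by
  classical
  unfold fibCount
  rw [Finset.card_eq_sum_ones, Nat.cast_sum, Finset.sum_filter]
  apply Finset.sum_congr rfl
  intro e _
  rcases hu (y + injH e) with h | h
  · simp [h]
  · simp [h]

/-- The summed identity along fibers. -/
lemma fiber_count_identity (F : Finset (ℤ × ℤ × ZMod p)) (u : ℤ × ℤ × ZMod p → ℝ)
    (hu : ∀ x, u x = 0 ∨ u x = 1) (hs : ∀ x, ∑ f ∈ F, u (x - f) = 1) (x : ℤ × ℤ × ZMod p) :
    ∑ w ∈ F.image prH, (fib F w).card * fibCount u (x - embH w) = p := by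
  have h1 : ∑ e : ZMod p, ∑ f ∈ F, u (x + injH e - f) = p := by
    simp only [hs]
    simp
  rw [Finset.sum_comm, sum_fib F] at h1
  have h2 : ∀ w ∈ F.image prH, ∑ f ∈ fib F w, ∑ e : ZMod p, u (x + injH e - f)
      = ((fib F w).card : ℝ) * (fibCount u (x - embH w) : ℝ) := by
    intro w _
    rw [fibCount_cast u hu, ← nsmul_eq_mul, ← Finset.sum_const]
    apply Finset.sum_congr rfl
    intro f hf
    have hfw : prH f = w := (Finset.mem_filter.mp hf).2
    apply Fintype.sum_equiv (Equiv.subRight f.2.2)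
    intro e
    congr 1
    simp only [Equiv.subRight_apply]
    rw [← hfw]
    have : f = embH (prH f) + injH f.2.2 := by
      ext
      · simp [embH_apply, prH_apply, injH_apply]
      · simp [embH_apply, prH_apply, injH_apply]
      · simp [embH_apply, prH_apply, injH_apply]
    nth_rewrite 1 [this]
    rw [map_sub]
    abel
  rw [Finset.sum_congr rfl h2] at h1
  exact_mod_cast h1

/-- All fibers of the same size: this size divides `p`. -/
lemma same_size_dvd (F : Finset (ℤ × ℤ × ZMod p)) (u : ℤ × ℤ × ZMod p → ℝ)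
    (hu : ∀ x, u x = 0 ∨ u x = 1) (hs : ∀ x, ∑ f ∈ F, u (x - f) = 1) (s : ℕ)
    (hsize : ∀ w ∈ F.image prH, (fib F w).card = s) (x : ℤ × ℤ × ZMod p) :
    s * ∑ w ∈ F.image prH, fibCount u (x - embH w) = p := by
  have h := fiber_count_identity F u hu hs x
  have e : s * ∑ w ∈ F.image prH, fibCount u (x - embH w)
      = ∑ w ∈ F.image prH, (fib F w).card * fibCount u (x - embH w) := by
    rw [Finset.mul_sum]
    apply Finset.sum_congr rfl
    intro w hw
    rw [hsize w hw]
  exact e.trans h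

/-- The theorem for a function with dilation identities. -/
theorem plane_Zp_fun (F : Finset (ℤ × ℤ × ZMod p)) (u : ℤ × ℤ × ZMod p → ℝ)
    (hu : ∀ x, u x = 0 ∨ u x = 1)
    (hP : ∀ r : ℕ, Nat.Coprime r F.card → ∀ x, ∑ f ∈ F, u (x - r • f) = 1) :
    ∃ u' : ℤ × ℤ × ZMod p → ℝ, (∀ x, u' x = 0 ∨ u' x = 1) ∧ (∀ x, ∑ f ∈ F, u' (x - f) = 1) ∧ IsPer u' := by
  classical
  have hs : ∀ x, ∑ f ∈ F, u (x - f) = 1 := by
    intro x
    simpa using hP 1 (by simp) x
  have hFne : F.Nonempty := by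
    by_contra hcon
    rw [Finset.not_nonempty_iff_eq_empty] at hcon
    have := hs 0
    rw [hcon] at this
    simp at this
  obtain ⟨f1, hf1⟩ := hFne
  by_cases hdiff : ∃ f2 ∈ F, (fib F (prH f1)).card ≠ (fib F (prH f2)).card
  · obtain ⟨f2, hf2, hne⟩ := hdiff
    exact plane_two_sizes F u hu hP f1 f2 hf1 hf2 hne
  push Not at hdiff
  set s := (fib F (prH f1)).card with hsdef
  have hsize : ∀ w ∈ F.image prH, (fib F w).card = s := by
    intro w hw
    obtain ⟨f, hf, rfl⟩ := Finset.mem_image.mp hw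
    exact (hdiff f hf).symm
  have hdvd : s ∣ p := ⟨_, (same_size_dvd F u hu hs s hsize 0).symm⟩
  rcases (Nat.dvd_prime hp.out).mp hdvd with h1 | hfull
  · -- singleton fibers
    apply plane_singleton_fiber F u hu hP f1 hf1
    intro f hf hpr
    have hc : (fib F (prH f1)).card = 1 := h1
    obtain ⟨a, ha⟩ := Finset.card_eq_one.mp hc
    have m1 : f ∈ fib F (prH f1) := Finset.mem_filter.mpr ⟨hf, hpr⟩
    have m2 : f1 ∈ fib F (prH f1) := Finset.mem_filter.mpr ⟨hf1, rfl⟩
    rw [ha, Finset.mem_singleton] at m1 m2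
    rw [m1, m2]
  · -- full fibers
    set T := F.image prH with hT
    have hsum1 : ∀ x, ∑ w ∈ T, fibCount u (x - embH w) = 1 := by
      intro x
      have := same_size_dvd F u hu hs s hsize x
      rw [hfull] at this
      exact Nat.eq_of_mul_eq_mul_left hp.out.pos (by rw [this, mul_one])
    have hf1T : prH f1 ∈ T := Finset.mem_image_of_mem _ hf1
    have hcount : ∀ y, fibCount u y = 0 ∨ fibCount u y = 1 := by
      intro y
      have h1 := hsum1 (y + embH (prH f1))
      have h2 : fibCount u y ≤ ∑ w ∈ T, fibCount u (y + embH (prH f1) - embH w) := by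
        have := Finset.single_le_sum (f := fun w => fibCount u (y + embH (prH f1) - embH w))
          (fun _ _ => Nat.zero_le _) hf1T
        simpa using this
      omega
    let u1 : ℤ × ℤ × ZMod p → ℝ := fun y => (fibCount u y : ℝ)
    have hu1 : ∀ y, u1 y = 0 ∨ u1 y = 1 := by
      intro y
      rcases hcount y with h | h
      · left; simp [u1, h]
      · right; simp [u1, h]
    let F1 : Finset (ℤ × ℤ × ZMod p) := T.image embH
    have hinj : Function.Injective (embH : ℤ × ℤ →+ ℤ × ℤ × ZMod p) := by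
      intro a b hab
      have := congrArg prH hab
      simpa [prH_embH] using this
    have hs1 : ∀ x, ∑ f ∈ F1, u1 (x - f) = 1 := by
      intro x
      rw [Finset.sum_image (fun a _ b _ h => hinj h)]
      have := hsum1 x
      simp only [u1]
      exact_mod_cast this
    obtain ⟨u2, hu2, hP2⟩ := exists_dilated_fun F1 u1 hu1 hs1
    have hmem1 : embH (prH f1) ∈ F1 := Finset.mem_image_of_mem _ hf1T
    obtain ⟨u3, hu3, hs3, K, hK, hper3⟩ := plane_singleton_fiber F1 u2 hu2 hP2 _ hmem1 (by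
      intro f hf hpr
      obtain ⟨w, _, rfl⟩ := Finset.mem_image.mp hf
      rw [prH_embH, prH_embH] at hpr
      rw [hpr])
    -- the tiling of the full tile
    let u4 : ℤ × ℤ × ZMod p → ℝ := fun x => if x.2.2 = 0 then u3 x else 0
    refine ⟨u4, ?_, ?_, ?_⟩
    · intro x
      simp only [u4]
      split_ifs
      · exact hu3 x
      · left; rfl
    · intro x
      have hfib : ∀ w ∈ T, ∑ f ∈ fib F w, u4 (x - f) = u3 ((x.1, x.2.1, 0) - embH w) := by
        intro w hw
        -- the point of the fiber with the given last coordinate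
        have himage : (fib F w).image (fun f : ℤ × ℤ × ZMod p => f.2.2) = Finset.univ := by
          apply Finset.eq_univ_of_card
          rw [Finset.card_image_of_injOn fib_inj, hsize w hw, hfull, ZMod.card]
        have hex : ∃ f ∈ fib F w, f.2.2 = x.2.2 := by
          have : x.2.2 ∈ (fib F w).image (fun f : ℤ × ℤ × ZMod p => f.2.2) := by
            rw [himage]
            exact Finset.mem_univ _
          obtain ⟨f, hf, he⟩ := Finset.mem_image.mp this
          exact ⟨f, hf, he⟩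
        obtain ⟨f0, hf0, hf0e⟩ := hex
        have hf0w : prH f0 = w := (Finset.mem_filter.mp hf0).2
        rw [Finset.sum_eq_single f0]
        · simp only [u4]
          rw [if_pos (by simp [hf0e])]
          congr 1
          rw [← hf0w]
          ext
          · simp [embH_apply, prH_apply]
          · simp [embH_apply, prH_apply]
          · simp [embH_apply, hf0e]
        · intro f hf hne
          simp only [u4]
          rw [if_neg]
          intro h0
          apply hne
          apply fib_inj hf hf0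
          simp only [Prod.snd_sub, sub_eq_zero] at h0
          simp only
          rw [hf0e, h0]
        · intro hnot
          exact absurd hf0 hnot
      rw [sum_fib F, Finset.sum_congr rfl hfib]
      have := hs3 (x.1, x.2.1, 0)
      rw [Finset.sum_image (fun a _ b _ h => hinj h)] at this
      exact this
    · refine ⟨K * p, Nat.mul_pos hK hp.out.pos, ?_⟩
      intro g x
      simp only [u4]
      have e1 : (x + (K * p) • g).2.2 = x.2.2 := by
        simp only [Prod.snd_add, Prod.smul_snd]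
        have : (K * p) • g.2.2 = 0 := by
          rw [mul_comm, mul_smul, nsmul_eq_mul]
          simp
        rw [this, add_zero]
      rw [e1, (hper3.mul_right p) g x]

/-- Periodic tiling conjecture for `ℤ × ℤ × ZMod p`. -/
theorem plane_Zp (F : Finset (ℤ × ℤ × ZMod p)) (A : Set (ℤ × ℤ × ZMod p))
    (hA : ∀ g : ℤ × ℤ × ZMod p, ∃! q : (ℤ × ℤ × ZMod p) × (ℤ × ℤ × ZMod p),
      q.1 ∈ A ∧ q.2 ∈ F ∧ q.1 + q.2 = g) :
    ∃ (A' : Set (ℤ × ℤ × ZMod p)) (L : AddSubgroup (ℤ × ℤ × ZMod p)), L.FiniteIndex ∧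
      (∀ h ∈ L, ∀ a, a + h ∈ A' ↔ a ∈ A') ∧
      ∀ g : ℤ × ℤ × ZMod p, ∃! q : (ℤ × ℤ × ZMod p) × (ℤ × ℤ × ZMod p),
        q.1 ∈ A' ∧ q.2 ∈ F ∧ q.1 + q.2 = g := by
  obtain ⟨u, hu, hP⟩ := exists_dilated F A hA
  obtain ⟨u', hu', hs, hper⟩ := plane_Zp_fun F u hu hP
  exact tiling_of_fun F u' hu' hs hper

end Vale.Agent.Lib.P043
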